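import Vale.Agent.P298.H707.Glue6
import Vale.Agent.P298.H928.Th2

/-!
P298, row E1-GLUE-INT (helper707): the surface charts over the tree of helper928. One root system
at the two ends of a node.
-/

namespace Vale.Agent.P298.H707

open Set Filter Topology Metric Polynomial Vale.Agent.P298 Vale.Agent.P298.H379
open Vale.Agent.P298.H928
open Vale.Agent.P298.H983 (omg powBall)

theorem analyticAt_swp (q : ℂ × ℂ) : AnalyticAt ℂ (fun q : ℂ × ℂ => ((q.2, q.1) : ℂ × ℂ)) q :=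
  analyticAt_snd.prod analyticAt_fst

theorem MonU.swp {g : ℂ × ℂ → ℂ} {i j : ℕ} (hg : MonU g i j) :
    MonU (fun q => g (q.2, q.1)) j i := by
  obtain ⟨u, hu, hu0, h⟩ := hg
  refine ⟨fun q => u (q.2, q.1), hu.comp_of_eq (analyticAt_swp 0) rfl, hu0, ?_⟩
  filter_upwards [H928.tendsto_swap.eventually h] with q hq
  rw [hq]
  ring

theorem CR.swp {P : ℂ × ℂ → ℂ[X]} {Θ : ℂ × ℂ → ℂ × ℂ} {n K : ℕ} {ζ : Fin n → ℂ × ℂ → ℂ}
    {σ ρ : Equiv.Perm (Fin n)} (h : CR P Θ n K ζ σ ρ) :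
    CR P (fun q => Θ (q.2, q.1)) n K (fun l q => ζ l (q.2, q.1)) ρ σ where
  hK := h.hK
  hol l := (h.hol l).comp_of_eq (analyticAt_swp 0) rfl
  zero l := h.zero l
  prod := H928.tendsto_swap.eventually h.prod
  inj := by
    filter_upwards [H928.tendsto_swap.eventually h.inj] with q hq h1 h2
    exact hq h2 h1
  mon1 := H928.tendsto_swap.eventually h.mon2
  mon2 := H928.tendsto_swap.eventually h.mon1
  comm := h.comm.symm
  dif i j hij := by
    obtain ⟨p, r, hpr⟩ := h.dif i j hij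
    exact ⟨r, p, hpr.swp⟩
  der l := by
    obtain ⟨p, r, hpr⟩ := h.der l
    exact ⟨r, p, hpr.swp⟩

variable {H : ℂ × ℂ → ℂ}

/-- the places of the vertices of the tree -/
abbrev PlT (T : Tree H) := {w : List (Option ℂ) // w ∈ T.C} × Option ℂ

/-- the chart at a place -/
noncomputable def ThT (T : Tree H) (i : PlT T) : ℂ × ℂ → ℂ × ℂ := T.Th i.1 i.2

/-- `j` is the end place of the node at the place `i` -/
def NodeT {T : Tree H} (i j : PlT T) : Prop :=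
  i.2 :: i.1.1 ∈ T.C ∧ T.ew i.1.1 i.2 = j.2 :: j.1.1

theorem NodeT.swap {T : Tree H} (hH0 : H 0 = 0) {i j : PlT T} (h : NodeT i j) (q : ℂ × ℂ) :
    ThT T j q = ThT T i (q.2, q.1) := by
  obtain ⟨u, e, -, -, h3, -, h5⟩ := T.Th_swap hH0 i.1.2 h.1
  have h6 := h.2.symm.trans h3
  rw [List.cons.injEq] at h6
  rw [ThT, ThT, h6.1, h6.2]
  exact h5 q

theorem NodeT.notMem {T : Tree H} {i j : PlT T} (h : NodeT i j) : j.2 :: j.1.1 ∉ T.C := by
  obtain ⟨e, u, h1, -, h3⟩ := T.ew_eq i.1.2 i.2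
  rw [← h.2, h1]
  exact h3

theorem exists_nodeT {T : Tree H} {i : PlT T} (h : i.2 :: i.1.1 ∈ T.C) : ∃ j, NodeT i j := by
  obtain ⟨e, u, h1, h2, -⟩ := T.ew_eq i.1.2 i.2
  exact ⟨(⟨u, h2⟩, e), h, h1⟩

theorem NodeT.unique {T : Tree H} {i j j' : PlT T} (h : NodeT i j) (h' : NodeT i j') : j = j' := by
  have h1 := h.2.symm.trans h'.2
  rw [List.cons.injEq] at h1
  exact Prod.ext (Subtype.ext h1.2) h1.1

theorem NodeT.unique' {T : Tree H} {i i' j : PlT T} (h : NodeT i j) (h' : NodeT i' j) : i = i' := by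
  obtain ⟨h1, h2⟩ := T.ew_inj h.1 h'.1 (h.2.trans h'.2.symm)
  exact Prod.ext (Subtype.ext h1) h2

theorem ThT_covers (T : Tree H) : Covers (ThT T) := by
  classical
  intro ρ hρ
  obtain ⟨F, r, hF, hr, hcov⟩ := T.Th_cover
    (fun w d => if h : w ∈ T.C then ρ (⟨w, h⟩, d) else 1)
    (fun w d => by
      split_ifs
      · exact hρ _
      · exact one_pos)
  refine ⟨F.attach.image fun x => ((⟨x.1.1, (hF x.1 x.2).1⟩, x.1.2) : PlT T), r, hr,
    fun p hp hpr => ?_⟩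
  obtain ⟨x, hx, q, hq, hxq⟩ := hcov p hpr hp
  have h1 := (hF x hx).1
  refine ⟨(⟨x.1, h1⟩, x.2), Finset.mem_image.2 ⟨⟨x, hx⟩, Finset.mem_attach _ _, rfl⟩, q, ?_, hxq⟩
  rwa [dif_pos h1] at hq

/-- the model of the surface over the tree of point blow-ups -/
structure JungT (f : (Fin 3 → ℂ) → ℂ) (n : ℕ) (P : ℂ × ℂ → ℂ[X]) (v : ℂ × (ℂ × ℂ) → ℂ)
    (T : Tree fun p => p.1 * disc n P p) (ζ : PlT T → Fin n → ℂ × ℂ → ℂ)
    (σ ρ : PlT T → Equiv.Perm (Fin n)) : Prop where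
  M : Model f (ThT T) n P v (fun _ => n.factorial) ζ σ ρ
  edge_ζ : ∀ i j, NodeT i j → ∀ l q, ζ j l q = ζ i l (q.2, q.1)
  edge_σ : ∀ i j, NodeT i j → σ j = ρ i
  edge_ρ : ∀ i j, NodeT i j → ρ j = σ i

/-- **Existence of the model.** -/
theorem exists_jungT {f : (Fin 3 → ℂ) → ℂ} (hf : Hol f) {μ : ℕ} (hμ : Milnor f μ) {n : ℕ}
    {P : ℂ × ℂ → ℂ[X]} {v : ℂ × (ℂ × ℂ) → ℂ} (W : WD f n P v) :
    ∃ T ζ σ ρ, JungT f n P v T ζ σ ρ := by
  classical
  have hD := W.analyticAt_disc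
  have hH : AnalyticAt ℂ (fun p : ℂ × ℂ => p.1 * disc n P p) 0 := analyticAt_fst.mul hD
  have hne : ¬ ∀ᶠ q in 𝓝 (0 : ℂ × ℂ), (fun p : ℂ × ℂ => p.1 * disc n P p) q = 0 := by
    intro h
    apply W.disc_frequently hf hμ
    obtain ⟨r, hr, hb⟩ := Metric.eventually_nhds_iff_ball.1 (h.and hD.eventually_analyticAt)
    filter_upwards [ball_mem_nhds (0 : ℂ × ℂ) hr] with q hq
    rw [not_not]
    have h3 : ContinuousAt (fun a : ℂ => disc n P (a, q.2)) q.1 := by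
      have h4 := ((hb q hq).2).continuousAt
      have h5 : ContinuousAt (fun a : ℂ => ((a, q.2) : ℂ × ℂ)) q.1 := by fun_prop
      exact ContinuousAt.comp (g := disc n P) (f := fun a : ℂ => ((a, q.2) : ℂ × ℂ)) h4 h5
    have h6 : ∀ᶠ a in 𝓝[≠] q.1, a ≠ 0 := by
      rcases eq_or_ne q.1 0 with h7 | h7
      · rw [h7]
        exact self_mem_nhdsWithin
      · exact eventually_nhdsWithin_of_eventually_nhds (continuousAt_id.eventually_ne h7)
    have h7 : ∀ᶠ a in 𝓝 q.1, ((a, q.2) : ℂ × ℂ) ∈ ball (0 : ℂ × ℂ) r := by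
      have h8 : ContinuousAt (fun a : ℂ => ((a, q.2) : ℂ × ℂ)) q.1 := by fun_prop
      exact h8.eventually (isOpen_ball.mem_nhds hq)
    have h8 : ∀ᶠ a in 𝓝[≠] q.1, disc n P (a, q.2) = 0 := by
      filter_upwards [h6, eventually_nhdsWithin_of_eventually_nhds h7] with a h9 h10
      have h11 := (hb _ h10).1
      exact (mul_eq_zero.1 h11).resolve_left h9
    have h9 : Tendsto (fun a : ℂ => disc n P (a, q.2)) (𝓝[≠] q.1) (𝓝 (disc n P q)) :=
      h3.tendsto.mono_left nhdsWithin_le_nhds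
    have h10 : Tendsto (fun a : ℂ => disc n P (a, q.2)) (𝓝[≠] q.1) (𝓝 0) :=
      tendsto_const_nhds.congr' (by filter_upwards [h8] with a ha; exact ha.symm)
    exact tendsto_nhds_unique h9 h10
  obtain ⟨T⟩ := exists_tree hH hne
  have hH0 : (fun p : ℂ × ℂ => p.1 * disc n P p) 0 = 0 := by simp
  obtain ⟨ζ, σ, ρ, M⟩ := exists_model hf W (ThT_covers T)
    (fun i => T.analyticAt_Th i.1.2 i.2) (fun i => T.Th_zero i.1.2 i.2)
    (H := fun p => p.1 * disc n P p) (Eventually.of_forall fun p hp => right_ne_zero_of_mul hp)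
    (fun i => by
      obtain ⟨a, b, -, h⟩ := T.mu_Th hH0 i.1.2 i.2
      exact ⟨a, b, h⟩)
    (K := fun _ => n.factorial) (fun _ => dvd_rfl) (fun _ => n.factorial_ne_zero)
  -- the roots at the ends; the roots at a centre are those of the end of the node
  have hpar : ∀ i : PlT T, ∃ j : PlT T, i.2 :: i.1.1 ∈ T.C → NodeT i j := by
    intro i
    by_cases hi : i.2 :: i.1.1 ∈ T.C
    · obtain ⟨j, hj⟩ := exists_nodeT hi
      exact ⟨j, fun _ => hj⟩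
    · exact ⟨i, fun h => absurd h hi⟩
  choose par hpar using hpar
  refine ⟨T, fun i => if i.2 :: i.1.1 ∈ T.C then fun l q => ζ (par i) l (q.2, q.1) else ζ i,
    fun i => if i.2 :: i.1.1 ∈ T.C then ρ (par i) else σ i,
    fun i => if i.2 :: i.1.1 ∈ T.C then σ (par i) else ρ i,
    ⟨M.hf, M.W, M.cov, M.an, M.zero, fun i => ?_⟩, ?_, ?_, ?_⟩
  · by_cases hi : i.2 :: i.1.1 ∈ T.C
    · simp only [if_pos hi]
      have h1 := (M.C (par i)).swp
      have h2 : (fun q : ℂ × ℂ => ThT T (par i) (q.2, q.1)) = ThT T i := by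
        funext q
        exact (hpar i hi).swap hH0 (q.2, q.1)
      rw [h2] at h1
      exact h1
    · simp only [if_neg hi]
      exact M.C i
  all_goals
    intro i j h
    have hj := h.notMem
    have hp : par i = j := (hpar i h.1).unique h
    simp only [if_pos h.1, if_neg hj, hp, implies_true]

namespace JungT

variable {f : (Fin 3 → ℂ) → ℂ} {n : ℕ} {P : ℂ × ℂ → ℂ[X]} {v : ℂ × (ℂ × ℂ) → ℂ}
  {T : Tree fun p => p.1 * disc n P p} {ζ : PlT T → Fin n → ℂ × ℂ → ℂ}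
  {σ ρ : PlT T → Equiv.Perm (Fin n)}

theorem H0 (n : ℕ) (P : ℂ × ℂ → ℂ[X]) : (fun p : ℂ × ℂ => p.1 * disc n P p) 0 = 0 := by simp

/-- orders of the Jacobian of the chart of the plane -/
theorem jac (T : Tree fun p => p.1 * disc n P p) (i : PlT T) :
    ∃ a b, MonU (jacP (ThT T i)) a b := T.mu_jac_Th (H0 n P) i.1.2 i.2

theorem exc (T : Tree fun p => p.1 * disc n P p) (i : PlT T) (t : ℂ) : ThT T i (0, t) = 0 :=
  T.Th_fst_zero i.1.1 i.2 t

theorem inj (T : Tree fun p => p.1 * disc n P p) (i : PlT T) :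
    ∃ r : ℝ, 0 < r ∧ ∀ s s' : ℂ × ℂ, ‖s‖ < r → ‖s'‖ < r → s.1 ≠ 0 → s.2 ≠ 0 →
      s'.1 ≠ 0 → s'.2 ≠ 0 → ThT T i s = ThT T i s' → s = s' := by
  obtain ⟨r, hr, h1, -⟩ := T.injOn_Th (H0 n P) i.1.2 i.2
  exact ⟨r, hr, fun s s' h2 h3 h4 h5 h6 h7 h8 => h1 ⟨h2, h4, h5⟩ ⟨h3, h6, h7⟩ h8⟩

theorem n_pos (J : JungT f n P v T ζ σ ρ) (hf0 : f 0 = 0) : 0 < n := by
  have h1 := J.M.W.fac.self_of_nhds
  have h2 : f (pt ((0 : ℂ × (ℂ × ℂ)).2) (0 : ℂ × (ℂ × ℂ)).1) = 0 := by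
    have : pt ((0 : ℂ × (ℂ × ℂ)).2) (0 : ℂ × (ℂ × ℂ)).1 = 0 := pt_zero
    rw [this, hf0]
  rw [h2, zero_mul] at h1
  have h3 : P ((0 : ℂ × (ℂ × ℂ)).2) = X ^ n := J.M.W.zero
  rw [h3, eval_pow, eval_X] at h1
  by_contra h4
  have h5 : n = 0 := by omega
  rw [h5, pow_zero] at h1
  exact zero_ne_one h1

end JungT

end Vale.Agent.P298.H707
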