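import Vale.Agent.P298.H707.Glue5
import Vale.Agent.P298.H941.Poly
import Vale.Agent.P298.H373.Nu
import Vale.Agent.P298.Bdl.B1

/-!
P298, row E1-GLUE-INT (helper707): the discriminant of the Weierstrass polynomial of an isolated
surface singularity, and existence of the model over every good covering of the plane.
-/

namespace Vale.Agent.P298.H707

open Set Filter Topology Metric Polynomial MeasureTheory Vale.Agent.P298 Vale.Agent.P298.H379
open Vale.Agent.P298.H983 (omg powBall)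

variable {f : (Fin 3 → ℂ) → ℂ} {n : ℕ} {P : ℂ × ℂ → ℂ[X]} {v : ℂ × (ℂ × ℂ) → ℂ}

/-- the critical point of a germ with finite Milnor number is isolated -/
theorem crit_isolated {N : ℕ} {f : (Fin N → ℂ) → ℂ} (hf : Hol f) {μ : ℕ} (hμ : Milnor f μ) :
    ∀ᶠ x in 𝓝 (0 : Fin N → ℂ), (∀ j, pd j f x = 0) → x = 0 := by
  have hpd : ∀ j, AnalyticAt ℂ (pd j f) 0 := by
    intro j
    have h1 : AnalyticAt ℂ (fderiv ℂ f) 0 := AnalyticAt.fderiv hf
    have h2 : AnalyticAt ℂ (fun L : (Fin N → ℂ) →L[ℂ] ℂ => L (Pi.single j 1)) (fderiv ℂ f 0) :=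
      (ContinuousLinearMap.apply ℂ ℂ (Pi.single j (1 : ℂ) : Fin N → ℂ)).analyticAt _
    exact h2.comp_of_eq h1 rfl
  have h := eq_zero_of_colength (Λ := ℂ) (n := N) 0 (fun j p => pd j f p.1) (fun j => by
    refine AnalyticAt.comp_of_eq (g := pd j f) (hpd j) analyticAt_fst rfl) μ
    (Eventually.of_forall fun _ => hμ)
  have hc : Tendsto (fun x : Fin N → ℂ => ((x, 0) : (Fin N → ℂ) × ℂ)) (𝓝 0) (𝓝 (0, 0)) :=
    (Continuous.prodMk_left (0 : ℂ)).continuousAt
  filter_upwards [hc.eventually h] with x hx h0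
  exact hx h0

/-- the discriminant germ -/
noncomputable def disc (n : ℕ) (P : ℂ × ℂ → ℂ[X]) (p : ℂ × ℂ) : ℂ :=
  resultant (P p) (derivative (P p)) n n

theorem WD.analyticAt_disc (W : WD f n P v) : AnalyticAt ℂ (disc n P) 0 := by
  refine H941.analyticAt_resultant W.hol (fun i => ?_) n n
  simp only [coeff_derivative]
  exact (W.hol (i + 1)).mul analyticAt_const

theorem WD.disc_ne (W : WD f n P v) (p : ℂ × ℂ) :
    disc n P p ≠ 0 ↔ ∀ z, (P p).eval z = 0 → (derivative (P p)).eval z ≠ 0 := by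
  have h := H941.resultant_monic_eq_zero_iff (P := P p) (R := derivative (P p)) (b := n) (n := n)
    (W.monic p) (W.deg p) ((natDegree_derivative_le _).trans (by rw [W.deg]; omega))
  rw [disc, Ne, h]
  push Not
  rfl

/-- the discriminant of an isolated singularity is not identically zero -/
theorem WD.disc_frequently (W : WD f n P v) (hf : Hol f) {μ : ℕ} (hμ : Milnor f μ) :
    ∃ᶠ p in 𝓝 (0 : ℂ × ℂ), disc n P p ≠ 0 := by
  -- a ball on which `f` is analytic with isolated critical point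
  have h1 : ∀ᶠ x in 𝓝 (0 : Fin 3 → ℂ), AnalyticAt ℂ f x := AnalyticAt.eventually_analyticAt hf
  obtain ⟨r, hr, hball⟩ := Metric.eventually_nhds_iff.1 (h1.and (crit_isolated hf hμ))
  have hreg := H373.ae_regular (f := f) (Ω := ball (0 : Fin 3 → ℂ) r) isOpen_ball
    (fun x hx => (hball hx).1) 0 (by
      refine Set.Countable.mono ?_ (Set.countable_singleton (0 : Fin 3 → ℂ))
      rintro x ⟨hx, -, hx2⟩
      exact (hball hx).2 hx2)
  -- the roots are small
  obtain ⟨ε, hε, hfac⟩ := Metric.eventually_nhds_iff.1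
    (W.fac.and ((W.pd_eq hf).and (W.va.continuousAt.eventually_ne W.v0)))
  have hsmall : ∀ᶠ p in 𝓝 (0 : ℂ × ℂ), ∀ z, (P p).eval z = 0 → ‖z‖ < min ε r :=
    H941.roots_small (fun y => ⟨W.monic y, W.deg y⟩) (fun i => (W.hol i).continuousAt) W.zero
      (lt_min hε hr)
  have hp : ∀ᶠ p : ℂ × ℂ in 𝓝 0, ‖p‖ < min ε r := by
    have := continuous_norm.tendsto (0 : ℂ × ℂ)
    rw [norm_zero] at this
    exact this.eventually_lt_const (lt_min hε hr)
  intro hcon
  -- a neighbourhood on which the discriminant vanishes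
  have hall := (hcon.and (hsmall.and hp))
  obtain ⟨δ, hδ, hδb⟩ := Metric.eventually_nhds_iff_ball.1 hall
  have hpos : (volume : Measure (ℂ × ℂ)) (ball 0 δ) ≠ 0 := by
    rw [← ball_prod_same, Measure.volume_eq_prod, Measure.prod_prod]
    exact mul_ne_zero (measure_ball_pos volume _ hδ).ne' (measure_ball_pos volume _ hδ).ne'
  apply hpos
  refine measure_mono_null ?_ (ae_iff.1 hreg)
  intro p hpb hregp
  obtain ⟨h2, h3, h4⟩ := hδb p hpb
  apply h2
  rw [W.disc_ne]
  intro z hz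
  have hzs := h3 z hz
  have hzp : dist ((z, p) : ℂ × (ℂ × ℂ)) 0 < ε := by
    rw [dist_zero_right, Prod.norm_def]
    exact max_lt (lt_of_lt_of_le hzs (min_le_left _ _)) (lt_of_lt_of_le h4 (min_le_left _ _))
  obtain ⟨e1, e2, e3⟩ := hfac hzp
  simp only at e1 e2
  rw [hz] at e1
  have hf0 : f (pt p z) = 0 := (mul_eq_zero.1 e1).resolve_right e3
  have hmem : pt p z ∈ ball (0 : Fin 3 → ℂ) r := by
    rw [mem_ball, dist_zero_right, pi_norm_lt_iff hr]
    intro i
    have h5 : ‖p‖ < r := lt_of_lt_of_le h4 (min_le_right _ _)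
    rw [Prod.norm_def, max_lt_iff] at h5
    fin_cases i
    · exact h5.1
    · exact h5.2
    · exact lt_of_lt_of_le hzs (min_le_right _ _)
  have h6 := hregp z hmem hf0
  rw [← e2 hf0]
  exact mul_ne_zero h6 e3

/-- **Existence of the model** over a covering of the plane in whose charts a germ divisible by
the discriminant is a monomial times a unit. -/
theorem exists_model {f : (Fin 3 → ℂ) → ℂ} (hf : Hol f) {v : ℂ × (ℂ × ℂ) → ℂ} (W : WD f n P v)
    {κ : Type*} {Θ : κ → ℂ × ℂ → ℂ × ℂ} (hcov : Covers Θ) (han : ∀ i, AnalyticAt ℂ (Θ i) 0)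
    (h0 : ∀ i, Θ i 0 = 0) {H : ℂ × ℂ → ℂ}
    (hH : ∀ᶠ p in 𝓝 (0 : ℂ × ℂ), H p ≠ 0 → disc n P p ≠ 0)
    (hmon : ∀ i, ∃ a b, MonU (fun q => H (Θ i q)) a b) {K : κ → ℕ}
    (hK : ∀ i, n.factorial ∣ K i) (hK0 : ∀ i, K i ≠ 0) :
    ∃ ζ σ ρ, Model f Θ n P v K ζ σ ρ := by
  have hex : ∀ i, ∃ ζ σ ρ, CR P (Θ i) n (K i) ζ σ ρ := by
    intro i
    refine exists_CR W.monic W.deg W.hol W.zero (han i) (h0 i) ?_ (hK i) (hK0 i)
    obtain ⟨a, b, hab⟩ := hmon i
    have ht : Tendsto (Θ i) (𝓝 0) (𝓝 0) := by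
      have := (han i).continuousAt.tendsto
      rwa [h0 i] at this
    filter_upwards [hab.ne_zero, ht.eventually hH] with q h1 h2 hq1 hq2 z hz
    exact (W.disc_ne (Θ i q)).1 (h2 (h1 hq1 hq2)) z hz
  choose ζ σ ρ hC using hex
  exact ⟨ζ, σ, ρ, hf, W, hcov, han, h0, hC⟩

end Vale.Agent.P298.H707
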