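import Vale.Agent.P298.H707.Glue6
import Vale.Agent.P298.H928.Cov

/-!
P298, row E1-GLUE-INT (helper707): the tree of point blow-ups, combinatorics of the words and the
orders of the coordinate and of the Jacobian along the curves.
-/

namespace Vale.Agent.P298.H707

open Set Filter Topology Metric Polynomial Vale.Agent.P298 Vale.Agent.P298.H379
open Vale.Agent.P298.H928

/-- the words (infinitely near points) -/
abbrev Wd := List (Option ℂ)

open Classical in
/-- the word whose first coordinate line is the second coordinate line of the given word -/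
noncomputable def sec : Wd → Option Wd
  | [] => none
  | none :: u => some u
  | some c :: u => if c = 0 then sec u else none

@[simp] theorem sec_nil : sec [] = none := rfl
@[simp] theorem sec_none (u : Wd) : sec (none :: u) = some u := rfl
theorem sec_some (c : ℂ) (u : Wd) : sec (some c :: u) = if c = 0 then sec u else none := by
  rw [sec]
@[simp] theorem sec_some_zero (u : Wd) : sec (some 0 :: u) = sec u := by rw [sec_some, if_pos rfl]

open Classical in
/-- the orders along the two coordinate lines: initial order `m₀`, gain `δ` -/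
noncomputable def mlt (δ m₀ : ℕ) : Wd → ℕ × ℕ
  | [] => (m₀, 0)
  | none :: u => ((mlt δ m₀ u).1 + (mlt δ m₀ u).2 + δ, (mlt δ m₀ u).1)
  | some c :: u => ((mlt δ m₀ u).1 + (mlt δ m₀ u).2 + δ, if c = 0 then (mlt δ m₀ u).2 else 0)

theorem mlt_nil (δ m₀ : ℕ) : mlt δ m₀ [] = (m₀, 0) := rfl

/-- order along the curve obtained by blowing up the point `w` -/
noncomputable def mtop (δ m₀ : ℕ) (w : Wd) : ℕ := (mlt δ m₀ w).1 + (mlt δ m₀ w).2 + δ

theorem mlt_cons_fst (δ m₀ : ℕ) (d : Option ℂ) (w : Wd) :
    (mlt δ m₀ (d :: w)).1 = mtop δ m₀ w := by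
  cases d <;> rfl

/-- order along the line `{q.1 = 0}` at `u`, zero if there is none -/
noncomputable def mo (δ m₀ : ℕ) (o : Option Wd) : ℕ := o.elim 0 fun u => (mlt δ m₀ u).1

@[simp] theorem mo_none (δ m₀ : ℕ) : mo δ m₀ none = 0 := rfl
@[simp] theorem mo_some (δ m₀ : ℕ) (u : Wd) : mo δ m₀ (some u) = (mlt δ m₀ u).1 := rfl

theorem mlt_snd (δ m₀ : ℕ) (w : Wd) : (mlt δ m₀ w).2 = mo δ m₀ (sec w) := by
  induction w with
  | nil => rfl
  | cons d u ih =>
    rcases d with _ | c
    · rfl
    · rw [sec_some]
      by_cases hc : c = 0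
      · rw [if_pos hc, ← ih]
        change (if c = 0 then (mlt δ m₀ u).2 else 0) = _
        rw [if_pos hc]
      · rw [if_neg hc]
        change (if c = 0 then (mlt δ m₀ u).2 else 0) = _
        rw [if_neg hc]
        rfl

theorem mlt_x_pos (w : Wd) : 0 < (mlt 0 1 w).1 := by
  induction w with
  | nil => exact one_pos
  | cons d u ih => rw [mlt_cons_fst, mtop]; omega

theorem mtop_x_pos (w : Wd) : 0 < mtop 0 1 w := by
  rw [← mlt_cons_fst 0 1 none w]
  exact mlt_x_pos _

/-! ### Orders of functions -/

open Classical in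
theorem MonU.bl {g : ℂ × ℂ → ℂ} {i j : ℕ} (hg : MonU g i j) (d : Option ℂ) :
    MonU (fun q => g (bl d q)) (i + j) (d.elim i fun c => if c = 0 then j else 0) := by
  obtain ⟨u, hu, hu0, h⟩ := hg
  have hud : AnalyticAt ℂ (fun q => u (H928.bl d q)) 0 := hu.comp_of_eq (analyticAt_bl d 0) (bl_zero d)
  have hud0 : u (H928.bl d 0) ≠ 0 := by rwa [bl_zero]
  have hb := (tendsto_bl d).eventually h
  rcases d with _ | c
  · refine ⟨fun q => u (H928.bl none q), hud, hud0, ?_⟩
    filter_upwards [hb] with q hq
    rw [hq]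
    simp only [bl_none, Option.elim_none]
    ring
  · simp only [Option.elim_some]
    by_cases hc : c = 0
    · rw [if_pos hc]
      refine ⟨fun q => u (H928.bl (some c) q), hud, hud0, ?_⟩
      filter_upwards [hb] with q hq
      rw [hq]
      simp only [bl_some, hc, add_zero]
      ring
    · rw [if_neg hc]
      refine ⟨fun q => (q.2 + c) ^ j * u (H928.bl (some c) q),
        ((analyticAt_snd.add analyticAt_const).pow j).mul hud, ?_, ?_⟩
      · refine mul_ne_zero (pow_ne_zero _ ?_) hud0
        rw [Prod.snd_zero, zero_add]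
        exact hc
      · filter_upwards [hb] with q hq
        rw [hq]
        simp only [bl_some]
        rw [mul_pow]
        ring

theorem MonU.mul_fst {g : ℂ × ℂ → ℂ} {i j : ℕ} (hg : MonU g i j) (δ : ℕ) {ε : ℂ} (hε : ε ≠ 0) :
    MonU (fun q => g q * (ε * q.1 ^ δ)) (i + δ) j := by
  obtain ⟨u, hu, hu0, h⟩ := hg
  refine ⟨fun q => ε * u q, analyticAt_const.mul hu, mul_ne_zero hε hu0, ?_⟩
  filter_upwards [h] with q hq
  rw [hq]
  ring

/-- the first coordinate of `psi w` -/
theorem monU_psi_fst (w : Wd) : MonU (fun q => (psi w q).1) (mlt 0 1 w).1 (mlt 0 1 w).2 := by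
  induction w with
  | nil => exact ⟨fun _ => 1, analyticAt_const, one_ne_zero, Eventually.of_forall fun q => by
      simp [mlt_nil]⟩
  | cons d u ih =>
    have h := ih.bl d
    rcases d with _ | c
    · exact h
    · exact h

/-! ### Jacobians -/

theorem lin_pair (A : ℂ × ℂ →L[ℂ] ℂ × ℂ) (x : ℂ × ℂ) :
    A x = (x.1 * (A (1, 0)).1 + x.2 * (A (0, 1)).1, x.1 * (A (1, 0)).2 + x.2 * (A (0, 1)).2) := by
  have h : x = x.1 • ((1, 0) : ℂ × ℂ) + x.2 • ((0, 1) : ℂ × ℂ) := by
    ext <;> simp
  conv_lhs => rw [h]
  rw [map_add, map_smul, map_smul]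
  ext <;> simp

theorem jacP_comp {g h : ℂ × ℂ → ℂ × ℂ} {q : ℂ × ℂ} (hg : DifferentiableAt ℂ g (h q))
    (hh : DifferentiableAt ℂ h q) : jacP (fun q => g (h q)) q = jacP g (h q) * jacP h q := by
  have h1 : fderiv ℂ (fun q => g (h q)) q = (fderiv ℂ g (h q)).comp (fderiv ℂ h q) :=
    fderiv_comp q hg hh
  rw [jacP, jacP, jacP, h1]
  simp only [ContinuousLinearMap.comp_apply]
  rw [lin_pair (fderiv ℂ g (h q)) (fderiv ℂ h q (1, 0)),
    lin_pair (fderiv ℂ g (h q)) (fderiv ℂ h q (0, 1))]
  ring

theorem jacP_bl (d : Option ℂ) (q : ℂ × ℂ) :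
    jacP (H928.bl d) q = (d.elim (-1) fun _ => 1) * q.1 ^ 1 := by
  have h1 : HasFDerivAt (fun q : ℂ × ℂ => q.1) (ContinuousLinearMap.fst ℂ ℂ ℂ) q := hasFDerivAt_fst
  have h2 : HasFDerivAt (fun q : ℂ × ℂ => q.2) (ContinuousLinearMap.snd ℂ ℂ ℂ) q := hasFDerivAt_snd
  rcases d with _ | c
  · have h3 : HasFDerivAt (H928.bl none) _ q := (h1.mul h2).prodMk h1
    rw [jacP, h3.fderiv]
    simp
  · have h3 : HasFDerivAt (H928.bl (some c)) _ q := h1.prodMk (h1.mul (h2.add_const c))
    rw [jacP, h3.fderiv]
    simp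

theorem jacP_psi_cons (d : Option ℂ) (w : Wd) (q : ℂ × ℂ) :
    jacP (psi (d :: w)) q = jacP (psi w) (H928.bl d q) * ((d.elim (-1) fun _ => 1) * q.1 ^ 1) := by
  rw [← jacP_bl]
  exact jacP_comp (analyticAt_psi w _).differentiableAt (analyticAt_bl d q).differentiableAt

/-- the Jacobian of `psi w` -/
theorem monU_jac_psi (w : Wd) : MonU (jacP (psi w)) (mlt 1 0 w).1 (mlt 1 0 w).2 := by
  induction w with
  | nil =>
    refine ⟨fun _ => 1, analyticAt_const, one_ne_zero, Eventually.of_forall fun q => ?_⟩
    have h : psi [] = id := by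
      funext q
      rfl
    rw [h, jacP, fderiv_id]
    simp [mlt_nil]
  | cons d u ih =>
    have h := (ih.bl d).mul_fst 1 (ε := d.elim (-1) fun _ => 1) (by cases d <;> simp)
    have h2 : MonU (jacP (psi (d :: u))) _ _ := h.congr (Eventually.of_forall fun q =>
      (jacP_psi_cons d u q).symm)
    rcases d with _ | c
    · exact h2
    · exact h2

/-! ### Injectivity -/

theorem fst_bl_ne {d : Option ℂ} {q : ℂ × ℂ} (h : (H928.bl d q).1 ≠ 0) : q.1 ≠ 0 := by
  rcases d with _ | c
  · rw [bl_none] at h
    exact left_ne_zero_of_mul h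
  · exact h

theorem bl_inj {d : Option ℂ} {q q' : ℂ × ℂ} (h : q.1 ≠ 0) (he : H928.bl d q = H928.bl d q') :
    q = q' := by
  rcases d with _ | c
  · rw [bl_none, bl_none, Prod.mk.injEq] at he
    obtain ⟨h1, h2⟩ := he
    refine Prod.ext h2 ?_
    rw [← h2] at h1
    exact mul_left_cancel₀ h h1
  · rw [bl_some, bl_some, Prod.mk.injEq] at he
    obtain ⟨h1, h2⟩ := he
    refine Prod.ext h1 ?_
    rw [← h1] at h2
    exact add_right_cancel (mul_left_cancel₀ h h2)

theorem fst_ne_of_psi {w : Wd} {q : ℂ × ℂ} (h : (psi w q).1 ≠ 0) : q.1 ≠ 0 := by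
  induction w generalizing q with
  | nil => exact h
  | cons d u ih => exact fst_bl_ne (ih (q := H928.bl d q) h)

theorem psi_inj {w : Wd} {q q' : ℂ × ℂ} (h : (psi w q).1 ≠ 0) (he : psi w q = psi w q') :
    q = q' := by
  induction w generalizing q q' with
  | nil => exact he
  | cons d u ih =>
    have h1 : H928.bl d q = H928.bl d q' := ih (q := H928.bl d q) h he
    exact bl_inj (fst_ne_of_psi (w := d :: u) h) h1

theorem psi_cons_fst_zero (d : Option ℂ) (w : Wd) {q : ℂ × ℂ} (h : q.1 = 0) :
    psi (d :: w) q = 0 := by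
  have h1 : H928.bl d q = 0 := by
    rcases d with _ | c
    · rw [bl_none, h]
      simp
    · rw [bl_some, h]
      simp
  rw [psi_cons, h1, psi_zero]

/-! ### The second coordinate line -/

/-- the words with second coordinate line `u` -/
def runW (k : ℕ) (u : Wd) : Wd := List.replicate k (some 0) ++ none :: u

@[simp] theorem runW_zero (u : Wd) : runW 0 u = none :: u := rfl
theorem runW_succ (k : ℕ) (u : Wd) : runW (k + 1) u = some 0 :: runW k u := rfl

theorem length_runW (k : ℕ) (u : Wd) : (runW k u).length = k + u.length + 1 := by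
  rw [runW, List.length_append, List.length_replicate, List.length_cons]
  ring

theorem runW_ne_nil (k : ℕ) (u : Wd) : runW k u ≠ [] := by
  cases k
  · simp
  · rw [runW_succ]
    simp

theorem sec_runW (k : ℕ) (u : Wd) : sec (runW k u) = some u := by
  induction k with
  | zero => rfl
  | succ k ih => rw [runW_succ, sec_some_zero, ih]

theorem exists_runW {e u : Wd} (h : sec e = some u) : ∃ k, e = runW k u := by
  induction e with
  | nil => simp at h
  | cons d e ih =>
    rcases d with _ | c
    · rw [sec_none, Option.some.injEq] at h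
      exact ⟨0, by rw [h, runW_zero]⟩
    · rw [sec_some] at h
      by_cases hc : c = 0
      · rw [if_pos hc] at h
        obtain ⟨k, hk⟩ := ih h
        exact ⟨k + 1, by rw [runW_succ, hk, hc]⟩
      · rw [if_neg hc] at h
        simp at h

theorem psi_runW (k : ℕ) (u : Wd) (q : ℂ × ℂ) :
    psi (runW k u) q = psi u (q.1 ^ (k + 1) * q.2, q.1) := by
  induction k generalizing q with
  | zero => rw [runW_zero, psi_cons, bl_none, zero_add, pow_one]
  | succ k ih =>
    rw [runW_succ, psi_cons, bl_some, ih]
    simp only [add_zero]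
    congr 2
    ring

theorem exists_exit (C : Finset Wd) (u : Wd) : ∃ k, runW k u ∉ C := by
  by_contra h
  push Not at h
  have hinj : Function.Injective fun k => runW k u := by
    intro k l hkl
    have := congrArg List.length hkl
    simp only [length_runW] at this
    omega
  exact Set.infinite_of_injective_forall_mem (s := (C : Set Wd)) hinj (fun k => h k) C.finite_toSet

open Classical in
/-- the number of blow-ups on the first line of `u` -/
noncomputable def kx (C : Finset Wd) (u : Wd) : ℕ := Nat.find (exists_exit C u)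

/-- the exit word of the first line of `u` -/
noncomputable def exw (C : Finset Wd) (u : Wd) : Wd := runW (kx C u) u

open Classical in
theorem exw_notMem (C : Finset Wd) (u : Wd) : exw C u ∉ C := Nat.find_spec (exists_exit C u)

open Classical in
theorem runW_mem_of_lt {C : Finset Wd} {u : Wd} {k : ℕ} (hk : k < kx C u) : runW k u ∈ C := by
  have := Nat.find_min (exists_exit C u) hk
  simpa using this

theorem sec_exw (C : Finset Wd) (u : Wd) : sec (exw C u) = some u := sec_runW _ _

theorem exw_ne_nil (C : Finset Wd) (u : Wd) : exw C u ≠ [] := runW_ne_nil _ _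

theorem exw_tail_mem {C : Finset Wd} {u : Wd} (hu : u ∈ C) : (exw C u).tail ∈ C := by
  rw [exw]
  rcases h : kx C u with _ | k
  · exact hu
  · rw [runW_succ, List.tail_cons]
    exact runW_mem_of_lt (by rw [h]; exact Nat.lt_succ_self k)

/-- closure of the centres under tails -/
def TailClosed (C : Finset Wd) : Prop := ∀ d w, d :: w ∈ C → w ∈ C

theorem runW_mem {C : Finset Wd} (hC : TailClosed C) {u : Wd} {k l : ℕ} (hl : runW l u ∈ C)
    (hkl : k ≤ l) : runW k u ∈ C := by
  induction l with
  | zero =>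
    have : k = 0 := by omega
    rwa [this]
  | succ l ih =>
    rcases hkl.lt_or_eq with h | h
    · refine ih ?_ (by omega)
      rw [runW_succ] at hl
      exact hC _ _ hl
    · rwa [h]

theorem mem_of_runW {C : Finset Wd} (hC : TailClosed C) {u : Wd} {k : ℕ} (h : runW k u ∈ C) :
    u ∈ C := hC _ _ (runW_mem hC h (Nat.zero_le k))

/-- a point outside the centres on the line `u` over a centre is the exit of `u` -/
theorem eq_exw {C : Finset Wd} (hC : TailClosed C) {e u : Wd} (he : e ∉ C) (ht : e.tail ∈ C)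
    (hs : sec e = some u) : u ∈ C ∧ e = exw C u := by
  obtain ⟨k, rfl⟩ := exists_runW hs
  have h1 : ∀ j < k, runW j u ∈ C := by
    intro j hj
    rcases k with _ | k
    · omega
    · rw [runW_succ, List.tail_cons] at ht
      exact runW_mem hC ht (by omega)
  have h2 : kx C u = k := by
    rcases lt_trichotomy (kx C u) k with h | h | h
    · exact absurd (h1 _ h) (exw_notMem C u)
    · exact h
    · exact absurd (runW_mem_of_lt h) he
  refine ⟨?_, by rw [exw, h2]⟩
  rcases k with _ | k
  · exact ht
  · exact mem_of_runW hC (h1 k (Nat.lt_succ_self k))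

end Vale.Agent.P298.H707
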