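import Vale.Agent.P298.H707.JT
import Vale.Agent.P298.H707.Base1

/-!
P298, row E1-GLUE-INT (helper707): the ground place of the tree (the strict transform of
`{x = 0}`) and the orders of the first coordinate of the plane.
-/

namespace Vale.Agent.P298.H707

open Set Filter Topology Metric Polynomial Vale.Agent.P298 Vale.Agent.P298.H379
open Vale.Agent.P298.H928

/-- the exponents are unique -/
theorem MonU.unique {g : ℂ × ℂ → ℂ} {i j i' j' : ℕ} (h : MonU g i j) (h' : MonU g i' j') :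
    i = i' ∧ j = j' := by
  have key : ∀ {g : ℂ × ℂ → ℂ} {i j i' j' : ℕ}, MonU g i j → MonU g i' j' → i' ≤ i := by
    intro g i j i' j' h h'
    by_contra hlt
    push Not at hlt
    obtain ⟨u, hu, hu0, h1⟩ := h
    obtain ⟨u', hu', -, h2⟩ := h'
    obtain ⟨k, rfl⟩ : ∃ k, i' = i + (k + 1) := ⟨i' - i - 1, by omega⟩
    obtain ⟨r, hr, hb⟩ := Metric.eventually_nhds_iff_ball.1
      ((h1.and h2).and ((hu.eventually_analyticAt.and hu'.eventually_analyticAt).and
        (hu.continuousAt.eventually_ne hu0)))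
    set b : ℂ := ((r / 2 : ℝ) : ℂ) with hbdef
    have hb0 : b ≠ 0 := by
      rw [hbdef]
      exact_mod_cast (by positivity : (r / 2 : ℝ) ≠ 0)
    have hbn : ‖b‖ < r := by
      rw [hbdef, Complex.norm_real, Real.norm_of_nonneg (by positivity)]
      linarith
    have hmem : ((0, b) : ℂ × ℂ) ∈ ball (0 : ℂ × ℂ) r := by
      rw [mem_ball_zero_iff, Prod.norm_def, norm_zero]
      exact max_lt hr hbn
    obtain ⟨-, ⟨hua, hua'⟩, hne⟩ := hb _ hmem
    have hl : ContinuousAt (fun a : ℂ => ((a, b) : ℂ × ℂ)) 0 := by fun_prop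
    have h3 : Tendsto (fun a : ℂ => b ^ j * u (a, b)) (𝓝[≠] (0 : ℂ)) (𝓝 (b ^ j * u (0, b))) := by
      have h4 : ContinuousAt (fun a : ℂ => b ^ j * u (a, b)) 0 :=
        continuousAt_const.mul (ContinuousAt.comp (g := u) (f := fun a : ℂ => ((a, b) : ℂ × ℂ))
          hua.continuousAt hl)
      exact h4.tendsto.mono_left nhdsWithin_le_nhds
    have h5 : Tendsto (fun a : ℂ => a ^ (k + 1) * (b ^ j' * u' (a, b))) (𝓝[≠] (0 : ℂ))
        (𝓝 ((0 : ℂ) ^ (k + 1) * (b ^ j' * u' (0, b)))) := by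
      have h4 : ContinuousAt (fun a : ℂ => a ^ (k + 1) * (b ^ j' * u' (a, b))) 0 :=
        (continuousAt_id.pow _).mul (continuousAt_const.mul
          (ContinuousAt.comp (g := u') (f := fun a : ℂ => ((a, b) : ℂ × ℂ)) hua'.continuousAt hl))
      exact h4.tendsto.mono_left nhdsWithin_le_nhds
    have h6 : ∀ᶠ a in 𝓝[≠] (0 : ℂ), b ^ j * u (a, b) = a ^ (k + 1) * (b ^ j' * u' (a, b)) := by
      have h7 : ∀ᶠ a in 𝓝 (0 : ℂ), ((a, b) : ℂ × ℂ) ∈ ball (0 : ℂ × ℂ) r :=
        hl.eventually (isOpen_ball.mem_nhds hmem)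
      filter_upwards [eventually_nhdsWithin_of_eventually_nhds h7, self_mem_nhdsWithin] with a h8 h9
      obtain ⟨⟨h10, h11⟩, -⟩ := hb _ h8
      rw [h10] at h11
      dsimp only at h11
      refine mul_left_cancel₀ (pow_ne_zero i h9) ?_
      rw [← mul_assoc, h11, pow_add]
      ring
    have h7 := tendsto_nhds_unique (h3.congr' h6) h5
    rw [zero_pow (Nat.succ_ne_zero k), zero_mul] at h7
    exact mul_ne_zero (pow_ne_zero _ hb0) hne h7
  exact ⟨le_antisymm (key h' h) (key h h'), le_antisymm (key h'.swp h.swp) (key h.swp h'.swp)⟩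

theorem replicate_eq_runW (k : ℕ) (u : List (Option ℂ)) :
    List.replicate k (some 0) ++ none :: u = runW k u := rfl

theorem exc_of_sec {v : List (Option ℂ)} {d : Option ℂ} {w : List (Option ℂ)}
    (h : sec v = some (d :: w)) : exc v := by
  obtain ⟨k, hk⟩ := exists_runW h
  rw [hk, ← replicate_eq_runW, exc_replicate]
  simp [exc]

variable {D : ℂ × ℂ → ℂ} (T : Tree fun p => p.1 * D p)

/-- the end of the strict transform of `{x = 0}` -/
theorem exists_ground : ∃ (k : ℕ) (i₀ : PlT T), i₀.2 :: i₀.1.1 = runW k [] ∧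
    i₀.2 :: i₀.1.1 ∉ T.C ∧ ∀ q, ThT T i₀ q = (q.1 ^ (k + 1) * q.2, q.1) := by
  classical
  obtain ⟨i₀, hi₀⟩ : ∃ i : PlT T, i.2 :: i.1.1 = exw T.C [] := by
    have h1 := exw_tail_mem T.nil_mem
    rcases h : exw T.C [] with _ | ⟨e, u⟩
    · exact absurd h (exw_ne_nil _ _)
    · rw [h] at h1
      exact ⟨(⟨u, h1⟩, e), rfl⟩
  have hn : i₀.2 :: i₀.1.1 ∉ T.C := by
    rw [hi₀]
    exact exw_notMem _ _
  refine ⟨kx T.C [], i₀, hi₀, hn, fun q => ?_⟩
  have h1 : H928.phi (fun p => p.1 * D p) (i₀.2 :: i₀.1.1) = fun _ => 0 := by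
    refine phi_of_zero (T.nc _ i₀.1.2 _ hn) (Eventually.of_forall fun a => ?_)
    rw [hi₀, exw, psi_runW, psi_nil]
    simp
  rw [ThT, T.Th_of_notMem hn, h1, hi₀, exw, psi_runW, psi_nil, add_zero]

/-- orders of the first coordinate of the plane at an end of the tree -/
theorem monU_fst_end {i : PlT T} (hi : i.2 :: i.1.1 ∉ T.C) :
    MonU (fun q => (ThT T i q).1) (mtop 0 1 i.1.1) (mo 0 1 (sec (i.2 :: i.1.1))) := by
  have h1 := monU_psi_fst (i.2 :: i.1.1)
  rw [mlt_cons_fst, mlt_snd] at h1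
  have hφ := T.analyticAt_phi i.1.2 hi
  have hφ0 := T.phi_zero i.1.2 hi
  obtain ⟨u, hu, hu0, h⟩ := h1
  refine ⟨fun q => u (q.1, q.2 + H928.phi (fun p => p.1 * D p) (i.2 :: i.1.1) q.1),
    hu.comp_of_eq (analyticAt_shear hφ) (by simp [hφ0, Prod.mk_zero_zero]),
    by simpa [hφ0, Prod.mk_zero_zero] using hu0, ?_⟩
  filter_upwards [(tendsto_shear hφ hφ0).eventually h] with q hq
  rw [ThT, T.Th_of_notMem hi, hq]
  rcases hs : sec (i.2 :: i.1.1) with _ | w
  · rw [mo_none, pow_zero, pow_zero]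
  · have h2 : H928.phi (fun p => p.1 * D p) (i.2 :: i.1.1) = fun _ => 0 := by
      refine phi_of_zero (T.nc _ i.1.2 _ hi) (Eventually.of_forall fun a => ?_)
      obtain ⟨k, hk⟩ := exists_runW hs
      rw [hk, psi_runW, mul_zero]
      rcases w with _ | ⟨d, w⟩
      · simp
      · rw [psi_fst_zero]
        simp
    rw [h2, add_zero]

/-- orders of the first coordinate of the plane at any place: the order along the curve is
`mtop 0 1 w`, the order along the second axis is positive iff the place is a node or the ground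
place -/
theorem monU_fst (i : PlT T) : ∃ b, MonU (fun q => (ThT T i q).1) (mtop 0 1 i.1.1) b ∧
    (i.2 :: i.1.1 ∉ T.C → ¬ exc (i.2 :: i.1.1) → 0 < b → ∃ k, i.2 :: i.1.1 = runW k []) ∧
    (i.2 :: i.1.1 ∈ T.C → ∀ j, NodeT i j → b = mtop 0 1 j.1.1) ∧
    (∀ j, NodeT j i → b = mtop 0 1 j.1.1) := by
  classical
  by_cases hi : i.2 :: i.1.1 ∈ T.C
  · obtain ⟨j, hj⟩ := exists_nodeT hi
    have h1 := (monU_fst_end T hj.notMem).swp
    have h2 : sec (j.2 :: j.1.1) = some (i.2 :: i.1.1) := by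
      rw [← hj.2, T.ew_of_mem hi, replicate_eq_runW, sec_runW]
    rw [h2, mo_some, mlt_cons_fst] at h1
    refine ⟨_, h1.congr (Eventually.of_forall fun q => ?_), fun h => absurd hi h,
      fun _ j' hj' => by rw [hj.unique hj'], fun j' hj' => absurd hi hj'.notMem⟩
    rw [hj.swap (by simp)]
  · refine ⟨_, monU_fst_end T hi, fun _ he hb => ?_, fun h => absurd h hi, fun j hj => ?_⟩
    · rcases hs : sec (i.2 :: i.1.1) with _ | w
      · rw [hs, mo_none] at hb
        omega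
      · rcases w with _ | ⟨d, w⟩
        · exact exists_runW hs
        · exact absurd (exc_of_sec hs) he
    · have h2 : sec (i.2 :: i.1.1) = some (j.2 :: j.1.1) := by
        rw [← hj.2, T.ew_of_mem hj.1, replicate_eq_runW, sec_runW]
      rw [h2, mo_some, mlt_cons_fst]

/-- the ground place is unique -/
theorem ground_unique' {i j : PlT T} (hi : i.2 :: i.1.1 ∉ T.C) (hj : j.2 :: j.1.1 ∉ T.C)
    {k l : ℕ} (hk : i.2 :: i.1.1 = runW k []) (hl : j.2 :: j.1.1 = runW l []) : i = j := by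
  have hC : TailClosed T.C := T.tail_mem
  have h1 := (eq_exw hC hi (by exact i.1.2) (by rw [hk, sec_runW])).2
  have h2 := (eq_exw hC hj (by exact j.1.2) (by rw [hl, sec_runW])).2
  have h3 := h1.trans h2.symm
  rw [List.cons.injEq] at h3
  exact Prod.ext (Subtype.ext h3.2) h3.1

/-- the orders of the Jacobian: `mtop 1 0 w` along the curve, zero along a free second axis -/
theorem monU_jac_end {i : PlT T} (hi : i.2 :: i.1.1 ∉ T.C) :
    MonU (jacP (ThT T i)) (mtop 1 0 i.1.1) (mo 1 0 (sec (i.2 :: i.1.1))) := by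
  have h1 := monU_jac_psi (i.2 :: i.1.1)
  rw [mlt_cons_fst, mlt_snd] at h1
  have hφ := T.analyticAt_phi i.1.2 hi
  have hφ0 := T.phi_zero i.1.2 hi
  obtain ⟨u, hu, hu0, h⟩ := h1
  have e : ThT T i = fun q => psi (i.2 :: i.1.1)
      (q.1, q.2 + H928.phi (fun p => p.1 * D p) (i.2 :: i.1.1) q.1) := by
    funext q
    rw [ThT, T.Th_of_notMem hi]
  rw [e]
  refine ⟨fun q => u (q.1, q.2 + H928.phi (fun p => p.1 * D p) (i.2 :: i.1.1) q.1),
    hu.comp_of_eq (analyticAt_shear hφ) (by simp [hφ0, Prod.mk_zero_zero]),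
    by simpa [hφ0, Prod.mk_zero_zero] using hu0, ?_⟩
  filter_upwards [(tendsto_shear hφ hφ0).eventually h,
    (continuous_fst.tendsto (0 : ℂ × ℂ)).eventually hφ.eventually_analyticAt] with q hq hq'
  have h2 : jacP (fun q : ℂ × ℂ => ((q.1, q.2 + H928.phi (fun p => p.1 * D p)
      (i.2 :: i.1.1) q.1) : ℂ × ℂ)) q = 1 := Tree.jac_shear hq'
  have hd : DifferentiableAt ℂ (fun q : ℂ × ℂ => ((q.1, q.2 + H928.phi (fun p => p.1 * D p)
      (i.2 :: i.1.1) q.1) : ℂ × ℂ)) q := (analyticAt_fst.prod (analyticAt_snd.add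
        (hq'.comp_of_eq analyticAt_fst rfl))).differentiableAt
  rw [jacP_comp (g := psi (i.2 :: i.1.1)) (analyticAt_psi _ _).differentiableAt hd, h2, hq,
    mul_one]
  rcases hs : sec (i.2 :: i.1.1) with _ | w
  · rw [mo_none, pow_zero, pow_zero]
  · have h2 : H928.phi (fun p => p.1 * D p) (i.2 :: i.1.1) = fun _ => 0 := by
      refine phi_of_zero (T.nc _ i.1.2 _ hi) (Eventually.of_forall fun a => ?_)
      obtain ⟨k, hk⟩ := exists_runW hs
      rw [hk, psi_runW, mul_zero]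
      rcases w with _ | ⟨d, w⟩
      · simp
      · rw [psi_fst_zero]
        simp
    rw [h2, add_zero]

theorem monU_jac_place (i : PlT T) : ∃ b, MonU (jacP (ThT T i)) (mtop 1 0 i.1.1) b ∧
    (i.2 :: i.1.1 ∉ T.C → ¬ exc (i.2 :: i.1.1) → b = 0) ∧
    (i.2 :: i.1.1 ∈ T.C → ∀ j, NodeT i j → b = mtop 1 0 j.1.1) ∧
    (∀ j, NodeT j i → b = mtop 1 0 j.1.1) := by
  classical
  by_cases hi : i.2 :: i.1.1 ∈ T.C
  · obtain ⟨j, hj⟩ := exists_nodeT hi
    obtain ⟨u, hu, hu0, h⟩ := (monU_jac_end T hj.notMem).swp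
    have h2 : sec (j.2 :: j.1.1) = some (i.2 :: i.1.1) := by
      rw [← hj.2, T.ew_of_mem hi, replicate_eq_runW, sec_runW]
    rw [h2, mo_some, mlt_cons_fst] at h
    refine ⟨mtop 1 0 j.1.1, ⟨fun q => -u q, hu.neg, neg_ne_zero.2 hu0, ?_⟩, fun h => absurd hi h,
      fun _ j' hj' => by rw [hj.unique hj'], fun j' hj' => absurd hi hj'.notMem⟩
    have e : ThT T i = fun q => ThT T j (q.2, q.1) := by
      funext q
      rw [hj.swap (by simp)]
    have han := (T.analyticAt_Th j.1.2 j.2).eventually_analyticAt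
    filter_upwards [h, H928.tendsto_swap.eventually han] with q hq hq'
    have hd : DifferentiableAt ℂ (ThT T j) ((fun q : ℂ × ℂ => ((q.2, q.1) : ℂ × ℂ)) q) :=
      hq'.differentiableAt
    rw [e, jacP_comp (g := ThT T j) (h := fun q : ℂ × ℂ => ((q.2, q.1) : ℂ × ℂ)) hd
      (analyticAt_swp q).differentiableAt]
    have h3 : jacP (fun q : ℂ × ℂ => ((q.2, q.1) : ℂ × ℂ)) q = -1 := Tree.jac_swap q
    rw [h3, hq]
    ring
  · refine ⟨_, monU_jac_end T hi, fun _ he => ?_, fun h => absurd h hi, fun j hj => ?_⟩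
    · rcases hs : sec (i.2 :: i.1.1) with _ | w
      · rw [mo_none]
      · rcases w with _ | ⟨d, w⟩
        · rfl
        · exact absurd (exc_of_sec hs) he
    · have h2 : sec (i.2 :: i.1.1) = some (j.2 :: j.1.1) := by
        rw [← hj.2, T.ew_of_mem hj.1, replicate_eq_runW, sec_runW]
      rw [h2, mo_some, mlt_cons_fst]

end Vale.Agent.P298.H707
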