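import Vale.Agent.P298.H707.Glue3
import Vale.Agent.P298.H941.Res

/-!
P298, row E1-GLUE-INT (helper707): covering of the surface, the integrability criterion and its
converse on the charts of the surface.
-/

namespace Vale.Agent.P298.H707

open Set Filter Topology Metric Polynomial Vale.Agent.P298 Vale.Agent.P298.H379
open Vale.Agent.P298.H983 (omg powBall)

/-- The model data: a covering of the plane by charts, and the holomorphic roots over them. -/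
structure Model (f : (Fin 3 → ℂ) → ℂ) {κ : Type*} (Θ : κ → ℂ × ℂ → ℂ × ℂ) (n : ℕ)
    (P : ℂ × ℂ → ℂ[X]) (v : ℂ × (ℂ × ℂ) → ℂ) (K : κ → ℕ) (ζ : κ → Fin n → ℂ × ℂ → ℂ)
    (σ ρ : κ → Equiv.Perm (Fin n)) : Prop where
  hf : Hol f
  W : WD f n P v
  cov : Covers Θ
  an : ∀ i, AnalyticAt ℂ (Θ i) 0
  zero : ∀ i, Θ i 0 = 0
  C : ∀ i, CR P (Θ i) n (K i) (ζ i) (σ i) (ρ i)

variable {f : (Fin 3 → ℂ) → ℂ} {κ : Type*} {Θ : κ → ℂ × ℂ → ℂ × ℂ} {n : ℕ}
    {P : ℂ × ℂ → ℂ[X]} {v : ℂ × (ℂ × ℂ) → ℂ} {K : κ → ℕ} {ζ : κ → Fin n → ℂ × ℂ → ℂ}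
    {σ ρ : κ → Equiv.Perm (Fin n)}

namespace Model

/-- the chart of the surface over the chart `i` of the plane with the root `l` -/
def ch (_ : Model f Θ n P v K ζ σ ρ) (i : κ) (l : Fin n) : ℂ × ℂ → Fin 3 → ℂ :=
  chart (Θ i) (K i) (ζ i l)

theorem an_ch (M : Model f Θ n P v K ζ σ ρ) (i : κ) (l : Fin n) : AnalyticAt ℂ (M.ch i l) 0 :=
  analyticAt_chart (M.C i).hK (M.an i) ((M.C i).hol l)

theorem ch_zero (M : Model f Θ n P v K ζ σ ρ) (i : κ) (l : Fin n) : M.ch i l 0 = 0 :=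
  chart_zero (M.C i).hK (M.zero i) ((M.C i).zero l)

theorem f_ch (M : Model f Θ n P v K ζ σ ρ) (i : κ) (l : Fin n) :
    ∀ᶠ q in 𝓝 (0 : ℂ × ℂ), f (M.ch i l q) = 0 :=
  (M.C i).f_eq_zero M.W (M.an i) (M.zero i) l

theorem monU_pd (M : Model f Θ n P v K ζ σ ρ) (i : κ) (l : Fin n) :
    ∃ c d, MonU (fun q => pd 2 f (M.ch i l q)) c d :=
  (M.C i).monU_pd M.W M.hf (M.an i) (M.zero i) l

theorem monU_jac (M : Model f Θ n P v K ζ σ ρ) (i : κ) (l : Fin n) {a b : ℕ}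
    (hJ : MonU (jacP (Θ i)) a b) :
    MonU (jac2 (M.ch i l)) (K i * a + (K i - 1)) (K i * b + (K i - 1)) :=
  monU_jac2 (M.C i).hK (M.an i) ((M.C i).hol l) hJ

/-- **Covering of the surface by any radii.** -/
theorem covers (M : Model f Θ n P v K ζ σ ρ) (r : κ → Fin n → ℝ) (hr : ∀ i l, 0 < r i l) :
    ∃ (F : Finset κ) (δ : ℝ), 0 < δ ∧ ∀ x : Fin 3 → ℂ, x ≠ 0 → ‖x‖ < δ → f x = 0 →
      ∃ i ∈ F, ∃ l, ∃ q : ℂ × ℂ, ‖q‖ < r i l ∧ M.ch i l q = x := by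
  classical
  obtain ⟨ε, hε, hroot⟩ := M.W.exists_eps
  have hrad : ∀ i, ∃ δ : ℝ, 0 < δ ∧ (∀ l, δ ≤ r i l) ∧ ∀ q : ℂ × ℂ, ‖q‖ < δ →
      ∀ z : ℂ, ‖z‖ < ε → f (pt (Θ i (q.1 ^ K i, q.2 ^ K i)) z) = 0 → ∃ l, ζ i l q = z := by
    intro i
    obtain ⟨δ, hδ, hδb⟩ := Metric.eventually_nhds_iff.1
      ((M.C i).root hε hroot (M.an i) (M.zero i))
    obtain ⟨δ', hδ', hδ'l⟩ : ∃ δ' : ℝ, 0 < δ' ∧ ∀ l, δ' ≤ r i l := by
      rcases isEmpty_or_nonempty (Fin n) with hn | hn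
      · exact ⟨1, one_pos, fun l => isEmptyElim l⟩
      · obtain ⟨l₀, hl₀⟩ := Finite.exists_min (r i)
        exact ⟨r i l₀, hr i l₀, hl₀⟩
    refine ⟨min δ δ', lt_min hδ hδ', fun l => (min_le_right _ _).trans (hδ'l l), fun q hq => ?_⟩
    exact hδb (y := q) (by rw [dist_zero_right]; exact lt_of_lt_of_le hq (min_le_left _ _))
  choose δ hδ0 hδr hδ using hrad
  obtain ⟨F, R, hR, hF⟩ := M.cov (fun i => δ i ^ K i) (fun i => pow_pos (hδ0 i) _)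
  refine ⟨F, min R ε, lt_min hR hε, fun x hx0 hx hfx => ?_⟩
  set p : ℂ × ℂ := (x 0, x 1) with hp
  have hxp : pt p (x 2) = x := by
    funext i
    fin_cases i <;> rfl
  have hpR : ‖p‖ < min R ε := by
    rw [Prod.norm_def]
    exact max_lt (lt_of_le_of_lt (norm_le_pi_norm x 0) hx) (lt_of_le_of_lt (norm_le_pi_norm x 1) hx)
  have hzε : ‖x 2‖ < ε :=
    lt_of_le_of_lt (norm_le_pi_norm x 2) (lt_of_lt_of_le hx (min_le_right _ _))
  have hfp : f (pt p (x 2)) = 0 := by rw [hxp]; exact hfx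
  have hp0 : p ≠ 0 := by
    intro h0
    have h1 := hroot p (lt_of_lt_of_le hpR (min_le_right _ _)) (x 2) hzε hfp
    rw [h0, M.W.zero, eval_pow, eval_X] at h1
    have h2 : x 2 = 0 := eq_zero_of_pow_eq_zero h1
    apply hx0
    rw [← hxp, h0, h2, pt_zero]
  obtain ⟨i, hi, q, hq, hqp⟩ := hF p hp0 (lt_of_lt_of_le hpR (min_le_left _ _))
  have hKi := (M.C i).hK
  obtain ⟨a, ha⟩ := IsAlgClosed.exists_pow_nat_eq q.1 (Nat.pos_of_ne_zero hKi)
  obtain ⟨b, hb⟩ := IsAlgClosed.exists_pow_nat_eq q.2 (Nat.pos_of_ne_zero hKi)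
  rw [Prod.norm_def, max_lt_iff] at hq
  have ha' : ‖a‖ < δ i := by
    have : ‖a‖ ^ K i < δ i ^ K i := by rw [← norm_pow, ha]; exact hq.1
    exact lt_of_pow_lt_pow_left₀ _ (hδ0 i).le this
  have hb' : ‖b‖ < δ i := by
    have : ‖b‖ ^ K i < δ i ^ K i := by rw [← norm_pow, hb]; exact hq.2
    exact lt_of_pow_lt_pow_left₀ _ (hδ0 i).le this
  have hab : ‖((a, b) : ℂ × ℂ)‖ < δ i := by rw [Prod.norm_def]; exact max_lt ha' hb'
  have hΘab : Θ i (a ^ K i, b ^ K i) = p := by rw [ha, hb]; exact hqp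
  obtain ⟨l, hl⟩ := hδ i (a, b) hab (x 2) hzε (by
    change f (pt (Θ i (a ^ K i, b ^ K i)) (x 2)) = 0
    rw [hΘab]; exact hfp)
  refine ⟨i, hi, l, (a, b), lt_of_lt_of_le hab (hδr i l), ?_⟩
  change pt (Θ i (a ^ K i, b ^ K i)) (ζ i l (a, b)) = x
  rw [hΘab, hl, hxp]

/-- **Integrability from orders.** `K (a + 1)`, `K (b + 1)` are the orders (plus one) of the
Jacobian, `c`, `d` the orders of `∂₃ f`. -/
theorem inI (M : Model f Θ n P v K ζ σ ρ) {h : (Fin 3 → ℂ) → ℂ} (hh : Hol h) {k : ℝ} (hk : 0 < k)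
    {a b : κ → ℕ} (hJ : ∀ i, MonU (jacP (Θ i)) (a i) (b i)) {c d : κ → Fin n → ℕ}
    (hD : ∀ i l, MonU (fun q => pd 2 f (M.ch i l q)) (c i l) (d i l))
    (α β : κ → Fin n → ℝ)
    (hbd : ∀ i l, ∃ C : ℝ, ∀ᶠ q : ℂ × ℂ in 𝓝 0, q.1 ≠ 0 → q.2 ≠ 0 →
      ‖h (M.ch i l q)‖ ≤ C * (‖q.1‖ ^ α i l * ‖q.2‖ ^ β i l))
    (h1 : ∀ i l, k * ((c i l : ℝ) - K i * (a i + 1)) < α i l)
    (h2 : ∀ i l, k * ((d i l : ℝ) - K i * (b i + 1)) < β i l) :
    InI f k h := by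
  obtain ⟨ε, hε, hroot⟩ := M.W.exists_eps
  refine inI_of_planeCharts hh hk M.cov M.an K (fun i => (M.C i).hK) (fun _ => n) ζ
    (fun i l => (M.C i).hol l) hε ?_ ?_
  · intro i
    filter_upwards [(M.C i).root hε hroot (M.an i) (M.zero i)] with q h3 _ _ z hz hfz
    exact h3 z hz hfz
  · intro i l
    obtain ⟨C0, hC0⟩ := hbd i l
    obtain ⟨C1, hC1, hle⟩ := (M.monU_jac i l (hJ i)).le
    obtain ⟨c1, hc1, hge⟩ := (hD i l).ge
    have hKpos : 0 < K i := Nat.pos_of_ne_zero (M.C i).hK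
    have hKr : (1 : ℝ) ≤ K i := by exact_mod_cast hKpos
    refine ⟨max |C0| (C1 / c1), α i l, β i l,
      ((K i * a i + (K i - 1) : ℕ) : ℝ) - c i l, ((K i * b i + (K i - 1) : ℕ) : ℝ) - d i l, ?_, ?_, ?_⟩
    · have h3 := h1 i l
      have e1 : ((K i * a i + (K i - 1) : ℕ) : ℝ) = K i * a i + (K i - 1) := by
        push_cast [Nat.cast_sub hKpos]
        ring
      rw [e1]
      have h4 : (c i l : ℝ) - K i * (a i + 1) < α i l / k := by
        rw [lt_div_iff₀ hk]; linarith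
      linarith
    · have h3 := h2 i l
      have e1 : ((K i * b i + (K i - 1) : ℕ) : ℝ) = K i * b i + (K i - 1) := by
        push_cast [Nat.cast_sub hKpos]
        ring
      rw [e1]
      have h4 : (d i l : ℝ) - K i * (b i + 1) < β i l / k := by
        rw [lt_div_iff₀ hk]; linarith
      linarith
    · filter_upwards [hC0, hle, hge] with q e1 e2 e3 hq1 hq2
      have hu : 0 < ‖q.1‖ := norm_pos_iff.2 hq1
      have hv : 0 < ‖q.2‖ := norm_pos_iff.2 hq2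
      constructor
      · refine e2.trans ?_
        have e4 : ‖q.1‖ ^ (K i * a i + (K i - 1)) * ‖q.2‖ ^ (K i * b i + (K i - 1))
            = (‖q.1‖ ^ (((K i * a i + (K i - 1) : ℕ) : ℝ) - c i l) *
              ‖q.2‖ ^ (((K i * b i + (K i - 1) : ℕ) : ℝ) - d i l)) *
              (‖q.1‖ ^ (c i l) * ‖q.2‖ ^ (d i l)) := by
          rw [Real.rpow_sub hu, Real.rpow_sub hv, Real.rpow_natCast, Real.rpow_natCast,
            Real.rpow_natCast, Real.rpow_natCast]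
          field_simp
        rw [e4]
        set X := ‖q.1‖ ^ (((K i * a i + (K i - 1) : ℕ) : ℝ) - c i l) *
              ‖q.2‖ ^ (((K i * b i + (K i - 1) : ℕ) : ℝ) - d i l) with hX
        have hX0 : 0 ≤ X := by positivity
        have e5 : ‖q.1‖ ^ (c i l) * ‖q.2‖ ^ (d i l) ≤ ‖pd 2 f (M.ch i l q)‖ / c1 := by
          rw [le_div_iff₀ hc1, mul_comm]; exact e3
        calc C1 * (X * (‖q.1‖ ^ (c i l) * ‖q.2‖ ^ (d i l)))
            ≤ C1 * (X * (‖pd 2 f (M.ch i l q)‖ / c1)) := by gcongr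
          _ = C1 / c1 * X * ‖pd 2 f (M.ch i l q)‖ := by ring
          _ ≤ max |C0| (C1 / c1) * X * ‖pd 2 f (M.ch i l q)‖ := by
              gcongr
              exact le_max_right _ _
      · refine (e1 hq1 hq2).trans ?_
        gcongr
        exact (le_abs_self _).trans (le_max_left _ _)

end Model

end Vale.Agent.P298.H707
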