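import Mathlib

/-!
P298, row E1-INT (helper707): the area inequality with multiplicity, and integrals of monomials
over polydiscs.
-/

namespace Vale.Agent.P298.H707

open MeasureTheory Set Filter Topology
open scoped ENNReal NNReal

section Area

variable {E : Type*} [NormedAddCommGroup E] [NormedSpace ℝ E] [FiniteDimensional ℝ E]
  [MeasurableSpace E] [BorelSpace E] (μ : Measure E) [μ.IsAddHaarMeasure]

/-- The points of the fibre of `X : U → E` over `p` at which `X` is a local diffeomorphism. -/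
def Fib (U : Set E) (X : E → E) (p : E) : Set E :=
  {q | q ∈ U ∧ X q = p ∧ (fderiv ℝ X q).det ≠ 0}

/-- the sum over one injective piece -/
theorem lintegral_piece {A : Set E} (hA : MeasurableSet A) {X : E → E}
    (hX : ∀ q ∈ A, DifferentiableAt ℝ X q) (hinj : InjOn X A)
    (F : E → ℝ≥0∞) :
    ∫⁻ p, ∑' q : {q | q ∈ A ∧ X q = p}, F q ∂μ
      = ∫⁻ q in A, ENNReal.ofReal |(fderiv ℝ X q).det| * F q ∂μ := by
  classical
  have hsub : ∀ p, Subsingleton {q | q ∈ A ∧ X q = p} := by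
    intro p
    refine ⟨fun a b => ?_⟩
    apply Subtype.ext
    exact hinj a.2.1 b.2.1 (a.2.2.trans b.2.2.symm)
  set g : E → ℝ≥0∞ := fun p => ∑' q : {q | q ∈ A ∧ X q = p}, F q with hg
  have hgX : ∀ q ∈ A, g (X q) = F q := by
    intro q hq
    have := hsub (X q)
    rw [hg]
    simp only
    rw [tsum_eq_single (⟨q, hq, rfl⟩ : {q' | q' ∈ A ∧ X q' = X q})]
    intro b hb
    exact absurd (Subsingleton.elim _ _) hb
  have h0 : ∀ p, p ∉ X '' A → g p = 0 := by
    intro p hp
    have : IsEmpty {q | q ∈ A ∧ X q = p} := ⟨fun a => hp ⟨a.1, a.2.1, a.2.2⟩⟩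
    exact tsum_empty
  have hXA : MeasurableSet (X '' A) :=
    measurable_image_of_fderivWithin hA
      (fun q hq => (hX q hq).hasFDerivAt.hasFDerivWithinAt) hinj
  have h1 : ∫⁻ p, g p ∂μ = ∫⁻ p in X '' A, g p ∂μ := by
    rw [← lintegral_indicator hXA]
    refine lintegral_congr fun p => ?_
    by_cases hp : p ∈ X '' A
    · rw [indicator_of_mem hp]
    · rw [indicator_of_notMem hp, h0 p hp]
  rw [h1, lintegral_image_eq_lintegral_abs_det_fderiv_mul μ hA
    (fun q hq => (hX q hq).hasFDerivAt.hasFDerivWithinAt) hinj]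
  refine setLIntegral_congr_fun hA fun q hq => ?_
  rw [hgX q hq]

/-- measurability of the sum over one injective piece -/
theorem measurable_piece {A : Set E} (hA : MeasurableSet A) {X : E → E}
    (hX : ∀ q ∈ A, DifferentiableAt ℝ X q) (hinj : InjOn X A)
    {F : E → ℝ≥0∞} (hF : Measurable F) :
    Measurable fun p => ∑' q : {q | q ∈ A ∧ X q = p}, F q := by
  classical
  have hsub : ∀ p, Subsingleton {q | q ∈ A ∧ X q = p} := by
    intro p
    refine ⟨fun a b => ?_⟩
    apply Subtype.ext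
    exact hinj a.2.1 b.2.1 (a.2.2.trans b.2.2.symm)
  have hme : MeasurableEmbedding (A.domRestrict X) := by
    refine ContinuousOn.measurableEmbedding hA ?_ hinj
    exact fun q hq => (hX q hq).continuousAt.continuousWithinAt
  have : (fun p => ∑' q : {q | q ∈ A ∧ X q = p}, F q)
      = Function.extend (A.domRestrict X) (fun q : A => F q) (fun _ => 0) := by
    funext p
    by_cases hp : ∃ q : A, A.domRestrict X q = p
    · obtain ⟨q, rfl⟩ := hp
      rw [hme.injective.extend_apply]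
      have := hsub (A.domRestrict X q)
      rw [tsum_eq_single (⟨q.1, q.2, rfl⟩ : {q' | q' ∈ A ∧ X q' = A.domRestrict X q})]
      intro b hb
      exact absurd (Subsingleton.elim _ _) hb
    · rw [Function.extend_apply' _ _ _ hp]
      have : IsEmpty {q | q ∈ A ∧ X q = p} := ⟨fun a => hp ⟨⟨a.1, a.2.1⟩, a.2.2⟩⟩
      exact tsum_empty
  rw [this]
  exact hme.measurable_extend (hF.comp measurable_subtype_coe) measurable_const

/-- the decomposition of the locus of local injectivity into injective pieces -/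
theorem exists_pieces {U : Set E} (hU : IsOpen U) {X : E → E}
    (hX : ContDiffOn ℝ 1 X U) :
    ∃ A : ℕ → Set E, (∀ n, MeasurableSet (A n)) ∧ (∀ n, InjOn X (A n)) ∧
      Pairwise (fun m n => Disjoint (A m) (A n)) ∧
      (⋃ n, A n) = {q | q ∈ U ∧ (fderiv ℝ X q).det ≠ 0} := by
  classical
  set W : Set E := {q | q ∈ U ∧ (fderiv ℝ X q).det ≠ 0} with hW
  have hWo : IsOpen W := by
    have hc : ContinuousOn (fun q => (fderiv ℝ X q).det) U :=
      ContinuousLinearMap.continuous_det.comp_continuousOn (hX.continuousOn_fderiv_of_isOpen hU le_rfl)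
    have := hc.isOpen_inter_preimage hU (isOpen_compl_singleton (x := (0 : ℝ)))
    exact this
  have hloc : ∀ q ∈ W, ∃ V : Set E, IsOpen V ∧ q ∈ V ∧ V ⊆ W ∧ InjOn X V := by
    intro q hq
    have hs : HasStrictFDerivAt X (fderiv ℝ X q) q :=
      (hX.contDiffAt (hU.mem_nhds hq.1)).hasStrictFDerivAt (by norm_num)
    have he : ∃ e : E ≃L[ℝ] E, (e : E →L[ℝ] E) = fderiv ℝ X q := by
      refine ⟨ContinuousLinearMap.toContinuousLinearEquivOfDetNeZero (fderiv ℝ X q) hq.2, ?_⟩
      ext v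
      simp
    obtain ⟨e, he⟩ := he
    rw [← he] at hs
    set φ := hs.toOpenPartialHomeomorph X with hφ
    refine ⟨φ.source ∩ W, φ.open_source.inter hWo, ⟨?_, hq⟩, inter_subset_right, ?_⟩
    · exact hs.mem_toOpenPartialHomeomorph_source
    · intro a ha b hb hab
      exact φ.injOn ha.1 hb.1 hab
  choose! V hVo hVmem hVW hVinj using hloc
  obtain ⟨T, hTc, hTW, hTeq⟩ : ∃ T : Set E, T.Countable ∧ T ⊆ W ∧ (⋃ q ∈ T, V q) = W := by
    obtain ⟨T, hTs, hTc, hT⟩ :=
      TopologicalSpace.countable_cover_nhdsWithin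
        (f := V) (s := W) (fun q hq => mem_nhdsWithin_of_mem_nhds ((hVo q hq).mem_nhds (hVmem q hq)))
    refine ⟨T, hTc, hTs, Subset.antisymm (iUnion₂_subset fun q hq => hVW q (hTs hq)) hT⟩
  by_cases hTe : T = ∅
  · refine ⟨fun _ => ∅, fun _ => MeasurableSet.empty, fun _ => injOn_empty X, ?_, ?_⟩
    · intro m n _; simp
    · rw [← hTeq, hTe]; simp
  obtain ⟨s, hs⟩ := hTc.exists_eq_range (nonempty_iff_ne_empty.mpr hTe)
  have hsT : ∀ n, s n ∈ W := fun n => hTW (hs ▸ mem_range_self n)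
  refine ⟨disjointed fun n => V (s n), ?_, ?_, disjoint_disjointed _, ?_⟩
  · intro n
    exact MeasurableSet.disjointed (fun k => (hVo _ (hsT k)).measurableSet) n
  · intro n
    exact (hVinj _ (hsT n)).mono (disjointed_subset _ n)
  · rw [iUnion_disjointed, ← hTeq, hs]
    simp

/-- the area formula with multiplicity -/
theorem lintegral_fib {U : Set E} (hU : IsOpen U) {X : E → E}
    (hX : ContDiffOn ℝ 1 X U) {F : E → ℝ≥0∞} (hF : Measurable F) :
    ∫⁻ p, ∑' q : Fib U X p, F q ∂μ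
      = ∫⁻ q in {q | q ∈ U ∧ (fderiv ℝ X q).det ≠ 0}, ENNReal.ofReal |(fderiv ℝ X q).det| * F q
        ∂μ := by
  classical
  obtain ⟨A, hAm, hAinj, hAd, hAu⟩ := exists_pieces hU hX
  have hAW : ∀ n, A n ⊆ {q | q ∈ U ∧ (fderiv ℝ X q).det ≠ 0} := fun n => by
    rw [← hAu]; exact subset_iUnion A n
  have hdiff : ∀ n, ∀ q ∈ A n, DifferentiableAt ℝ X q := fun n q hq =>
    (hX.differentiableOn (by norm_num)).differentiableAt (hU.mem_nhds (hAW n hq).1)
  have hsum : ∀ p, ∑' q : Fib U X p, F q = ∑' n, ∑' q : {q | q ∈ A n ∧ X q = p}, F q := by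
    intro p
    have h1 : Fib U X p = ⋃ n, {q | q ∈ A n ∧ X q = p} := by
      ext q
      simp only [Fib, mem_ofPred_eq, mem_iUnion]
      constructor
      · rintro ⟨h1, h2, h3⟩
        have : q ∈ ⋃ n, A n := by rw [hAu]; exact ⟨h1, h3⟩
        obtain ⟨n, hn⟩ := mem_iUnion.1 this
        exact ⟨n, hn, h2⟩
      · rintro ⟨n, hn, h2⟩
        exact ⟨(hAW n hn).1, h2, (hAW n hn).2⟩
    have h2 : (univ : Set ℕ).PairwiseDisjoint (fun n => {q | q ∈ A n ∧ X q = p}) := by
      intro m _ n _ hmn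
      exact (hAd hmn).mono (fun q hq => hq.1) (fun q hq => hq.1)
    rw [h1]
    exact ENNReal.tsum_biUnion h2
  simp_rw [hsum]
  rw [lintegral_tsum fun n => (measurable_piece (hAm n) (hdiff n) (hAinj n) hF).aemeasurable]
  rw [← hAu, lintegral_iUnion hAm hAd]
  refine tsum_congr fun n => ?_
  exact lintegral_piece μ (hAm n) (hdiff n) (hAinj n) F

/-- measurability of the sum over the fibres -/
theorem measurable_fib {U : Set E} (hU : IsOpen U) {X : E → E}
    (hX : ContDiffOn ℝ 1 X U) {F : E → ℝ≥0∞} (hF : Measurable F) :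
    Measurable fun p => ∑' q : Fib U X p, F q := by
  classical
  obtain ⟨A, hAm, hAinj, hAd, hAu⟩ := exists_pieces hU hX
  have hAW : ∀ n, A n ⊆ {q | q ∈ U ∧ (fderiv ℝ X q).det ≠ 0} := fun n => by
    rw [← hAu]; exact subset_iUnion A n
  have hdiff : ∀ n, ∀ q ∈ A n, DifferentiableAt ℝ X q := fun n q hq =>
    (hX.differentiableOn (by norm_num)).differentiableAt (hU.mem_nhds (hAW n hq).1)
  have hsum : (fun p => ∑' q : Fib U X p, F q)
      = fun p => ∑' n, ∑' q : {q | q ∈ A n ∧ X q = p}, F q := by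
    funext p
    have h1 : Fib U X p = ⋃ n, {q | q ∈ A n ∧ X q = p} := by
      ext q
      simp only [Fib, mem_ofPred_eq, mem_iUnion]
      constructor
      · rintro ⟨h1, h2, h3⟩
        have : q ∈ ⋃ n, A n := by rw [hAu]; exact ⟨h1, h3⟩
        obtain ⟨n, hn⟩ := mem_iUnion.1 this
        exact ⟨n, hn, h2⟩
      · rintro ⟨n, hn, h2⟩
        exact ⟨(hAW n hn).1, h2, (hAW n hn).2⟩
    have h2 : (univ : Set ℕ).PairwiseDisjoint (fun n => {q | q ∈ A n ∧ X q = p}) := by
      intro m _ n _ hmn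
      exact (hAd hmn).mono (fun q hq => hq.1) (fun q hq => hq.1)
    rw [h1]
    exact ENNReal.tsum_biUnion h2
  rw [hsum]
  exact Measurable.tsum fun n => measurable_piece (hAm n) (hdiff n) (hAinj n) hF

/-- almost every point is not a critical value -/
theorem ae_fib {U : Set E} (hU : IsOpen U) {X : E → E} (hX : ContDiffOn ℝ 1 X U) :
    ∀ᵐ p ∂μ, ∀ q ∈ U, X q = p → (fderiv ℝ X q).det ≠ 0 := by
  have h0 : μ (X '' {q | q ∈ U ∧ (fderiv ℝ X q).det = 0}) = 0 := by
    refine MeasureTheory.addHaar_image_eq_zero_of_det_fderivWithin_eq_zero μ (f' := fun q => fderiv ℝ X q)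
      (fun q hq => ?_) (fun q hq => hq.2)
    exact (((hX.differentiableOn (by norm_num)).differentiableAt
      (hU.mem_nhds hq.1)).hasFDerivAt).hasFDerivWithinAt
  have := measure_eq_zero_iff_ae_notMem.1 h0
  filter_upwards [this] with p hp q hq hqp hdet
  exact hp ⟨q, ⟨hq, hdet⟩, hqp⟩

/-- **The area inequality for a covering by charts.** -/
theorem lintegral_tsum_le {ι : Type*} [Fintype ι] {β : Type*}
    (R : E → Set β) (ψ : E → β → ℝ≥0∞)
    (U : ι → Set E) (hU : ∀ a, IsOpen (U a)) (X : ι → E → E)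
    (hX : ∀ a, ContDiffOn ℝ 1 (X a) (U a))
    (Z : ι → E → β) (m : ι → E → ℝ≥0∞) (hm : ∀ a, Measurable (m a))
    (hcov : ∀ᵐ p ∂μ, ∀ z ∈ R p, ψ p z ≠ 0 → ∃ a, ∃ q ∈ U a, X a q = p ∧ Z a q = z)
    (hle : ∀ a, ∀ q ∈ U a, Z a q ∈ R (X a q) →
      ψ (X a q) (Z a q) * ENNReal.ofReal |(fderiv ℝ (X a) q).det| ≤ m a q) :
    ∫⁻ p, ∑' z : R p, ψ p z ∂μ ≤ ∑ a, ∫⁻ q in U a, m a q ∂μ := by
  classical
  set F : ι → E → ℝ≥0∞ := fun a q => m a q / ENNReal.ofReal |(fderiv ℝ (X a) q).det| with hF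
  have hFm : ∀ a, Measurable (F a) := by
    intro a
    refine (hm a).div ?_
    refine ENNReal.measurable_ofReal.comp ?_
    exact (continuous_abs.measurable).comp
      (ContinuousLinearMap.continuous_det.measurable.comp (measurable_fderiv ℝ (X a)))
  have hae : ∀ᵐ p ∂μ, ∀ a, ∀ q ∈ U a, X a q = p → (fderiv ℝ (X a) q).det ≠ 0 :=
    ae_all_iff.2 fun a => ae_fib μ (hU a) (hX a)
  have key : ∀ᵐ p ∂μ, ∑' z : R p, ψ p z ≤ ∑ a, ∑' q : Fib (U a) (X a) p, F a q := by
    filter_upwards [hcov, hae] with p hp hp2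
    have h1 : ∀ z : {z : R p // ψ p z ≠ 0}, ∃ aq : Σ a, Fib (U a) (X a) p,
        Z aq.1 aq.2 = z.1.1 := by
      intro z
      obtain ⟨a, q, hq, hXq, hZq⟩ := hp z.1.1 z.1.2 z.2
      exact ⟨⟨a, ⟨q, hq, hXq, hp2 a q hq hXq⟩⟩, hZq⟩
    choose c hc using h1
    have hcinj : Function.Injective c := by
      intro z z' h
      apply Subtype.ext
      apply Subtype.ext
      rw [← hc z, ← hc z', h]
    have h2 : ∀ z : {z : R p // ψ p z ≠ 0}, ψ p z.1 ≤ F (c z).1 (c z).2 := by
      intro z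
      obtain ⟨hqU, hXq, hdet⟩ := (c z).2.2
      have h3 := hle (c z).1 (c z).2.1 hqU (by rw [hXq, hc z]; exact z.1.2)
      rw [hXq, hc z] at h3
      rw [hF]
      simp only
      rw [ENNReal.le_div_iff_mul_le]
      · exact h3
      · left
        exact (ENNReal.ofReal_pos.2 (abs_pos.2 hdet)).ne'
      · left
        exact ENNReal.ofReal_ne_top
    calc ∑' z : R p, ψ p z = ∑' z : {z : R p // ψ p z ≠ 0}, ψ p z.1 := by
          refine (tsum_subtype_eq_of_support_subset (f := fun z : R p => ψ p z) (s := {z | ψ p z ≠ 0})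
            ?_).symm
          intro z hz
          exact hz
      _ ≤ ∑' z : {z : R p // ψ p z ≠ 0}, F (c z).1 (c z).2 := ENNReal.tsum_le_tsum h2
      _ ≤ ∑' aq : Σ a, Fib (U a) (X a) p, F aq.1 aq.2 :=
          ENNReal.tsum_comp_le_tsum_of_injective hcinj (fun aq : Σ a, Fib (U a) (X a) p => F aq.1 aq.2)
      _ = ∑' a, ∑' q : Fib (U a) (X a) p, F a q := ENNReal.tsum_sigma (fun a (q : Fib (U a) (X a) p) => F a q)
      _ = _ := tsum_fintype _
  calc ∫⁻ p, ∑' z : R p, ψ p z ∂μ ≤ ∫⁻ p, ∑ a, ∑' q : Fib (U a) (X a) p, F a q ∂μ :=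
        lintegral_mono_ae key
    _ = ∑ a, ∫⁻ p, ∑' q : Fib (U a) (X a) p, F a q ∂μ :=
        lintegral_finsetSum _ fun a _ => measurable_fib (hU a) (hX a) (hFm a)
    _ ≤ ∑ a, ∫⁻ q in U a, m a q ∂μ := by
        refine Finset.sum_le_sum fun a _ => ?_
        rw [lintegral_fib μ (hU a) (hX a) (hFm a)]
        refine le_trans (lintegral_mono fun q => ?_) (lintegral_mono_set fun q hq => hq.1)
        rw [hF]
        simp only
        exact ENNReal.mul_div_le

end Area

end Vale.Agent.P298.H707
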