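import Vale.Agent.P298.H707.Base1

/-!
P298, row E1-GLUE-INT (helper707): the charts of the plane, one for every place of every curve of
the tree of point blow-ups; edges, orders, injectivity, covering.
-/

namespace Vale.Agent.P298.H707

open Set Filter Topology Metric Polynomial Vale.Agent.P298 Vale.Agent.P298.H379
open Vale.Agent.P298.H928

/-- a resolution of the germ `H` by the centres `C`, with the shifts `φ` -/
structure Rsl (H : ℂ × ℂ → ℂ) (C : Finset Wd) (φ : Wd → ℂ → ℂ) : Prop where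
  nil : [] ∈ C
  tail : TailClosed C
  φan : ∀ e, AnalyticAt ℂ (φ e) 0
  φ0 : ∀ e, φ e 0 = 0
  φsec : ∀ e, sec e ≠ none → ∀ a, φ e a = 0
  mon : ∀ w ∈ C, ∀ d, d :: w ∉ C →
    ∃ a b, MonU (fun q => H (psi (d :: w) (q.1, q.2 + φ (d :: w) q.1))) a b

theorem exists_phi {D : ℂ × ℂ → ℂ} {e : Wd} (hnc : NC (fun q => (psi e q).1 * D (psi e q))) :
    ∃ φ : ℂ → ℂ, AnalyticAt ℂ φ 0 ∧ φ 0 = 0 ∧ (sec e ≠ none → ∀ a, φ a = 0) ∧
      ∃ a b, MonU (fun q => (psi e (q.1, q.2 + φ q.1)).1 * D (psi e (q.1, q.2 + φ q.1))) a b := by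
  obtain ⟨p, ν, φ, U, hφ, hφ0, hU, hU0, hH⟩ := hnc
  have key : ∀ φ' : ℂ → ℂ, AnalyticAt ℂ φ' 0 → φ' 0 = 0 → (∀ᶠ a in 𝓝 (0 : ℂ), φ a = φ' a) →
      MonU (fun q => (psi e (q.1, q.2 + φ' q.1)).1 * D (psi e (q.1, q.2 + φ' q.1))) p ν := by
    intro φ' h1 h2 h3
    have h4 : AnalyticAt ℂ (fun q : ℂ × ℂ => ((q.1, q.2 + φ' q.1) : ℂ × ℂ)) 0 :=
      analyticAt_fst.prod (analyticAt_snd.add (h1.comp_of_eq analyticAt_fst rfl))
    have h5 : (((0 : ℂ × ℂ).1, (0 : ℂ × ℂ).2 + φ' (0 : ℂ × ℂ).1) : ℂ × ℂ) = 0 := by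
      simp [h2]
    have h6 : Tendsto (fun q : ℂ × ℂ => ((q.1, q.2 + φ' q.1) : ℂ × ℂ)) (𝓝 0) (𝓝 0) := by
      have := h4.continuousAt.tendsto
      rwa [h5] at this
    refine ⟨fun q => U (q.1, q.2 + φ' q.1), hU.comp_of_eq h4 h5, ?_, ?_⟩
    · change U ((0 : ℂ × ℂ).1, (0 : ℂ × ℂ).2 + φ' (0 : ℂ × ℂ).1) ≠ 0
      rw [h5]
      exact hU0
    · filter_upwards [h6.eventually hH, (continuous_fst.tendsto (0 : ℂ × ℂ)).eventually h3]
        with q h7 h8
      rw [h7, h8]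
      ring
  by_cases hs : sec e = none
  · exact ⟨φ, hφ, hφ0, fun h => absurd hs h, p, ν, key φ hφ hφ0 (Eventually.of_forall fun _ => rfl)⟩
  · refine ⟨fun _ => 0, analyticAt_const, rfl, fun _ _ => rfl, p, ν,
      key (fun _ => 0) analyticAt_const rfl ?_⟩
    obtain ⟨u, hu⟩ := Option.ne_none_iff_exists'.1 hs
    -- on the second line the first coordinate of the plane vanishes
    have h1 := monU_psi_fst e
    rw [mlt_snd, hu, mo_some] at h1
    have hpos := mlt_x_pos u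
    obtain ⟨g, hg, hg0, hgx⟩ := h1
    have ht : Tendsto (fun a : ℂ => ((a, 0) : ℂ × ℂ)) (𝓝 0) (𝓝 0) :=
      (Continuous.prodMk_left (0 : ℂ)).continuousAt
    have h2 : ∀ᶠ a in 𝓝 (0 : ℂ), a ≠ 0 → φ a = 0 := by
      filter_upwards [ht.eventually hgx, ht.eventually hH,
        ht.eventually (hU.continuousAt.eventually_ne hU0)] with a h3 h4 h5 ha
      rw [h3, zero_pow hpos.ne', mul_zero, zero_mul, zero_mul] at h4
      have h6 := mul_eq_zero.1 h4.symm
      rcases h6 with h6 | h6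
      · rcases mul_eq_zero.1 h6 with h7 | h7
        · exact absurd (eq_zero_of_pow_eq_zero h7) ha
        · have h8 := eq_zero_of_pow_eq_zero h7
          linear_combination -h8
      · exact absurd h6 h5
    filter_upwards [h2] with a ha
    rcases eq_or_ne a 0 with rfl | h0
    · exact hφ0
    · exact ha h0

theorem exists_rsl {D : ℂ × ℂ → ℂ} (hD : AnalyticAt ℂ D 0) (h0 : ∃ᶠ p in 𝓝 (0 : ℂ × ℂ), D p ≠ 0) :
    ∃ C φ, Rsl (fun p => p.1 * D p) C φ := by
  have hH : AnalyticAt ℂ (fun p : ℂ × ℂ => p.1 * D p) 0 := analyticAt_fst.mul hD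
  have hne : ¬ ∀ᶠ q in 𝓝 (0 : ℂ × ℂ), (fun p : ℂ × ℂ => p.1 * D p) q = 0 := by
    intro h
    apply h0
    obtain ⟨r, hr, hb⟩ := Metric.eventually_nhds_iff_ball.1 (h.and hD.eventually_analyticAt)
    have h2 : ∀ q ∈ ball (0 : ℂ × ℂ) r, D q = 0 := by
      intro q hq
      have h3 : ContinuousAt (fun a : ℂ => D (a, q.2)) q.1 := by
        have h4 := ((hb q hq).2).continuousAt
        have h5 : ContinuousAt (fun a : ℂ => ((a, q.2) : ℂ × ℂ)) q.1 := by fun_prop
        exact ContinuousAt.comp (g := D) (f := fun a : ℂ => ((a, q.2) : ℂ × ℂ)) h4 h5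
      have h6 : ∀ᶠ a in 𝓝[≠] q.1, a ≠ 0 := by
        rcases eq_or_ne q.1 0 with h7 | h7
        · rw [h7]
          exact self_mem_nhdsWithin
        · exact eventually_nhdsWithin_of_eventually_nhds (continuousAt_id.eventually_ne h7)
      have h7 : ∀ᶠ a in 𝓝 q.1, ((a, q.2) : ℂ × ℂ) ∈ ball (0 : ℂ × ℂ) r := by
        have h8 : ContinuousAt (fun a : ℂ => ((a, q.2) : ℂ × ℂ)) q.1 := by fun_prop
        exact h8.eventually (isOpen_ball.mem_nhds hq)
      have h8 : ∀ᶠ a in 𝓝[≠] q.1, D (a, q.2) = 0 := by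
        filter_upwards [h6, eventually_nhdsWithin_of_eventually_nhds h7] with a h9 h10
        have h11 := (hb _ h10).1
        exact (mul_eq_zero.1 h11).resolve_left h9
      have h9 : Tendsto (fun a : ℂ => D (a, q.2)) (𝓝[≠] q.1) (𝓝 (D q)) :=
        h3.tendsto.mono_left nhdsWithin_le_nhds
      have h10 : Tendsto (fun a : ℂ => D (a, q.2)) (𝓝[≠] q.1) (𝓝 0) :=
        tendsto_const_nhds.congr' (by filter_upwards [h8] with a ha; exact ha.symm)
      exact tendsto_nhds_unique h9 h10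
    filter_upwards [ball_mem_nhds (0 : ℂ × ℂ) hr] with q hq
    exact not_not.2 (h2 q hq)
  obtain ⟨C, hC1, hC2, hC3⟩ := exists_centres (good hH hne)
  have hex : ∀ e : Wd, ∃ φ : ℂ → ℂ, AnalyticAt ℂ φ 0 ∧ φ 0 = 0 ∧ (sec e ≠ none → ∀ a, φ a = 0) ∧
      ∀ w ∈ C, ∀ d, d :: w ∉ C → e = d :: w →
      ∃ a b, MonU (fun q => (psi e (q.1, q.2 + φ q.1)).1 * D (psi e (q.1, q.2 + φ q.1))) a b := by
    intro e
    by_cases he : ∃ w ∈ C, ∃ d, d :: w ∉ C ∧ e = d :: w
    · obtain ⟨w, hw, d, hd, rfl⟩ := he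
      obtain ⟨φ, h1, h2, h3, h4⟩ := exists_phi (hC3 w hw d hd)
      exact ⟨φ, h1, h2, h3, fun _ _ _ _ _ => h4⟩
    · exact ⟨fun _ => 0, analyticAt_const, rfl, fun _ _ => rfl, fun w hw d hd hed =>
        absurd ⟨w, hw, d, hd, hed⟩ he⟩
  choose φ h1 h2 h3 h4 using hex
  exact ⟨C, φ, hC1, hC2, h1, h2, h3, fun w hw d hd => h4 (d :: w) w hw d hd rfl⟩

/-! ### Places, charts -/

/-- the places of the curves -/
abbrev Pl (C : Finset Wd) := {w : Wd // w ∈ C} × Option ℂ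

/-- the word of a place -/
def wrd {C : Finset Wd} (i : Pl C) : Wd := i.2 :: i.1

open Classical in
/-- the chart at a place; the first coordinate line is the curve -/
noncomputable def Th (C : Finset Wd) (φ : Wd → ℂ → ℂ) (i : Pl C) (q : ℂ × ℂ) : ℂ × ℂ :=
  if wrd i ∈ C then psi (exw C (wrd i)) (q.2, q.1) else psi (wrd i) (q.1, q.2 + φ (wrd i) q.1)

open Classical in
/-- the second line in the chart of a place -/
noncomputable def opp {C : Finset Wd} (i : Pl C) : Option Wd :=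
  if wrd i ∈ C then some (exw C (wrd i)) else sec (wrd i)

variable {C : Finset Wd} {φ : Wd → ℂ → ℂ} {H : ℂ × ℂ → ℂ}

theorem wrd_inj {i j : Pl C} (h : wrd i = wrd j) : i = j := by
  obtain ⟨⟨w, hw⟩, d⟩ := i
  obtain ⟨⟨w', hw'⟩, d'⟩ := j
  simp only [wrd, List.cons.injEq] at h
  obtain ⟨rfl, rfl⟩ := h
  rfl

theorem wrd_tail (i : Pl C) : (wrd i).tail ∈ C := i.1.2

/-- the place of an exit word -/
theorem exists_pl {e : Wd} (he : e ≠ []) (ht : e.tail ∈ C) : ∃ i : Pl C, wrd i = e := by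
  rcases e with _ | ⟨d, w⟩
  · exact absurd rfl he
  · exact ⟨(⟨w, ht⟩, d), rfl⟩

theorem opp_symm (hC : TailClosed C) {i j : Pl C} (h : opp i = some (wrd j)) :
    opp j = some (wrd i) ∧ (wrd i ∈ C ↔ wrd j ∉ C) := by
  classical
  rw [opp] at h
  split_ifs at h with hi
  · rw [Option.some.injEq] at h
    have hj : wrd j ∉ C := by
      rw [← h]
      exact exw_notMem C _
    refine ⟨?_, by simp [hi, hj]⟩
    rw [opp, if_neg hj, ← h, sec_exw]
  · obtain ⟨h1, h2⟩ := eq_exw hC hi (wrd_tail i) h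
    refine ⟨?_, by simp [hi, h1]⟩
    rw [opp, if_pos h1, ← h2]

theorem opp_cases (hC : TailClosed C) (i : Pl C) :
    opp i = none ∨ opp i = some [] ∨ ∃ j : Pl C, opp i = some (wrd j) := by
  classical
  by_cases hi : wrd i ∈ C
  · obtain ⟨j, hj⟩ := exists_pl (exw_ne_nil C (wrd i)) (exw_tail_mem hi)
    refine .inr (.inr ⟨j, ?_⟩)
    rw [opp, if_pos hi, hj]
  · rcases hs : sec (wrd i) with _ | u
    · left
      rw [opp, if_neg hi, hs]
    · right
      obtain ⟨h1, -⟩ := eq_exw hC hi (wrd_tail i) hs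
      rcases u with _ | ⟨d, w⟩
      · left
        rw [opp, if_neg hi, hs]
      · right
        refine ⟨(⟨w, hC d w h1⟩, d), ?_⟩
        rw [opp, if_neg hi, hs]
        rfl

theorem opp_ne (hC : TailClosed C) {i j : Pl C} (h : opp i = some (wrd j)) : i.1 ≠ j.1 := by
  classical
  intro hij
  have key : ∀ i j : Pl C, wrd i ∈ C → opp i = some (wrd j) → i.1 ≠ j.1 := by
    intro i j hi h hij
    rw [opp, if_pos hi, Option.some.injEq] at h
    have h1 := congrArg List.length h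
    rw [exw, length_runW] at h1
    have h2 : (wrd i).length = i.1.1.length + 1 := rfl
    have h3 : (wrd j).length = j.1.1.length + 1 := rfl
    rw [h2, h3, hij] at h1
    omega
  by_cases hi : wrd i ∈ C
  · exact key i j hi h hij
  · obtain ⟨h1, h2⟩ := opp_symm hC h
    have h3 : wrd j ∈ C := by
      by_contra h3
      exact hi (h2.2 h3)
    exact key j i h3 h1 hij.symm

/-- the two charts at a node -/
theorem Th_swap (R : Rsl H C φ) {i j : Pl C} (h : opp i = some (wrd j)) (q : ℂ × ℂ) :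
    Th C φ i q = Th C φ j (q.2, q.1) := by
  classical
  have key : ∀ (i j : Pl C) (q : ℂ × ℂ), wrd i ∈ C → opp i = some (wrd j) →
      Th C φ i q = Th C φ j (q.2, q.1) := by
    intro i j q hi h
    have h1 := (opp_symm R.tail h).2.1 hi
    rw [opp, if_pos hi, Option.some.injEq] at h
    rw [Th, if_pos hi, Th, if_neg h1, h, R.φsec (wrd j) (by rw [← h, sec_exw]; simp), add_zero]
  by_cases hi : wrd i ∈ C
  · exact key i j q hi h
  · obtain ⟨h1, h2⟩ := opp_symm R.tail h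
    have h3 : wrd j ∈ C := by
      by_contra h3
      exact hi (h2.2 h3)
    exact (key j i (q.2, q.1) h3 h1).symm

/-- the chart of the ground place -/
theorem Th_ground (R : Rsl H C φ) {i : Pl C} (h : opp i = some []) (q : ℂ × ℂ) :
    wrd i = exw C [] ∧ Th C φ i q = (q.1 ^ (kx C [] + 1) * q.2, q.1) := by
  classical
  have hi : wrd i ∉ C := by
    intro hi
    rw [opp, if_pos hi, Option.some.injEq] at h
    exact exw_ne_nil C _ h
  rw [opp, if_neg hi] at h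
  obtain ⟨h1, h2⟩ := eq_exw R.tail hi (wrd_tail i) h
  refine ⟨h2, ?_⟩
  rw [Th, if_neg hi, R.φsec (wrd i) (by rw [h]; simp), add_zero, h2, exw, psi_runW, psi_nil]

theorem ground_unique (R : Rsl H C φ) {i j : Pl C} (hi : opp i = some []) (hj : opp j = some []) :
    i = j :=
  wrd_inj ((Th_ground R hi 0).1.trans (Th_ground R hj 0).1.symm)

theorem exists_ground (R : Rsl H C φ) : ∃ i : Pl C, opp i = some [] := by
  classical
  obtain ⟨i, hi⟩ := exists_pl (exw_ne_nil C []) (exw_tail_mem R.nil)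
  refine ⟨i, ?_⟩
  rw [opp, if_neg (by rw [hi]; exact exw_notMem C []), hi, sec_exw]

/-! ### Germ properties of the charts -/

theorem analyticAt_swap (q : ℂ × ℂ) : AnalyticAt ℂ (fun q : ℂ × ℂ => ((q.2, q.1) : ℂ × ℂ)) q :=
  analyticAt_snd.prod analyticAt_fst

theorem tendsto_swap : Tendsto (fun q : ℂ × ℂ => ((q.2, q.1) : ℂ × ℂ)) (𝓝 0) (𝓝 0) := by
  have h := (analyticAt_swap 0).continuousAt.tendsto
  simpa [Prod.mk_zero_zero] using h

theorem MonU.swap {g : ℂ × ℂ → ℂ} {i j : ℕ} (hg : MonU g i j) :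
    MonU (fun q => g (q.2, q.1)) j i := by
  obtain ⟨u, hu, hu0, h⟩ := hg
  refine ⟨fun q => u (q.2, q.1), hu.comp_of_eq (analyticAt_swap 0) rfl, hu0, ?_⟩
  filter_upwards [tendsto_swap.eventually h] with q hq
  rw [hq]
  ring

theorem analyticAt_shift (R : Rsl H C φ) (e : Wd) :
    AnalyticAt ℂ (fun q : ℂ × ℂ => ((q.1, q.2 + φ e q.1) : ℂ × ℂ)) 0 :=
  analyticAt_fst.prod (analyticAt_snd.add ((R.φan e).comp_of_eq analyticAt_fst rfl))

theorem shift_zero (R : Rsl H C φ) (e : Wd) :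
    (((0 : ℂ × ℂ).1, (0 : ℂ × ℂ).2 + φ e (0 : ℂ × ℂ).1) : ℂ × ℂ) = 0 := by
  simp [R.φ0 e]

theorem Th_an (R : Rsl H C φ) (i : Pl C) : AnalyticAt ℂ (Th C φ i) 0 := by
  classical
  by_cases hi : wrd i ∈ C
  · have h : Th C φ i = fun q => psi (exw C (wrd i)) (q.2, q.1) := by
      funext q
      rw [Th, if_pos hi]
    rw [h]
    exact (analyticAt_psi _ _).comp (analyticAt_swap 0)
  · have h : Th C φ i = fun q => psi (wrd i) (q.1, q.2 + φ (wrd i) q.1) := by
      funext q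
      rw [Th, if_neg hi]
    rw [h]
    exact (analyticAt_psi _ _).comp (analyticAt_shift R _)

theorem Th_zero (R : Rsl H C φ) (i : Pl C) : Th C φ i 0 = 0 := by
  classical
  rw [Th]
  split_ifs with hi
  · exact psi_zero _
  · rw [shift_zero R, psi_zero]

/-- the curve is contracted -/
theorem Th_line (i : Pl C) (t : ℂ) : Th C φ i (0, t) = 0 := by
  classical
  rw [Th]
  split_ifs with hi
  · dsimp only
    rw [exw, psi_runW]
    simp only [mul_zero]
    exact psi_cons_fst_zero _ _ rfl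
  · exact psi_cons_fst_zero _ _ rfl

theorem Th_node (R : Rsl H C φ) {i j : Pl C} (h : opp i = some (wrd j)) (s : ℂ) :
    Th C φ i (s, 0) = 0 := by
  rw [Th_swap R h]
  exact Th_line j s

theorem Th_inj {i : Pl C} {q q' : ℂ × ℂ} (h : (Th C φ i q).1 ≠ 0)
    (he : Th C φ i q = Th C φ i q') : q = q' := by
  classical
  by_cases hi : wrd i ∈ C
  · simp only [Th, if_pos hi] at h he
    have h1 := psi_inj h he
    rw [Prod.mk.injEq] at h1
    exact Prod.ext h1.2 h1.1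
  · simp only [Th, if_neg hi] at h he
    have h1 := psi_inj h he
    rw [Prod.mk.injEq] at h1
    obtain ⟨h2, h3⟩ := h1
    refine Prod.ext h2 ?_
    rw [h2] at h3
    exact add_right_cancel h3

/-- orders of a function with known orders on the `psi` -/
theorem monU_Th (R : Rsl H C φ) (δ m₀ : ℕ) {g : Wd → ℂ × ℂ → ℂ}
    (hg : ∀ w, MonU (g w) (mlt δ m₀ w).1 (mlt δ m₀ w).2) (i : Pl C) :
    (wrd i ∈ C → MonU (fun q => g (exw C (wrd i)) (q.2, q.1)) (mtop δ m₀ i.1)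
      (mo δ m₀ (opp i))) ∧
    (wrd i ∉ C → MonU (fun q => g (wrd i) (q.1, q.2 + φ (wrd i) q.1)) (mtop δ m₀ i.1)
      (mo δ m₀ (opp i))) := by
  classical
  constructor
  · intro hi
    have h1 := (hg (exw C (wrd i))).swap
    have h2 : (mlt δ m₀ (exw C (wrd i))).2 = mtop δ m₀ i.1 := by
      rw [mlt_snd, sec_exw, mo_some]
      exact mlt_cons_fst δ m₀ i.2 i.1
    rw [h2] at h1
    rw [opp, if_pos hi, mo_some]
    exact h1
  · intro hi
    have h1 := hg (wrd i)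
    have h2 : (mlt δ m₀ (wrd i)).1 = mtop δ m₀ i.1 := mlt_cons_fst δ m₀ i.2 i.1
    rw [h2, mlt_snd] at h1
    rw [opp, if_neg hi]
    obtain ⟨u, hu, hu0, h⟩ := h1
    refine ⟨fun q => u (q.1, q.2 + φ (wrd i) q.1),
      hu.comp_of_eq (analyticAt_shift R _) (shift_zero R _), ?_, ?_⟩
    · change u ((0 : ℂ × ℂ).1, (0 : ℂ × ℂ).2 + φ (wrd i) (0 : ℂ × ℂ).1) ≠ 0
      rw [shift_zero R]
      exact hu0
    · have ht : Tendsto (fun q : ℂ × ℂ => ((q.1, q.2 + φ (wrd i) q.1) : ℂ × ℂ)) (𝓝 0) (𝓝 0) := by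
        have := (analyticAt_shift R (wrd i)).continuousAt.tendsto
        rwa [shift_zero R] at this
      filter_upwards [ht.eventually h] with q hq
      rw [hq]
      rcases hs : sec (wrd i) with _ | v
      · rw [mo_none, pow_zero, pow_zero]
      · rw [R.φsec (wrd i) (by rw [hs]; simp), add_zero]

/-- orders of the first coordinate of the plane -/
theorem monU_Th_fst (R : Rsl H C φ) (i : Pl C) :
    MonU (fun q => (Th C φ i q).1) (mtop 0 1 i.1) (mo 0 1 (opp i)) := by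
  classical
  have h := monU_Th R 0 1 (g := fun w q => (psi w q).1) monU_psi_fst i
  by_cases hi : wrd i ∈ C
  · refine (h.1 hi).congr (Eventually.of_forall fun q => ?_)
    rw [Th, if_pos hi]
  · refine (h.2 hi).congr (Eventually.of_forall fun q => ?_)
    rw [Th, if_neg hi]

theorem MonU.neg {g : ℂ × ℂ → ℂ} {i j : ℕ} (hg : MonU g i j) : MonU (fun q => -g q) i j := by
  obtain ⟨u, hu, hu0, h⟩ := hg
  refine ⟨fun q => -u q, hu.neg, neg_ne_zero.2 hu0, ?_⟩
  filter_upwards [h] with q hq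
  rw [hq]
  ring

/-- orders of the Jacobian -/
theorem monU_Th_jac (R : Rsl H C φ) (i : Pl C) :
    MonU (jacP (Th C φ i)) (mtop 1 0 i.1) (mo 1 0 (opp i)) := by
  classical
  have h := monU_Th R 1 0 (g := fun w => jacP (psi w)) monU_jac_psi i
  by_cases hi : wrd i ∈ C
  · have e : Th C φ i = fun q => psi (exw C (wrd i)) (q.2, q.1) := by
      funext q
      rw [Th, if_pos hi]
    rw [e]
    refine (h.1 hi).neg.congr (Eventually.of_forall fun q => ?_)
    have h1 : HasFDerivAt (fun q : ℂ × ℂ => ((q.2, q.1) : ℂ × ℂ)) _ q :=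
      (hasFDerivAt_snd (𝕜 := ℂ) (p := q)).prodMk (hasFDerivAt_fst (𝕜 := ℂ) (p := q))
    have h2 : jacP (fun q : ℂ × ℂ => ((q.2, q.1) : ℂ × ℂ)) q = -1 := by
      rw [jacP, h1.fderiv]
      simp
    rw [jacP_comp (g := psi (exw C (wrd i))) (analyticAt_psi _ _).differentiableAt
      h1.differentiableAt, h2]
    ring
  · have e : Th C φ i = fun q => psi (wrd i) (q.1, q.2 + φ (wrd i) q.1) := by
      funext q
      rw [Th, if_neg hi]
    rw [e]
    refine (h.2 hi).congr ?_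
    have h3 : ∀ᶠ q : ℂ × ℂ in 𝓝 0, DifferentiableAt ℂ (φ (wrd i)) q.1 :=
      (continuous_fst.tendsto (0 : ℂ × ℂ)).eventually
        ((R.φan (wrd i)).eventually_analyticAt.mono fun a ha => ha.differentiableAt)
    filter_upwards [h3] with q hq
    have h4 : HasFDerivAt (fun q : ℂ × ℂ => φ (wrd i) q.1) _ q :=
      (hq.hasDerivAt).comp_hasFDerivAt q (hasFDerivAt_fst (𝕜 := ℂ) (p := q))
    have h1 : HasFDerivAt (fun q : ℂ × ℂ => ((q.1, q.2 + φ (wrd i) q.1) : ℂ × ℂ)) _ q :=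
      (hasFDerivAt_fst (𝕜 := ℂ) (p := q)).prodMk ((hasFDerivAt_snd (𝕜 := ℂ) (p := q)).add h4)
    have h2 : jacP (fun q : ℂ × ℂ => ((q.1, q.2 + φ (wrd i) q.1) : ℂ × ℂ)) q = 1 := by
      rw [jacP, h1.fderiv]
      simp
    rw [jacP_comp (g := psi (wrd i)) (analyticAt_psi _ _).differentiableAt
      h1.differentiableAt, h2, mul_one]

/-- the charts are normal crossing for `H` -/
theorem monU_Th_H (R : Rsl H C φ) (i : Pl C) : ∃ a b, MonU (fun q => H (Th C φ i q)) a b := by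
  classical
  by_cases hi : wrd i ∈ C
  · obtain ⟨j, hj⟩ := exists_pl (exw_ne_nil C (wrd i)) (exw_tail_mem hi)
    have hjC : wrd j ∉ C := by
      rw [hj]
      exact exw_notMem C _
    obtain ⟨a, b, hab⟩ := R.mon j.1 j.1.2 j.2 hjC
    refine ⟨b, a, hab.swap.congr (Eventually.of_forall fun q => ?_)⟩
    have h1 : opp i = some (wrd j) := by rw [opp, if_pos hi, hj]
    rw [Th_swap R h1, Th, if_neg hjC]
    rfl
  · obtain ⟨a, b, hab⟩ := R.mon i.1 i.1.2 i.2 hi
    refine ⟨a, b, hab.congr (Eventually.of_forall fun q => ?_)⟩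
    rw [Th, if_neg hi]
    rfl

/-- covering -/
theorem Th_covers (R : Rsl H C φ) : Covers (Th C φ) := by
  classical
  intro ρ hρ
  have hsh : ∀ i : Pl C, ∃ δ : ℝ, 0 < δ ∧ ∀ q : ℂ × ℂ, ‖q‖ < δ →
      ‖((q.1, q.2 - φ (wrd i) q.1) : ℂ × ℂ)‖ < ρ i := by
    intro i
    have h1 : ContinuousAt (fun q : ℂ × ℂ => ((q.1, q.2 - φ (wrd i) q.1) : ℂ × ℂ)) 0 :=
      (analyticAt_fst.prod (analyticAt_snd.sub ((R.φan (wrd i)).comp_of_eq analyticAt_fst
        rfl))).continuousAt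
    have h2 : (((0 : ℂ × ℂ).1, (0 : ℂ × ℂ).2 - φ (wrd i) (0 : ℂ × ℂ).1) : ℂ × ℂ) = 0 := by
      simp [R.φ0 (wrd i)]
    have h3 : ∀ᶠ q : ℂ × ℂ in 𝓝 0, ‖((q.1, q.2 - φ (wrd i) q.1) : ℂ × ℂ)‖ < ρ i := by
      have h4 : ContinuousAt (fun q : ℂ × ℂ => ‖((q.1, q.2 - φ (wrd i) q.1) : ℂ × ℂ)‖) 0 :=
        h1.norm
      refine h4.eventually_lt continuousAt_const ?_
      rw [h2, norm_zero]
      exact hρ i
    obtain ⟨δ, hδ, hb⟩ := Metric.eventually_nhds_iff.1 h3
    exact ⟨δ, hδ, fun q hq => hb (by rwa [dist_zero_right])⟩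
  choose δ hδ hδb using hsh
  -- radii for the words
  obtain ⟨F, r, hF, hr, hcov⟩ := psi_cover (C := C) R.nil
    (fun x => if h : x.2 ∈ C then δ (⟨x.2, h⟩, x.1) else 1)
    (fun x => by
      split_ifs
      · exact hδ _
      · exact one_pos)
  refine ⟨F.attach.image fun x => ((⟨x.1.2, (hF x.2).1⟩, x.1.1) : Pl C), r, hr,
    fun p hp hpr => ?_⟩
  obtain ⟨x, hx, q, hq, hxq⟩ := hcov p hpr hp
  obtain ⟨hx1, hx2⟩ := hF hx
  refine ⟨(⟨x.2, hx1⟩, x.1), Finset.mem_image.2 ⟨⟨x, hx⟩, Finset.mem_attach _ _, rfl⟩,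
    (q.1, q.2 - φ (x.1 :: x.2) q.1), ?_, ?_⟩
  · rw [dif_pos hx1] at hq
    exact hδb (⟨x.2, hx1⟩, x.1) q hq
  · have hn : wrd ((⟨x.2, hx1⟩, x.1) : Pl C) ∉ C := hx2
    rw [Th, if_neg hn]
    have e : ((q.1, q.2 - φ (x.1 :: x.2) q.1 + φ (x.1 :: x.2) q.1) : ℂ × ℂ) = q := by
      rw [sub_add_cancel]
    change psi (x.1 :: x.2) (q.1, q.2 - φ (x.1 :: x.2) q.1 + φ (x.1 :: x.2) q.1) = p
    rw [e, hxq]

end Vale.Agent.P298.H707
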