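import Vale.Agent.P298.H707.Base2

/-!
P298, row E1-GLUE-INT (helper707): the surface charts over the tree of point blow-ups. One root
system at the two ends of a node.
-/

namespace Vale.Agent.P298.H707

open Set Filter Topology Metric Polynomial Vale.Agent.P298 Vale.Agent.P298.H379
open Vale.Agent.P298.H928
open Vale.Agent.P298.H983 (omg powBall)

theorem CR.swap {P : ℂ × ℂ → ℂ[X]} {Θ : ℂ × ℂ → ℂ × ℂ} {n K : ℕ} {ζ : Fin n → ℂ × ℂ → ℂ}
    {σ ρ : Equiv.Perm (Fin n)} (h : CR P Θ n K ζ σ ρ) :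
    CR P (fun q => Θ (q.2, q.1)) n K (fun l q => ζ l (q.2, q.1)) ρ σ where
  hK := h.hK
  hol l := (h.hol l).comp_of_eq (analyticAt_swap 0) rfl
  zero l := h.zero l
  prod := tendsto_swap.eventually h.prod
  inj := by
    filter_upwards [tendsto_swap.eventually h.inj] with q hq h1 h2
    exact hq h2 h1
  mon1 := tendsto_swap.eventually h.mon2
  mon2 := tendsto_swap.eventually h.mon1
  comm := h.comm.symm
  dif i j hij := by
    obtain ⟨p, r, hpr⟩ := h.dif i j hij
    exact ⟨r, p, hpr.swap⟩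
  der l := by
    obtain ⟨p, r, hpr⟩ := h.der l
    exact ⟨r, p, hpr.swap⟩

/-- the model of the surface over the tree of point blow-ups -/
structure Jung (f : (Fin 3 → ℂ) → ℂ) (n : ℕ) (P : ℂ × ℂ → ℂ[X]) (v : ℂ × (ℂ × ℂ) → ℂ)
    (C : Finset Wd) (φ : Wd → ℂ → ℂ) (ζ : Pl C → Fin n → ℂ × ℂ → ℂ)
    (σ ρ : Pl C → Equiv.Perm (Fin n)) : Prop where
  R : Rsl (fun p => p.1 * disc n P p) C φ
  M : Model f (Th C φ) n P v (fun _ => n.factorial) ζ σ ρ
  edge_ζ : ∀ i j, opp i = some (wrd j) → ∀ l q, ζ i l q = ζ j l (q.2, q.1)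
  edge_σ : ∀ i j, opp i = some (wrd j) → σ i = ρ j
  edge_ρ : ∀ i j, opp i = some (wrd j) → ρ i = σ j

/-- **Existence of the model.** -/
theorem exists_jung {f : (Fin 3 → ℂ) → ℂ} (hf : Hol f) {μ : ℕ} (hμ : Milnor f μ) {n : ℕ}
    {P : ℂ × ℂ → ℂ[X]} {v : ℂ × (ℂ × ℂ) → ℂ} (W : WD f n P v) :
    ∃ C φ ζ σ ρ, Jung f n P v C φ ζ σ ρ := by
  classical
  obtain ⟨C, φ, R⟩ := exists_rsl W.analyticAt_disc (W.disc_frequently hf hμ)
  obtain ⟨ζ, σ, ρ, M⟩ := exists_model hf W (Th_covers R) (Th_an R) (Th_zero R)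
    (H := fun p => p.1 * disc n P p) (Eventually.of_forall fun p hp => right_ne_zero_of_mul hp)
    (monU_Th_H R) (K := fun _ => n.factorial) (fun _ => dvd_rfl) (fun _ => n.factorial_ne_zero)
  have hpar : ∀ i : Pl C, ∃ j : Pl C, wrd i ∈ C → opp i = some (wrd j) := by
    intro i
    by_cases hi : wrd i ∈ C
    · obtain ⟨j, hj⟩ := exists_pl (exw_ne_nil C (wrd i)) (exw_tail_mem hi)
      exact ⟨j, fun _ => by rw [opp, if_pos hi, hj]⟩
    · exact ⟨i, fun h => absurd h hi⟩
  choose par hpar using hpar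
  have key : ∀ i j : Pl C, opp i = some (wrd j) → wrd i ∈ C → par i = j := by
    intro i j h hi
    have h1 := (hpar i hi).symm.trans h
    rw [Option.some.injEq] at h1
    exact wrd_inj h1
  refine ⟨C, φ, fun i => if wrd i ∈ C then fun l q => ζ (par i) l (q.2, q.1) else ζ i,
    fun i => if wrd i ∈ C then ρ (par i) else σ i,
    fun i => if wrd i ∈ C then σ (par i) else ρ i, R,
    ⟨M.hf, M.W, M.cov, M.an, M.zero, fun i => ?_⟩, ?_, ?_, ?_⟩
  · by_cases hi : wrd i ∈ C
    · simp only [if_pos hi]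
      have h1 := (M.C (par i)).swap
      have h2 : (fun q : ℂ × ℂ => Th C φ (par i) (q.2, q.1)) = Th C φ i := by
        funext q
        exact (Th_swap R (hpar i hi) q).symm
      rw [h2] at h1
      exact h1
    · simp only [if_neg hi]
      exact M.C i
  all_goals
    intro i j h
    obtain ⟨h1, h2⟩ := opp_symm R.tail h
    by_cases hi : wrd i ∈ C
    · have hj := h2.1 hi
      simp only [if_pos hi, if_neg hj, key i j h hi, implies_true]
    · have hj : wrd j ∈ C := by
        by_contra h3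
        exact hi (h2.2 h3)
      simp only [if_pos hj, if_neg hi, key j i h1 hj, implies_true, Prod.mk.eta]

end Vale.Agent.P298.H707
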