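import Vale.Agent.P298.H707.IntConv

/-!
P298, row E1-GLUE-INT (helper707): the germ form of the integrability criterion, for a covering of
the plane by infinitely many charts with arbitrary radii.
-/

namespace Vale.Agent.P298.H707

open MeasureTheory Set Filter Topology Metric Vale.Agent.P298 Vale.Agent.P298.H379
open scoped ENNReal NNReal

/-- For every choice of radii finitely many of the maps `Θ i`, restricted to the polydiscs of
these radii, cover a punctured neighbourhood of the origin. -/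
def Covers {κ : Type*} (Θ : κ → ℂ × ℂ → ℂ × ℂ) : Prop :=
  ∀ ρ : κ → ℝ, (∀ i, 0 < ρ i) → ∃ (F : Finset κ) (r : ℝ), 0 < r ∧
    ∀ p : ℂ × ℂ, p ≠ 0 → ‖p‖ < r → ∃ i ∈ F, ∃ q : ℂ × ℂ, ‖q‖ < ρ i ∧ Θ i q = p

/-- the chart of the surface over the chart `Θ` of the plane with root function `ζ` -/
def chart (Θ : ℂ × ℂ → ℂ × ℂ) (K : ℕ) (ζ : ℂ × ℂ → ℂ) (q : ℂ × ℂ) : Fin 3 → ℂ :=
  pt (Θ (q.1 ^ K, q.2 ^ K)) (ζ q)

theorem analyticAt_powK (K : ℕ) (x : ℂ × ℂ) :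
    AnalyticAt ℂ (fun q : ℂ × ℂ => (q.1 ^ K, q.2 ^ K)) x :=
  (analyticAt_fst.pow K).prod (analyticAt_snd.pow K)

theorem analyticAt_pt {g : ℂ × ℂ → ℂ × ℂ} {z : ℂ × ℂ → ℂ} {x : ℂ × ℂ} (hg : AnalyticAt ℂ g x)
    (hz : AnalyticAt ℂ z x) : AnalyticAt ℂ (fun q => pt (g q) (z q)) x := by
  rw [analyticAt_pi_iff]
  intro i
  fin_cases i
  · exact (analyticAt_fst.comp_of_eq hg rfl : AnalyticAt ℂ (fun q => (g q).1) x)
  · exact (analyticAt_snd.comp_of_eq hg rfl : AnalyticAt ℂ (fun q => (g q).2) x)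
  · exact hz

theorem analyticAt_chart {Θ : ℂ × ℂ → ℂ × ℂ} {K : ℕ} (hK : K ≠ 0) {ζ : ℂ × ℂ → ℂ}
    (hΘ : AnalyticAt ℂ Θ 0) (hζ : AnalyticAt ℂ ζ 0) : AnalyticAt ℂ (chart Θ K ζ) 0 := by
  refine analyticAt_pt ?_ hζ
  refine AnalyticAt.comp_of_eq hΘ (analyticAt_powK K 0) ?_
  simp [hK]

/-- **Integrability from orders, germ form.** -/
theorem inI_of_planeCharts {f h : (Fin 3 → ℂ) → ℂ} (hh : Hol h) {k : ℝ} (hk : 0 < k)
    {κ : Type*} {Θ : κ → ℂ × ℂ → ℂ × ℂ} (hcov : Covers Θ) (hΘ : ∀ i, AnalyticAt ℂ (Θ i) 0)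
    (K : κ → ℕ) (hK : ∀ i, K i ≠ 0) (n : κ → ℕ) (ζ : ∀ i, Fin (n i) → ℂ × ℂ → ℂ)
    (hζ : ∀ i l, AnalyticAt ℂ (ζ i l) 0) {ε : ℝ} (hε : 0 < ε)
    (hroot : ∀ i, ∀ᶠ q : ℂ × ℂ in 𝓝 0, q.1 ≠ 0 → q.2 ≠ 0 → ∀ z : ℂ, ‖z‖ < ε →
      f (pt (Θ i (q.1 ^ K i, q.2 ^ K i)) z) = 0 → ∃ l, ζ i l q = z)
    (hbd : ∀ i l, ∃ C α β P Q : ℝ, -1 < α / k + P ∧ -1 < β / k + Q ∧
      ∀ᶠ q : ℂ × ℂ in 𝓝 0, q.1 ≠ 0 → q.2 ≠ 0 →
        ‖jac2 (chart (Θ i) (K i) (ζ i l)) q‖ ≤ C * (‖q.1‖ ^ P * ‖q.2‖ ^ Q) *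
          ‖pd 2 f (chart (Θ i) (K i) (ζ i l) q)‖ ∧
        ‖h (chart (Θ i) (K i) (ζ i l) q)‖ ≤ C * (‖q.1‖ ^ α * ‖q.2‖ ^ β)) :
    InI f k h := by
  classical
  choose C α β P Q h1 h2 h3 using hbd
  -- good radii
  have hrad : ∀ i, ∃ δ : ℝ, 0 < δ ∧ δ ≤ 1 ∧ ∀ q : ℂ × ℂ, ‖q‖ < δ →
      AnalyticAt ℂ (Θ i) (q.1 ^ K i, q.2 ^ K i) ∧ (∀ l, AnalyticAt ℂ (ζ i l) q) ∧
      (q.1 ≠ 0 → q.2 ≠ 0 → ∀ z : ℂ, ‖z‖ < ε →
        f (pt (Θ i (q.1 ^ K i, q.2 ^ K i)) z) = 0 → ∃ l, ζ i l q = z) ∧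
      (∀ l, q.1 ≠ 0 → q.2 ≠ 0 →
        ‖jac2 (chart (Θ i) (K i) (ζ i l)) q‖ ≤ C i l * (‖q.1‖ ^ P i l * ‖q.2‖ ^ Q i l) *
          ‖pd 2 f (chart (Θ i) (K i) (ζ i l) q)‖ ∧
        ‖h (chart (Θ i) (K i) (ζ i l) q)‖ ≤ C i l * (‖q.1‖ ^ α i l * ‖q.2‖ ^ β i l)) := by
    intro i
    have e1 : ∀ᶠ q : ℂ × ℂ in 𝓝 0, AnalyticAt ℂ (Θ i) (q.1 ^ K i, q.2 ^ K i) := by
      have hc : Tendsto (fun q : ℂ × ℂ => (q.1 ^ K i, q.2 ^ K i)) (𝓝 0) (𝓝 0) := by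
        have h9 := (analyticAt_powK (K i) 0).continuousAt.tendsto
        have h10 : ((0 : ℂ × ℂ).1 ^ K i, (0 : ℂ × ℂ).2 ^ K i) = (0 : ℂ × ℂ) := by simp [hK i]
        rwa [h10] at h9
      exact hc.eventually (hΘ i).eventually_analyticAt
    have e2 : ∀ᶠ q : ℂ × ℂ in 𝓝 0, ∀ l, AnalyticAt ℂ (ζ i l) q :=
      eventually_all.2 fun l => (hζ i l).eventually_analyticAt
    have e3 := eventually_all.2 fun l => h3 i l
    obtain ⟨δ, hδ, hδb⟩ := Metric.eventually_nhds_iff.1 (e1.and (e2.and ((hroot i).and e3)))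
    refine ⟨min δ 1, lt_min hδ one_pos, min_le_right _ _, fun q hq => ?_⟩
    have := hδb (y := q) (by rw [dist_zero_right]; exact lt_of_lt_of_le hq (min_le_left _ _))
    exact this
  choose δ hδ0 hδ1 hδ using hrad
  obtain ⟨F, r, hr, hF⟩ := hcov (fun i => δ i ^ K i) (fun i => pow_pos (hδ0 i) _)
  -- the index type of the charts
  set ι := Σ i : F, Fin (n i) with hι
  set U : ι → Set (ℂ × ℂ) := fun a => ball 0 (δ a.1) with hU
  set Φ : ι → ℂ × ℂ → Fin 3 → ℂ := fun a => chart (Θ a.1) (K a.1) (ζ a.1 a.2) with hΦ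
  set W : ι → ℂ × ℂ → ℂ := fun a q => jac2 (Φ a) q / pd 2 f (Φ a q) with hW
  set CC : ℝ := ∑ a : ι, |C a.1 a.2| with hCC
  have hCle : ∀ a : ι, C a.1 a.2 ≤ CC := fun a =>
    (le_abs_self _).trans (Finset.single_le_sum (f := fun a : ι => |C a.1 a.2|)
      (fun _ _ => abs_nonneg _) (Finset.mem_univ a))
  have hCC0 : 0 ≤ CC := Finset.sum_nonneg fun _ _ => abs_nonneg _
  have hmemU : ∀ (a : ι) (q : ℂ × ℂ), q ∈ U a ↔ ‖q‖ < δ a.1 := fun a q => by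
    rw [hU]; simp only [mem_ball, dist_zero_right]
  refine inI_of_charts (r := min r ε) (lt_min hr hε) hk hh U (fun a => isOpen_ball)
    (fun a => isBounded_ball) Φ ?_ W ?_ ?_ (fun a => α a.1 a.2) (fun a => β a.1 a.2)
    (fun a => P a.1 a.2) (fun a => Q a.1 a.2) CC ?_ ?_ (fun a => h1 a.1 a.2) (fun a => h2 a.1 a.2)
  · intro a q hq
    have := hδ a.1 q ((hmemU a q).1 hq)
    have h4 : AnalyticAt ℂ (Φ a) q := by
      refine analyticAt_pt ?_ (this.2.1 a.2)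
      exact AnalyticAt.comp_of_eq this.1 (analyticAt_powK (K a.1) q) rfl
    exact h4.contDiffAt.contDiffWithinAt
  · intro a q hq hq1 hq2
    have := (hδ a.1 q ((hmemU a q).1 hq)).2.2.2 a.2 hq1 hq2
    by_cases hz : pd 2 f (Φ a q) = 0
    · have h5 := this.1
      rw [hΦ] at hz
      simp only at hz
      rw [hz, norm_zero, mul_zero] at h5
      have h6 : jac2 (Φ a) q = 0 := norm_le_zero_iff.1 h5
      rw [h6, hΦ]
      simp only
      rw [hz, mul_zero]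
    · rw [hW]
      simp only
      rw [div_mul_cancel₀ _ hz]
  · -- the covering
    have hax : ∀ᵐ p : ℂ × ℂ, ∀ i ∈ F, ∀ q ∈ ball (0 : ℂ × ℂ) (δ i ^ K i), Θ i q = p →
        q.1 ≠ 0 ∧ q.2 ≠ 0 := by
      rw [Filter.eventually_all_finset]
      intro i _
      refine ae_axes (X := Θ i) ?_
      intro q hq
      have h7 : AnalyticAt ℂ (Θ i) q := by
        rw [mem_ball, dist_zero_right, Prod.norm_def, max_lt_iff] at hq
        obtain ⟨a, ha⟩ := IsAlgClosed.exists_pow_nat_eq q.1 (Nat.pos_of_ne_zero (hK i))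
        obtain ⟨b, hb⟩ := IsAlgClosed.exists_pow_nat_eq q.2 (Nat.pos_of_ne_zero (hK i))
        have ha' : ‖a‖ < δ i := by
          have : ‖a‖ ^ K i < δ i ^ K i := by rw [← norm_pow, ha]; exact hq.1
          exact lt_of_pow_lt_pow_left₀ _ (hδ0 i).le this
        have hb' : ‖b‖ < δ i := by
          have : ‖b‖ ^ K i < δ i ^ K i := by rw [← norm_pow, hb]; exact hq.2
          exact lt_of_pow_lt_pow_left₀ _ (hδ0 i).le this
        have := (hδ i (a, b) (by rw [Prod.norm_def]; exact max_lt ha' hb')).1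
        simpa [ha, hb] using this
      exact (h7.contDiffAt.restrict_scalars ℝ).contDiffWithinAt
    have h0 : ∀ᵐ p : ℂ × ℂ, p ≠ 0 := by
      have hz : (volume : Measure (ℂ × ℂ)) {0} = 0 := by
        have : ({0} : Set (ℂ × ℂ)) = {0} ×ˢ {0} := by
          ext q; simp [Prod.ext_iff]
        rw [this, Measure.volume_eq_prod, Measure.prod_prod]; simp
      filter_upwards [measure_eq_zero_iff_ae_notMem.1 hz] with p hp
      simpa using hp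
    filter_upwards [hax, h0] with p hp hp0 z hz hball hne
    have hz0 : f (pt p z) = 0 := hz.1
    have hnorm : ‖pt p z‖ < min r ε := by simpa using hball
    have hp1 : ‖p‖ < r := by
      rw [Prod.norm_def]
      refine max_lt ?_ ?_
      · exact lt_of_le_of_lt (norm_le_pi_norm (pt p z) 0) (lt_of_lt_of_le hnorm (min_le_left _ _))
      · exact lt_of_le_of_lt (norm_le_pi_norm (pt p z) 1) (lt_of_lt_of_le hnorm (min_le_left _ _))
    have hz1 : ‖z‖ < ε :=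
      lt_of_le_of_lt (norm_le_pi_norm (pt p z) 2) (lt_of_lt_of_le hnorm (min_le_right _ _))
    obtain ⟨i, hi, q, hq, hqp⟩ := hF p hp0 hp1
    have hq12 := hp i hi q (by simpa using hq) hqp
    obtain ⟨a, ha⟩ := IsAlgClosed.exists_pow_nat_eq q.1 (Nat.pos_of_ne_zero (hK i))
    obtain ⟨b, hb⟩ := IsAlgClosed.exists_pow_nat_eq q.2 (Nat.pos_of_ne_zero (hK i))
    rw [Prod.norm_def, max_lt_iff] at hq
    have ha' : ‖a‖ < δ i := by
      have : ‖a‖ ^ K i < δ i ^ K i := by rw [← norm_pow, ha]; exact hq.1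
      exact lt_of_pow_lt_pow_left₀ _ (hδ0 i).le this
    have hb' : ‖b‖ < δ i := by
      have : ‖b‖ ^ K i < δ i ^ K i := by rw [← norm_pow, hb]; exact hq.2
      exact lt_of_pow_lt_pow_left₀ _ (hδ0 i).le this
    have hab : ‖((a, b) : ℂ × ℂ)‖ < δ i := by rw [Prod.norm_def]; exact max_lt ha' hb'
    have ha0 : a ≠ 0 := by
      rintro rfl
      rw [zero_pow (hK i)] at ha
      exact hq12.1 ha.symm
    have hb0 : b ≠ 0 := by
      rintro rfl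
      rw [zero_pow (hK i)] at hb
      exact hq12.2 hb.symm
    have hΘab : Θ i (a ^ K i, b ^ K i) = p := by rw [ha, hb]; exact hqp
    obtain ⟨l, hl⟩ := (hδ i (a, b) hab).2.2.1 ha0 hb0 z hz1 (by
      simp only
      rw [hΘab]; exact hz0)
    refine ⟨⟨⟨i, hi⟩, l⟩, (a, b), (hmemU _ _).2 hab, ?_⟩
    rw [hΦ]
    simp only [chart]
    rw [hΘab, hl]
  · intro a q hq hq1 hq2
    have h5 := ((hδ a.1 q ((hmemU a q).1 hq)).2.2.2 a.2 hq1 hq2).1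
    have hu : 0 < ‖q.1‖ := norm_pos_iff.2 hq1
    have hv : 0 < ‖q.2‖ := norm_pos_iff.2 hq2
    rw [hW]
    simp only
    rw [norm_div]
    by_cases hz : pd 2 f (Φ a q) = 0
    · rw [hz, norm_zero, div_zero]
      positivity
    · rw [div_le_iff₀ (norm_pos_iff.2 hz)]
      refine h5.trans ?_
      gcongr
      exact hCle a
  · intro a q hq hq1 hq2
    have h5 := ((hδ a.1 q ((hmemU a q).1 hq)).2.2.2 a.2 hq1 hq2).2
    have hu : 0 < ‖q.1‖ := norm_pos_iff.2 hq1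
    have hv : 0 < ‖q.2‖ := norm_pos_iff.2 hq2
    refine h5.trans ?_
    gcongr
    exact hCle a

end Vale.Agent.P298.H707
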