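import Vale.Agent.P298.H707.Glue1
import Vale.Agent.P298.H983.AJ6
import Vale.Agent.P267.H823.Weier

/-!
P298, row E1-GLUE-INT (helper707): Weierstrass data of a surface germ and the holomorphic roots
over a chart of the plane.
-/

namespace Vale.Agent.P298.H707

open Set Filter Topology Metric Polynomial Vale.Agent.P298 Vale.Agent.P298.H379
open Vale.Agent.P298.H983 (omg powBall)

/-! ### Monomials times units -/

/-- `g = a^i b^j u` near the origin, `u` a unit -/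
def MonU (g : ℂ × ℂ → ℂ) (i j : ℕ) : Prop :=
  ∃ u : ℂ × ℂ → ℂ, AnalyticAt ℂ u 0 ∧ u 0 ≠ 0 ∧ ∀ᶠ q in 𝓝 (0 : ℂ × ℂ), g q = q.1 ^ i * q.2 ^ j * u q

namespace MonU

variable {g h : ℂ × ℂ → ℂ} {i j k l : ℕ}

theorem congr (hg : MonU g i j) (he : ∀ᶠ q in 𝓝 (0 : ℂ × ℂ), g q = h q) : MonU h i j := by
  obtain ⟨u, hu, hu0, h1⟩ := hg
  exact ⟨u, hu, hu0, by filter_upwards [h1, he] with q h2 h3; rw [← h3, h2]⟩

theorem mul (hg : MonU g i j) (hh : MonU h k l) : MonU (fun q => g q * h q) (i + k) (j + l) := by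
  obtain ⟨u, hu, hu0, h1⟩ := hg
  obtain ⟨v, hv, hv0, h2⟩ := hh
  refine ⟨fun q => u q * v q, hu.mul hv, mul_ne_zero hu0 hv0, ?_⟩
  filter_upwards [h1, h2] with q e1 e2
  rw [e1, e2]
  ring

theorem of_unit {u : ℂ × ℂ → ℂ} (hu : AnalyticAt ℂ u 0) (hu0 : u 0 ≠ 0) : MonU u 0 0 :=
  ⟨u, hu, hu0, Eventually.of_forall fun q => by simp⟩

theorem const {c : ℂ} (hc : c ≠ 0) : MonU (fun _ => c) 0 0 := of_unit analyticAt_const hc

theorem mono (i j : ℕ) : MonU (fun q => q.1 ^ i * q.2 ^ j) i j :=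
  ⟨fun _ => 1, analyticAt_const, one_ne_zero, Eventually.of_forall fun q => by simp⟩

theorem pow (hg : MonU g i j) (n : ℕ) : MonU (fun q => g q ^ n) (n * i) (n * j) := by
  obtain ⟨u, hu, hu0, h1⟩ := hg
  refine ⟨fun q => u q ^ n, hu.pow n, pow_ne_zero n hu0, ?_⟩
  filter_upwards [h1] with q e1
  rw [e1, mul_pow, mul_pow, ← pow_mul, ← pow_mul, mul_comm n i, mul_comm n j]

theorem analyticAt (hg : MonU g i j) : AnalyticAt ℂ g 0 := by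
  obtain ⟨u, hu, hu0, h1⟩ := hg
  have : AnalyticAt ℂ (fun q : ℂ × ℂ => q.1 ^ i * q.2 ^ j * u q) 0 :=
    ((analyticAt_fst.pow i).mul (analyticAt_snd.pow j)).mul hu
  exact this.congr (by filter_upwards [h1] with q e1; exact e1.symm)

theorem tendsto_powK {K : ℕ} (hK : K ≠ 0) :
    Tendsto (fun q : ℂ × ℂ => (q.1 ^ K, q.2 ^ K)) (𝓝 0) (𝓝 0) := by
  have h9 := (analyticAt_powK K 0).continuousAt.tendsto
  have h10 : ((0 : ℂ × ℂ).1 ^ K, (0 : ℂ × ℂ).2 ^ K) = (0 : ℂ × ℂ) := by simp [hK]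
  rwa [h10] at h9

theorem comp_pow (hg : MonU g i j) {K : ℕ} (hK : K ≠ 0) :
    MonU (fun q => g (q.1 ^ K, q.2 ^ K)) (K * i) (K * j) := by
  obtain ⟨u, hu, hu0, h1⟩ := hg
  have h10 : ((0 : ℂ × ℂ).1 ^ K, (0 : ℂ × ℂ).2 ^ K) = (0 : ℂ × ℂ) := by simp [hK]
  refine ⟨fun q => u (q.1 ^ K, q.2 ^ K), AnalyticAt.comp_of_eq hu (analyticAt_powK K 0) h10, ?_, ?_⟩
  · change u ((0 : ℂ × ℂ).1 ^ K, (0 : ℂ × ℂ).2 ^ K) ≠ 0
    rw [h10]; exact hu0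
  · filter_upwards [(tendsto_powK hK).eventually h1] with q e1
    rw [e1, ← pow_mul, ← pow_mul]

/-- upper bound -/
theorem le (hg : MonU g i j) : ∃ C : ℝ, 0 < C ∧ ∀ᶠ q in 𝓝 (0 : ℂ × ℂ),
    ‖g q‖ ≤ C * (‖q.1‖ ^ i * ‖q.2‖ ^ j) := by
  obtain ⟨u, hu, hu0, h1⟩ := hg
  refine ⟨‖u 0‖ + 1, by positivity, ?_⟩
  have h2 : ∀ᶠ q in 𝓝 (0 : ℂ × ℂ), ‖u q‖ < ‖u 0‖ + 1 :=
    hu.continuousAt.norm.eventually_lt continuousAt_const (by linarith)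
  filter_upwards [h1, h2] with q e1 e2
  rw [e1, norm_mul, norm_mul, norm_pow, norm_pow, mul_comm]
  gcongr

/-- lower bound -/
theorem ge (hg : MonU g i j) : ∃ c : ℝ, 0 < c ∧ ∀ᶠ q in 𝓝 (0 : ℂ × ℂ),
    c * (‖q.1‖ ^ i * ‖q.2‖ ^ j) ≤ ‖g q‖ := by
  obtain ⟨u, hu, hu0, h1⟩ := hg
  have h0 : 0 < ‖u 0‖ := norm_pos_iff.2 hu0
  refine ⟨‖u 0‖ / 2, by positivity, ?_⟩
  have h2 : ∀ᶠ q in 𝓝 (0 : ℂ × ℂ), ‖u 0‖ / 2 < ‖u q‖ :=
    continuousAt_const.eventually_lt hu.continuousAt.norm (by linarith)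
  filter_upwards [h1, h2] with q e1 e2
  rw [e1, norm_mul, norm_mul, norm_pow, norm_pow, mul_comm]
  gcongr

theorem ne_zero (hg : MonU g i j) : ∀ᶠ q in 𝓝 (0 : ℂ × ℂ), q.1 ≠ 0 → q.2 ≠ 0 → g q ≠ 0 := by
  obtain ⟨u, hu, hu0, h1⟩ := hg
  filter_upwards [h1, hu.continuousAt.eventually_ne hu0] with q e1 e2 e3 e4
  rw [e1]
  exact mul_ne_zero (mul_ne_zero (pow_ne_zero _ e3) (pow_ne_zero _ e4)) e2

/-- from 983's form on a bidisc -/
theorem of_on {g u : ℂ × ℂ → ℂ} {V : Set (ℂ × ℂ)} (hV : IsOpen V) (h0 : (0 : ℂ × ℂ) ∈ V)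
    {p r : ℕ} (hu : DifferentiableOn ℂ u V) (hu0 : ∀ q ∈ V, u q ≠ 0)
    (hg : ∀ q ∈ V, g q = q.1 ^ p * q.2 ^ r * u q) : MonU g p r :=
  ⟨u, Vale.Agent.P268.analyticAt_of_differentiableOn hV hu h0, hu0 0 h0, by
    filter_upwards [hV.mem_nhds h0] with q hq; exact hg q hq⟩

end MonU

/-! ### Weierstrass data -/

/-- Weierstrass preparation of `f` with respect to the last variable -/
structure WD (f : (Fin 3 → ℂ) → ℂ) (n : ℕ) (P : ℂ × ℂ → ℂ[X]) (v : ℂ × (ℂ × ℂ) → ℂ) : Prop where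
  monic : ∀ p, (P p).Monic
  deg : ∀ p, (P p).natDegree = n
  hol : ∀ i, AnalyticAt ℂ (fun p => (P p).coeff i) 0
  zero : P 0 = X ^ n
  va : AnalyticAt ℂ v 0
  v0 : v 0 ≠ 0
  fac : ∀ᶠ z : ℂ × (ℂ × ℂ) in 𝓝 0, f (pt z.2 z.1) * v z = (P z.2).eval z.1

theorem analyticAt_ptz (z : ℂ × (ℂ × ℂ)) :
    AnalyticAt ℂ (fun z : ℂ × (ℂ × ℂ) => pt z.2 z.1) z := by
  rw [analyticAt_pi_iff]
  intro i
  fin_cases i
  · exact (analyticAt_fst.comp_of_eq analyticAt_snd rfl : AnalyticAt ℂ (fun z : ℂ × (ℂ × ℂ) => z.2.1) z)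
  · exact (analyticAt_snd.comp_of_eq analyticAt_snd rfl : AnalyticAt ℂ (fun z : ℂ × (ℂ × ℂ) => z.2.2) z)
  · exact analyticAt_fst

theorem pt_zero : pt 0 0 = 0 := by
  funext i
  fin_cases i <;> rfl

theorem exists_WD {f : (Fin 3 → ℂ) → ℂ} (hf : Hol f) (hreg : ∃ᶠ x : ℂ in 𝓝 0, f (pt 0 x) ≠ 0) :
    ∃ n P v, WD f n P v := by
  have hF : AnalyticAt ℂ (fun z : ℂ × (ℂ × ℂ) => f (pt z.2 z.1)) ((0 : ℂ), (0 : ℂ × ℂ)) := by
    refine AnalyticAt.comp_of_eq hf (analyticAt_ptz _) ?_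
    exact pt_zero
  have hline : AnalyticAt ℂ (fun x : ℂ => f (pt 0 x)) 0 := by
    have h1 : AnalyticAt ℂ (fun x : ℂ => ((x, 0) : ℂ × (ℂ × ℂ))) 0 :=
      analyticAt_id.prod analyticAt_const
    exact AnalyticAt.comp_of_eq (g := fun z : ℂ × (ℂ × ℂ) => f (pt z.2 z.1)) hF h1 rfl
  have htop : analyticOrderAt (fun x : ℂ => f (pt 0 x)) 0 ≠ ⊤ := by
    intro h
    rw [analyticOrderAt_eq_top] at h
    exact hreg (by filter_upwards [h] with x hx; simpa using hx)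
  obtain ⟨b, hb⟩ := ENat.ne_top_iff_exists.1 htop
  obtain ⟨u, hu, hu0, hgu⟩ := (hline.analyticOrderAt_eq_natCast).1 hb.symm
  obtain ⟨P, v, hPm, hPa, hP0, hva, hv0, hgv⟩ := Vale.Agent.P267.H823.weierstrass hF hu hu0 (b := b)
    (by
      filter_upwards [hgu] with z hz
      rw [hz, sub_zero, smul_eq_mul])
  exact ⟨b, P, v, fun p => (hPm p).1, fun p => (hPm p).2, hPa, hP0, hva, hv0, hgv⟩

/-! ### Roots over a chart of the plane -/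

/-- holomorphic roots of `P` over the chart `Θ` after the substitution of `K`-th powers -/
structure CR (P : ℂ × ℂ → ℂ[X]) (Θ : ℂ × ℂ → ℂ × ℂ) (n K : ℕ) (ζ : Fin n → ℂ × ℂ → ℂ)
    (σ ρ : Equiv.Perm (Fin n)) : Prop where
  hK : K ≠ 0
  hol : ∀ l, AnalyticAt ℂ (ζ l) 0
  zero : ∀ l, ζ l 0 = 0
  prod : ∀ᶠ q : ℂ × ℂ in 𝓝 0, P (Θ (q.1 ^ K, q.2 ^ K)) = ∏ l, (X - C (ζ l q))
  inj : ∀ᶠ q : ℂ × ℂ in 𝓝 0, q.1 ≠ 0 → q.2 ≠ 0 → Function.Injective fun l => ζ l q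
  mon1 : ∀ᶠ q : ℂ × ℂ in 𝓝 0, ∀ l, ζ l (omg K * q.1, q.2) = ζ (σ l) q
  mon2 : ∀ᶠ q : ℂ × ℂ in 𝓝 0, ∀ l, ζ l (q.1, omg K * q.2) = ζ (ρ l) q
  comm : σ * ρ = ρ * σ
  dif : ∀ i j, i ≠ j → ∃ p r, MonU (fun q => ζ i q - ζ j q) p r
  der : ∀ l, ∃ p r, MonU (fun q => (derivative (P (Θ (q.1 ^ K, q.2 ^ K)))).eval (ζ l q)) p r

theorem exists_CR {n : ℕ} {P : ℂ × ℂ → ℂ[X]} (hm : ∀ p, (P p).Monic) (hd : ∀ p, (P p).natDegree = n)
    (hhol : ∀ i, AnalyticAt ℂ (fun p => (P p).coeff i) 0) (hP0 : P 0 = X ^ n)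
    {Θ : ℂ × ℂ → ℂ × ℂ} (hΘ : AnalyticAt ℂ Θ 0) (hΘ0 : Θ 0 = 0)
    (hs : ∀ᶠ q : ℂ × ℂ in 𝓝 0, q.1 ≠ 0 → q.2 ≠ 0 → ∀ z, (P (Θ q)).eval z = 0 →
      (derivative (P (Θ q))).eval z ≠ 0)
    {K : ℕ} (hK : n.factorial ∣ K) (hK0 : K ≠ 0) :
    ∃ ζ σ ρ, CR P Θ n K ζ σ ρ := by
  classical
  -- a bidisc
  have e1 : ∀ᶠ q : ℂ × ℂ in 𝓝 0, ∀ i ∈ Finset.range n, AnalyticAt ℂ (fun p => (P (Θ p)).coeff i) q := by
    rw [Filter.eventually_all_finset]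
    intro i _
    have : AnalyticAt ℂ (fun p => (P (Θ p)).coeff i) 0 := by
      refine AnalyticAt.comp_of_eq (g := fun p => (P p).coeff i) (f := Θ) (hhol i) hΘ hΘ0
    exact this.eventually_analyticAt
  obtain ⟨A, hA, hball⟩ := Metric.eventually_nhds_iff.1 (e1.and hs)
  have hmem : ∀ q ∈ ball (0 : ℂ) A ×ˢ ball (0 : ℂ) A, dist q 0 < A := by
    intro q hq
    rw [dist_zero_right, Prod.norm_def]
    exact max_lt (by simpa using hq.1) (by simpa using hq.2)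
  have hPF : H983.PFam (ball (0 : ℂ) A ×ˢ ball (0 : ℂ) A) n (fun p => P (Θ p)) := by
    refine ⟨fun q _ => hm _, fun q _ => hd _, fun i => ?_⟩
    by_cases hi : i ∈ Finset.range n
    · intro q hq
      exact ((hball (hmem q hq)).1 i hi).differentiableAt.differentiableWithinAt
    · have hi' : n ≤ i := by simpa using hi
      rcases hi'.eq_or_lt with rfl | hlt
      · have : (fun q => (P (Θ q)).coeff n) = fun _ => 1 := by
          funext q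
          have := (hm (Θ q)).coeff_natDegree
          rwa [hd] at this
        rw [this]
        exact differentiableOn_const _
      · have : (fun q => (P (Θ q)).coeff i) = fun _ => 0 := by
          funext q
          exact coeff_eq_zero_of_natDegree_lt (by rw [hd]; exact hlt)
        rw [this]
        exact differentiableOn_const _
  have hSi : H983.Simple ((ball (0 : ℂ) A ×ˢ ball (0 : ℂ) A) ∩ {q | q.1 ≠ 0 ∧ q.2 ≠ 0})
      (fun p => P (Θ p)) := by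
    rintro q ⟨hq, hq1, hq2⟩ z hz
    exact (hball (hmem q hq)).2 hq1 hq2 z hz
  obtain ⟨ζ, σ, ρ, h1, h2, h3, h4, h5, h6, h7, h8⟩ := H983.abhyankar_jung hA hA hPF hSi hK hK0
  set V : Set (ℂ × ℂ) := powBall K A ×ˢ powBall K A with hVdef
  have hV : IsOpen V := (H983.isOpen_powBall K A).prod (H983.isOpen_powBall K A)
  have h0V : (0 : ℂ × ℂ) ∈ V := by
    have : (0 : ℂ) ∈ powBall K A := by
      change ‖(0 : ℂ)‖ ^ K < A
      rw [norm_zero, zero_pow hK0]; exact hA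
    exact ⟨this, this⟩
  have hnear := hV.mem_nhds h0V
  refine ⟨ζ, σ, ρ, hK0, fun l => Vale.Agent.P268.analyticAt_of_differentiableOn hV (h1 l) h0V, ?_,
    ?_, ?_, ?_, ?_, h6, ?_, ?_⟩
  · intro l
    have h9 := h2 0 h0V
    have h10 : ((0 : ℂ × ℂ).1 ^ K, (0 : ℂ × ℂ).2 ^ K) = (0 : ℂ × ℂ) := by simp [hK0]
    rw [h10, hΘ0, hP0] at h9
    have h11 := congrArg (fun p => p.eval (ζ l 0)) h9
    simp only [eval_pow, eval_X, eval_prod, eval_sub, eval_C] at h11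
    rw [Finset.prod_eq_zero (Finset.mem_univ l) (sub_self _)] at h11
    exact eq_zero_of_pow_eq_zero h11
  · filter_upwards [hnear] with q hq
    exact h2 q hq
  · filter_upwards [hnear] with q hq hq1 hq2
    exact h3 q hq hq1 hq2
  · filter_upwards [hnear] with q hq l
    exact h4 l q hq
  · filter_upwards [hnear] with q hq l
    exact h5 l q hq
  · intro i j hij
    obtain ⟨p, r, u, hu, hu0, hue⟩ := h7 i j hij
    exact ⟨p, r, MonU.of_on hV h0V hu hu0 hue⟩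
  · intro l
    obtain ⟨p, r, u, hu, hu0, hue⟩ := h8 l
    exact ⟨p, r, MonU.of_on hV h0V hu hu0 hue⟩

end Vale.Agent.P298.H707
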