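import Vale.Agent.P298.H707.Glue2

/-!
P298, row E1-GLUE-INT (helper707): the charts of the surface.
-/

namespace Vale.Agent.P298.H707

open Set Filter Topology Metric Polynomial Vale.Agent.P298 Vale.Agent.P298.H379
open Vale.Agent.P298.H983 (omg powBall)

variable {f : (Fin 3 → ℂ) → ℂ} {n : ℕ} {P : ℂ × ℂ → ℂ[X]} {v : ℂ × (ℂ × ℂ) → ℂ}
  {Θ : ℂ × ℂ → ℂ × ℂ} {K : ℕ} {ζ : Fin n → ℂ × ℂ → ℂ} {σ ρ : Equiv.Perm (Fin n)}

theorem powK_zero (hK : K ≠ 0) : ((0 : ℂ × ℂ).1 ^ K, (0 : ℂ × ℂ).2 ^ K) = (0 : ℂ × ℂ) := by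
  simp [hK]

/-! ### Jacobians -/

/-- the Jacobian of a map of the plane -/
noncomputable def jacP (Θ : ℂ × ℂ → ℂ × ℂ) (s : ℂ × ℂ) : ℂ :=
  (fderiv ℂ Θ s (1, 0)).1 * (fderiv ℂ Θ s (0, 1)).2 -
    (fderiv ℂ Θ s (0, 1)).1 * (fderiv ℂ Θ s (1, 0)).2

theorem hasFDerivAt_powK (K : ℕ) (q : ℂ × ℂ) :
    HasFDerivAt (fun q : ℂ × ℂ => (q.1 ^ K, q.2 ^ K))
      (((K * q.1 ^ (K - 1)) • ContinuousLinearMap.fst ℂ ℂ ℂ).prod
        ((K * q.2 ^ (K - 1)) • ContinuousLinearMap.snd ℂ ℂ ℂ)) q := by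
  have h1 : HasFDerivAt (fun q : ℂ × ℂ => q.1 ^ K)
      ((K * q.1 ^ (K - 1)) • ContinuousLinearMap.fst ℂ ℂ ℂ) q := by
    exact (hasDerivAt_pow K q.1).comp_hasFDerivAt q (hasFDerivAt_fst (𝕜 := ℂ) (p := q))
  have h2 : HasFDerivAt (fun q : ℂ × ℂ => q.2 ^ K)
      ((K * q.2 ^ (K - 1)) • ContinuousLinearMap.snd ℂ ℂ ℂ) q := by
    exact (hasDerivAt_pow K q.2).comp_hasFDerivAt q (hasFDerivAt_snd (𝕜 := ℂ) (p := q))
  exact h1.prodMk h2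

theorem jac2_chart {ζ : ℂ × ℂ → ℂ} {q : ℂ × ℂ} (hΘ : DifferentiableAt ℂ Θ (q.1 ^ K, q.2 ^ K))
    (hζ : DifferentiableAt ℂ ζ q) :
    jac2 (chart Θ K ζ) q = (K : ℂ) ^ 2 * (q.1 ^ (K - 1) * q.2 ^ (K - 1)) *
      jacP Θ (q.1 ^ K, q.2 ^ K) := by
  have h1 := hasFDerivAt_powK K q
  have h2 : HasFDerivAt (fun q : ℂ × ℂ => Θ (q.1 ^ K, q.2 ^ K)) _ q :=
    HasFDerivAt.comp (g := Θ) q hΘ.hasFDerivAt h1
  have h3 : HasFDerivAt (fun q : ℂ × ℂ => (Θ (q.1 ^ K, q.2 ^ K)).1) _ q :=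
    (hasFDerivAt_fst (𝕜 := ℂ) (E := ℂ) (F := ℂ)).comp q h2
  have h4 : HasFDerivAt (fun q : ℂ × ℂ => (Θ (q.1 ^ K, q.2 ^ K)).2) _ q :=
    (hasFDerivAt_snd (𝕜 := ℂ) (E := ℂ) (F := ℂ)).comp q h2
  set g : Fin 3 → ℂ × ℂ → ℂ := ![fun q => (Θ (q.1 ^ K, q.2 ^ K)).1,
    fun q => (Θ (q.1 ^ K, q.2 ^ K)).2, ζ] with hg
  have h5 : HasFDerivAt (chart Θ K ζ) (ContinuousLinearMap.pi fun i => fderiv ℂ (g i) q) q := by
    rw [hasFDerivAt_pi]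
    intro i
    fin_cases i
    · exact h3.differentiableAt.hasFDerivAt
    · exact h4.differentiableAt.hasFDerivAt
    · exact hζ.hasFDerivAt
  have e0 : fderiv ℂ (g 0) q = _ := h3.fderiv
  have e1 : fderiv ℂ (g 1) q = _ := h4.fderiv
  rw [jac2, h5.fderiv]
  simp only [ContinuousLinearMap.coe_pi']
  rw [e0, e1]
  simp only [ContinuousLinearMap.comp_apply, ContinuousLinearMap.coe_fst', ContinuousLinearMap.coe_snd',
    ContinuousLinearMap.prod_apply, _root_.smul_apply, smul_eq_mul, mul_one, mul_zero]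
  have e2 : ((K * q.1 ^ (K - 1), 0) : ℂ × ℂ) = (K * q.1 ^ (K - 1) : ℂ) • ((1, 0) : ℂ × ℂ) := by
    simp
  have e3 : ((0, K * q.2 ^ (K - 1)) : ℂ × ℂ) = (K * q.2 ^ (K - 1) : ℂ) • ((0, 1) : ℂ × ℂ) := by
    simp
  rw [e2, e3, map_smul, map_smul, jacP]
  simp only [Prod.smul_fst, Prod.smul_snd, smul_eq_mul]
  ring

theorem monU_jac2 {ζ : ℂ × ℂ → ℂ} (hK : K ≠ 0) (hΘ : AnalyticAt ℂ Θ 0) (hζ : AnalyticAt ℂ ζ 0)
    {i j : ℕ} (hJ : MonU (jacP Θ) i j) :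
    MonU (jac2 (chart Θ K ζ)) (K * i + (K - 1)) (K * j + (K - 1)) := by
  have hKc : ((K : ℂ) ^ 2) ≠ 0 := pow_ne_zero _ (by exact_mod_cast hK)
  have h1 := ((MonU.const hKc).mul (MonU.mono (K - 1) (K - 1))).mul (hJ.comp_pow hK)
  have e1 : 0 + (K - 1) + K * i = K * i + (K - 1) := by ring
  have e2 : 0 + (K - 1) + K * j = K * j + (K - 1) := by ring
  rw [e1, e2] at h1
  refine h1.congr ?_
  filter_upwards [(MonU.tendsto_powK hK).eventually hΘ.eventually_analyticAt,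
    hζ.eventually_analyticAt] with q h2 h3
  rw [jac2_chart h2.differentiableAt h3.differentiableAt]

/-! ### The zero set -/

theorem chart_zero {ζ : ℂ × ℂ → ℂ} (hK : K ≠ 0) (hΘ0 : Θ 0 = 0) (hζ0 : ζ 0 = 0) :
    chart Θ K ζ 0 = 0 := by
  rw [chart, powK_zero hK, hΘ0, hζ0, pt_zero]

theorem tendsto_zp {ζ : ℂ × ℂ → ℂ} (hK : K ≠ 0) (hΘ : AnalyticAt ℂ Θ 0) (hΘ0 : Θ 0 = 0)
    (hζ : AnalyticAt ℂ ζ 0) (hζ0 : ζ 0 = 0) :
    Tendsto (fun q : ℂ × ℂ => ((ζ q, Θ (q.1 ^ K, q.2 ^ K)) : ℂ × (ℂ × ℂ))) (𝓝 0) (𝓝 0) := by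
  have h1 : Tendsto (fun q : ℂ × ℂ => Θ (q.1 ^ K, q.2 ^ K)) (𝓝 0) (𝓝 0) := by
    have := hΘ.continuousAt.tendsto
    rw [hΘ0] at this
    exact this.comp (MonU.tendsto_powK hK)
  have h2 : Tendsto ζ (𝓝 0) (𝓝 0) := by
    have := hζ.continuousAt.tendsto
    rwa [hζ0] at this
  exact h2.prodMk_nhds h1

/-- the partial derivative in the last variable as a derivative -/
theorem pd_two_pt {f : (Fin 3 → ℂ) → ℂ} {p : ℂ × ℂ} {z : ℂ} (hf : DifferentiableAt ℂ f (pt p z)) :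
    HasDerivAt (fun x => f (pt p x)) (pd 2 f (pt p z)) z := by
  have h1 : HasDerivAt (fun x : ℂ => pt p x) (Pi.single 2 1) z := by
    rw [hasDerivAt_pi]
    intro i
    fin_cases i
    · exact hasDerivAt_const _ _
    · exact hasDerivAt_const _ _
    · exact hasDerivAt_id _
  exact hf.hasFDerivAt.comp_hasDerivAt z h1

/-- the identity `∂₃f · v = ∂_z P` at the zeros of `f` -/
theorem WD.pd_eq (W : WD f n P v) (hf : Hol f) :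
    ∀ᶠ z : ℂ × (ℂ × ℂ) in 𝓝 0, f (pt z.2 z.1) = 0 →
      pd 2 f (pt z.2 z.1) * v z = (derivative (P z.2)).eval z.1 := by
  have h1 : ∀ᶠ z : ℂ × (ℂ × ℂ) in 𝓝 0, AnalyticAt ℂ f (pt z.2 z.1) := by
    have hc : Tendsto (fun z : ℂ × (ℂ × ℂ) => pt z.2 z.1) (𝓝 0) (𝓝 0) := by
      have h9 := (analyticAt_ptz 0).continuousAt.tendsto
      have : pt (0 : ℂ × (ℂ × ℂ)).2 (0 : ℂ × (ℂ × ℂ)).1 = 0 := pt_zero
      rwa [this] at h9
    exact hc.eventually (AnalyticAt.eventually_analyticAt hf)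
  have h2 : ∀ᶠ z : ℂ × (ℂ × ℂ) in 𝓝 0, ∀ᶠ z' in 𝓝 z, f (pt z'.2 z'.1) * v z' = (P z'.2).eval z'.1 :=
    W.fac.eventually_nhds
  filter_upwards [h1, h2, W.va.eventually_analyticAt] with z e1 e2 e3 e4
  have hline : Tendsto (fun x : ℂ => ((x, z.2) : ℂ × (ℂ × ℂ))) (𝓝 z.1) (𝓝 z) :=
    (Continuous.prodMk_left z.2).continuousAt
  have h3 := hline.eventually e2
  have d1 : HasDerivAt (fun x => f (pt z.2 x)) (pd 2 f (pt z.2 z.1)) z.1 :=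
    pd_two_pt e1.differentiableAt
  have d2 : DifferentiableAt ℂ (fun x : ℂ => v (x, z.2)) z.1 := by
    have : DifferentiableAt ℂ (fun x : ℂ => ((x, z.2) : ℂ × (ℂ × ℂ))) z.1 :=
      differentiableAt_id.prodMk (differentiableAt_const _)
    exact DifferentiableAt.comp (g := v) z.1 e3.differentiableAt this
  have d3 := d1.mul d2.hasDerivAt
  rw [e4, zero_mul, add_zero] at d3
  have d4 : HasDerivAt (fun x => (P z.2).eval x) ((derivative (P z.2)).eval z.1) z.1 :=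
    (P z.2).hasDerivAt z.1
  have d5 := d4.congr_of_eventuallyEq (f₁ := fun x => f (pt z.2 x) * v (x, z.2)) h3
  exact d3.unique d5

theorem CR.f_eq_zero (W : WD f n P v) (C : CR P Θ n K ζ σ ρ) (hΘ : AnalyticAt ℂ Θ 0)
    (hΘ0 : Θ 0 = 0) (l : Fin n) : ∀ᶠ q in 𝓝 (0 : ℂ × ℂ), f (chart Θ K (ζ l) q) = 0 := by
  have ht := tendsto_zp C.hK hΘ hΘ0 (C.hol l) (C.zero l)
  filter_upwards [ht.eventually W.fac, ht.eventually (W.va.continuousAt.eventually_ne W.v0),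
    C.prod] with q h1 h2 h3
  have h4 : (P (Θ (q.1 ^ K, q.2 ^ K))).eval (ζ l q) = 0 := by
    rw [h3, eval_prod]
    exact Finset.prod_eq_zero (Finset.mem_univ l) (by simp)
  rw [h4] at h1
  exact (mul_eq_zero.1 h1).resolve_right h2

theorem CR.monU_pd (W : WD f n P v) (hf : Hol f) (C : CR P Θ n K ζ σ ρ) (hΘ : AnalyticAt ℂ Θ 0)
    (hΘ0 : Θ 0 = 0) (l : Fin n) : ∃ c d, MonU (fun q => pd 2 f (chart Θ K (ζ l) q)) c d := by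
  obtain ⟨c, d, hcd⟩ := C.der l
  refine ⟨c, d, ?_⟩
  have ht := tendsto_zp C.hK hΘ hΘ0 (C.hol l) (C.zero l)
  -- the unit
  set w : ℂ × ℂ → ℂ := fun q => (v (ζ l q, Θ (q.1 ^ K, q.2 ^ K)))⁻¹ with hw
  have hv : AnalyticAt ℂ (fun q : ℂ × ℂ => v (ζ l q, Θ (q.1 ^ K, q.2 ^ K))) 0 := by
    have h1 : AnalyticAt ℂ (fun q : ℂ × ℂ => Θ (q.1 ^ K, q.2 ^ K)) 0 :=
      AnalyticAt.comp_of_eq hΘ (analyticAt_powK K 0) (powK_zero C.hK)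
    refine AnalyticAt.comp_of_eq (g := v) W.va ((C.hol l).prod h1) ?_
    rw [powK_zero C.hK, hΘ0, C.zero l]
    rfl
  have hv0 : v (ζ l 0, Θ ((0 : ℂ × ℂ).1 ^ K, (0 : ℂ × ℂ).2 ^ K)) ≠ 0 := by
    rw [powK_zero C.hK, hΘ0, C.zero l]
    exact W.v0
  have hwa : AnalyticAt ℂ w 0 := hv.inv hv0
  have hw0 : w 0 ≠ 0 := inv_ne_zero hv0
  have h5 := (MonU.of_unit hwa hw0).mul hcd
  rw [zero_add, zero_add] at h5
  refine h5.congr ?_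
  filter_upwards [ht.eventually (W.pd_eq hf), C.f_eq_zero W hΘ hΘ0 l,
    ht.eventually (W.va.continuousAt.eventually_ne W.v0)] with q h1 h2 h3
  have h4 := h1 h2
  rw [← h4, hw]
  simp only [chart]
  field_simp

/-- the roots near the origin are the holomorphic roots, `ε` is independent of the chart -/
theorem WD.exists_eps (W : WD f n P v) : ∃ ε : ℝ, 0 < ε ∧
    ∀ p : ℂ × ℂ, ‖p‖ < ε → ∀ z : ℂ, ‖z‖ < ε → f (pt p z) = 0 → (P p).eval z = 0 := by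
  obtain ⟨ε, hε, h⟩ := Metric.eventually_nhds_iff.1 W.fac
  refine ⟨ε, hε, fun p hp z hz h0 => ?_⟩
  have := h (y := (z, p)) (by
    rw [dist_zero_right, Prod.norm_def]; exact max_lt hz hp)
  simp only at this
  rw [← this, h0, zero_mul]

theorem CR.root {ε : ℝ} (hε : 0 < ε)
    (H : ∀ p : ℂ × ℂ, ‖p‖ < ε → ∀ z : ℂ, ‖z‖ < ε → f (pt p z) = 0 → (P p).eval z = 0)
    (C : CR P Θ n K ζ σ ρ) (hΘ : AnalyticAt ℂ Θ 0) (hΘ0 : Θ 0 = 0) :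
    ∀ᶠ q : ℂ × ℂ in 𝓝 0, ∀ z : ℂ, ‖z‖ < ε → f (pt (Θ (q.1 ^ K, q.2 ^ K)) z) = 0 →
      ∃ l, ζ l q = z := by
  have h1 : Tendsto (fun q : ℂ × ℂ => Θ (q.1 ^ K, q.2 ^ K)) (𝓝 0) (𝓝 0) := by
    have := hΘ.continuousAt.tendsto
    rw [hΘ0] at this
    exact this.comp (MonU.tendsto_powK C.hK)
  have h2 : ∀ᶠ q : ℂ × ℂ in 𝓝 0, ‖Θ (q.1 ^ K, q.2 ^ K)‖ < ε := by
    have := h1.norm
    rw [norm_zero] at this
    exact this.eventually_lt_const hε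
  filter_upwards [h2, C.prod] with q e1 e2 z hz hf0
  have h3 := H _ e1 z hz hf0
  rw [e2, eval_prod, Finset.prod_eq_zero_iff] at h3
  obtain ⟨l, -, hl⟩ := h3
  refine ⟨l, ?_⟩
  simp only [eval_sub, eval_X, eval_C] at hl
  exact (sub_eq_zero.1 hl).symm

end Vale.Agent.P298.H707
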