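import Vale.Agent.P298.H707.Glue4

/-!
P298, row E1-GLUE-INT (helper707): the converse of the integrability criterion on the charts.
-/

namespace Vale.Agent.P298.H707

open Set Filter Topology Metric Polynomial Vale.Agent.P298 Vale.Agent.P298.H379
open Vale.Agent.P298.H983 (omg powBall)

theorem encard_pow_eq_le {K : ℕ} (hK : K ≠ 0) (s : ℂ) : {a : ℂ | a ^ K = s}.encard ≤ K := by
  classical
  have h1 : {a : ℂ | a ^ K = s} ⊆ ((nthRoots K s).toFinset : Set ℂ) := by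
    intro a ha
    simp only [Finset.mem_coe, Multiset.mem_toFinset]
    exact (mem_nthRoots (Nat.pos_of_ne_zero hK)).2 ha
  refine (Set.encard_le_encard h1).trans ?_
  rw [Set.encard_coe_eq_coe_finsetCard]
  exact_mod_cast (Multiset.toFinset_card_le _).trans (card_nthRoots K s)

theorem encard_powK_le {K : ℕ} (hK : K ≠ 0) (s : ℂ × ℂ) :
    {q : ℂ × ℂ | (q.1 ^ K, q.2 ^ K) = s}.encard ≤ ((K * K : ℕ) : ℕ∞) := by
  have h1 : {q : ℂ × ℂ | (q.1 ^ K, q.2 ^ K) = s} ⊆ {a : ℂ | a ^ K = s.1} ×ˢ {b : ℂ | b ^ K = s.2} := by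
    intro q hq
    exact ⟨congrArg Prod.fst hq, congrArg Prod.snd hq⟩
  refine (Set.encard_le_encard h1).trans ?_
  rw [Set.encard_prod]
  push_cast
  exact mul_le_mul' (encard_pow_eq_le hK s.1) (encard_pow_eq_le hK s.2)

variable {f : (Fin 3 → ℂ) → ℂ} {κ : Type*} {Θ : κ → ℂ × ℂ → ℂ × ℂ} {n : ℕ}
    {P : ℂ × ℂ → ℂ[X]} {v : ℂ × (ℂ × ℂ) → ℂ} {K : κ → ℕ} {ζ : κ → Fin n → ℂ × ℂ → ℂ}
    {σ ρ : κ → Equiv.Perm (Fin n)}

/-- the roots vanish along the exceptional axis -/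
theorem CR.root_zero {Θ : ℂ × ℂ → ℂ × ℂ} {K : ℕ} {ζ : Fin n → ℂ × ℂ → ℂ}
    {σ ρ : Equiv.Perm (Fin n)} (hP0 : P 0 = X ^ n) (C : CR P Θ n K ζ σ ρ)
    (hexc : ∀ᶠ t : ℂ in 𝓝 0, Θ (0, t) = 0) :
    ∀ᶠ t : ℂ in 𝓝 0, ∀ l, ζ l (0, t) = 0 := by
  have hK := C.hK
  have h1 : Tendsto (fun t : ℂ => ((0, t) : ℂ × ℂ)) (𝓝 0) (𝓝 0) :=
    (Continuous.prodMk_right (0 : ℂ)).continuousAt
  have h2 : Tendsto (fun t : ℂ => t ^ K) (𝓝 0) (𝓝 0) := by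
    have := (continuous_pow K).tendsto (0 : ℂ)
    rwa [zero_pow hK] at this
  filter_upwards [h1.eventually C.prod, h2.eventually hexc] with t e1 e2 l
  simp only [zero_pow hK] at e1
  rw [e2, hP0] at e1
  have h11 := congrArg (fun p => p.eval (ζ l (0, t))) e1
  simp only [eval_pow, eval_X, eval_prod, eval_sub, eval_C] at h11
  rw [Finset.prod_eq_zero (Finset.mem_univ l) (sub_self _)] at h11
  exact eq_zero_of_pow_eq_zero h11

/-- **Orders from integrability.** -/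
theorem Model.order (M : Model f Θ n P v K ζ σ ρ) {g : (Fin 3 → ℂ) → ℂ} {N : ℝ} (hN : 0 < N)
    (hg : ∀ k, 0 < k → k < N → InI f k g) (i : κ) (l : Fin n)
    {a b : ℕ} (hJ : MonU (jacP (Θ i)) a b) {c d : ℕ}
    (hD : MonU (fun q => pd 2 f (M.ch i l q)) c d)
    (hexc : ∀ᶠ t : ℂ in 𝓝 0, Θ i (0, t) = 0)
    (hinj : ∃ r : ℝ, 0 < r ∧ ∀ s s' : ℂ × ℂ, ‖s‖ < r → ‖s'‖ < r → s.1 ≠ 0 → s.2 ≠ 0 →
      s'.1 ≠ 0 → s'.2 ≠ 0 → Θ i s = Θ i s' → s = s')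
    {α : ℕ} {g1 : ℂ × ℂ → ℂ} (hg1 : AnalyticAt ℂ g1 0)
    (hgα : ∀ᶠ q : ℂ × ℂ in 𝓝 0, g (M.ch i l q) = q.1 ^ α * g1 q)
    (hg1ne : ∃ᶠ t : ℂ in 𝓝 0, g1 (0, t) ≠ 0) :
    N * ((c : ℝ) - K i * (a + 1)) ≤ α := by
  classical
  have hK := (M.C i).hK
  have hKpos : 0 < K i := Nat.pos_of_ne_zero hK
  obtain ⟨r, hr, hinj⟩ := hinj
  set A : ℕ := K i * a + (K i - 1) with hA
  set B : ℕ := K i * b + (K i - 1) with hB
  obtain ⟨c1, hc1, hjac⟩ := (M.monU_jac i l hJ).ge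
  obtain ⟨C1, hC1, hpd⟩ := hD.le
  have hpne := hD.ne_zero
  -- a good radius
  have hpow : ∀ᶠ q : ℂ × ℂ in 𝓝 0, ‖(q.1 ^ K i, q.2 ^ K i)‖ < r := by
    have := (MonU.tendsto_powK hK).norm
    rw [norm_zero] at this
    exact this.eventually_lt_const hr
  obtain ⟨R, hR, hgood⟩ := Metric.eventually_nhds_iff.1
    ((M.an_ch i l).eventually_analyticAt.and ((M.f_ch i l).and (hjac.and (hpd.and (hpne.and
      (hgα.and (hg1.eventually_analyticAt.and hpow)))))))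
  have hgood' : ∀ q : ℂ × ℂ, ‖q‖ < R → _ := fun q hq => hgood (y := q) (by rwa [dist_zero_right])
  -- the centre
  have hroot0 := (M.C i).root_zero M.W.zero hexc
  have hnear0 : ∀ᶠ t : ℂ in 𝓝 0, ‖t‖ < R := by
    have := (continuous_norm.tendsto (0 : ℂ))
    rw [norm_zero] at this
    exact this.eventually_lt_const hR
  have hpowt : Tendsto (fun t : ℂ => t ^ K i) (𝓝 0) (𝓝 0) := by
    have := (continuous_pow (K i)).tendsto (0 : ℂ)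
    rwa [zero_pow hK] at this
  have hc0 : ∃ b₀ : ℂ, b₀ ≠ 0 ∧ ‖b₀‖ < R ∧ g1 (0, b₀) ≠ 0 ∧ M.ch i l (0, b₀) = 0 := by
    -- near a point where `g1 (0, ·)` does not vanish there are such points `≠ 0`
    have hin : Tendsto (fun t : ℂ => ((0, t) : ℂ × ℂ)) (𝓝 0) (𝓝 0) :=
      (Continuous.prodMk_right (0 : ℂ)).continuousAt
    have hcont : ∀ᶠ t : ℂ in 𝓝 0, ContinuousAt (fun t : ℂ => g1 (0, t)) t := by
      filter_upwards [hin.eventually hg1.eventually_analyticAt] with t ht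
      exact ht.continuousAt.comp (f := fun t : ℂ => ((0, t) : ℂ × ℂ))
        (Continuous.prodMk_right (0 : ℂ)).continuousAt
    have hall : ∀ᶠ t : ℂ in 𝓝 0, (‖t‖ < R ∧ (∀ l, ζ i l (0, t) = 0) ∧ Θ i (0, t ^ K i) = 0) ∧
        ContinuousAt (fun t : ℂ => g1 (0, t)) t := by
      filter_upwards [hnear0, hroot0, hpowt.eventually hexc, hcont] with t e1 e2 e3 e4
      exact ⟨⟨e1, e2, e3⟩, e4⟩
    obtain ⟨t, ht1, ht2⟩ := (hg1ne.and_eventually hall.eventually_nhds).exists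
    have ht3 := ht2.self_of_nhds
    have ht4 : ∀ᶠ s in 𝓝 t, g1 (0, s) ≠ 0 := ht3.2.eventually_ne ht1
    have ht5 : ∃ᶠ s : ℂ in 𝓝 t, s ≠ 0 := by
      have h2 : Dense ({0}ᶜ : Set ℂ) := dense_compl_singleton 0
      exact mem_closure_iff_frequently.1 (h2 t)
    obtain ⟨s, hs1, hs2, hs3⟩ := (ht5.and_eventually (ht4.and ht2)).exists
    refine ⟨s, hs1, hs3.1.1, hs2, ?_⟩
    change pt (Θ i ((0 : ℂ) ^ K i, s ^ K i)) (ζ i l (0, s)) = 0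
    rw [zero_pow hK, hs3.1.2.2, hs3.1.2.1 l, pt_zero]
  obtain ⟨b₀, hb0, hb0R, hg1b, hch0⟩ := hc0
  have hb0pos : 0 < ‖b₀‖ := norm_pos_iff.2 hb0
  have hmem0 : ‖((0, b₀) : ℂ × ℂ)‖ < R := by
    rw [Prod.norm_def]
    exact max_lt (by simpa using hR) hb0R
  have hg1c : ContinuousAt g1 (0, b₀) := (hgood' _ hmem0).2.2.2.2.2.2.1.continuousAt
  have hg1pos : 0 < ‖g1 (0, b₀)‖ := norm_pos_iff.2 hg1b
  have hlow : ∀ᶠ q : ℂ × ℂ in 𝓝 (0, b₀), ‖g1 (0, b₀)‖ / 2 < ‖g1 q‖ :=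
    continuousAt_const.eventually_lt hg1c.norm (by linarith)
  have hRnear : ∀ᶠ q : ℂ × ℂ in 𝓝 (0, b₀), ‖q‖ < R := by
    have := (continuous_norm.tendsto ((0, b₀) : ℂ × ℂ))
    exact this.eventually_lt_const hmem0
  have hbnear : ∀ᶠ q : ℂ × ℂ in 𝓝 ((0 : ℂ), b₀), ‖b₀‖ / 2 < ‖q.2‖ :=
    continuousAt_const.eventually_lt (continuous_snd.norm.continuousAt) (half_lt_self hb0pos)
  obtain ⟨ε, hε, hball⟩ := Metric.eventually_nhds_iff.1 (hlow.and (hRnear.and hbnear))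
  have hreg : ∀ q ∈ ball (0 : ℂ) ε ×ˢ ball b₀ ε, ‖g1 (0, b₀)‖ / 2 < ‖g1 q‖ ∧ ‖q‖ < R ∧
      ‖b₀‖ / 2 < ‖q.2‖ := by
    intro q hq
    exact hball (y := q) (by rw [Prod.dist_eq]; exact max_lt hq.1 hq.2)
  have hq2 : ∀ q ∈ ball (0 : ℂ) ε ×ˢ ball b₀ ε, q.2 ≠ 0 := fun q hq h0 => by
    have := (hreg q hq).2.2
    rw [h0, norm_zero] at this
    linarith
  -- constants
  have hKr : ((A : ℕ) : ℝ) = K i * a + (K i - 1) := by
    rw [hA]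
    push_cast [Nat.cast_sub hKpos]
    ring
  set cB : ℝ := (‖b₀‖ / 2) ^ B with hcB
  have hcB0 : 0 < cB := by positivity
  set CB : ℝ := R ^ d with hCB
  have hCB0 : 0 < CB := by positivity
  set c0 : ℝ := min (c1 * cB / (C1 * CB)) (‖g1 (0, b₀)‖ / 2) with hc0def
  have hc0pos : 0 < c0 := lt_min (by positivity) (by positivity)
  have key := order_of_inI (f := f) (g := g) hN hg (η₀ := b₀) (ε := ε) hε (Φ := M.ch i l)
    (P := (A : ℝ) - c) (α := α) (c := c0) ?_ hch0 ?_ ?_ (K i * K i) ?_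
    (fun q => jac2 (M.ch i l) q / pd 2 f (M.ch i l q)) ?_ hc0pos ?_ ?_
  · rw [hKr] at key
    have : N * (-((K i : ℝ) * a + (K i - 1) - c) - 1) = N * ((c : ℝ) - K i * (a + 1)) := by ring
    rw [this] at key
    exact key
  · intro q hq
    exact ((hgood' q (hreg q hq).2.1).1.contDiffAt).contDiffWithinAt
  · intro q hq
    exact (hgood' q (hreg q hq).2.1).2.1
  · intro q hq hq1
    exact (hgood' q (hreg q hq).2.1).2.2.2.2.1 hq1 (hq2 q hq)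
  · intro x
    by_cases hne : ∃ q₀, q₀ ∈ ball (0 : ℂ) ε ×ˢ ball b₀ ε ∧ q₀.1 ≠ 0 ∧ M.ch i l q₀ = x
    · obtain ⟨q₀, hq0, hq01, hq0x⟩ := hne
      refine (Set.encard_le_encard ?_).trans (encard_powK_le hK (q₀.1 ^ K i, q₀.2 ^ K i))
      rintro q ⟨hq, hq1, hqx⟩
      have hΘeq : Θ i (q.1 ^ K i, q.2 ^ K i) = Θ i (q₀.1 ^ K i, q₀.2 ^ K i) := by
        have h1 : M.ch i l q = M.ch i l q₀ := hqx.trans hq0x.symm
        have h2 := congrFun h1 0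
        have h3 := congrFun h1 1
        exact Prod.ext h2 h3
      exact hinj _ _ (hgood' q (hreg q hq).2.1).2.2.2.2.2.2.2
        (hgood' q₀ (hreg q₀ hq0).2.1).2.2.2.2.2.2.2 (pow_ne_zero _ hq1) (pow_ne_zero _ (hq2 q hq))
        (pow_ne_zero _ hq01) (pow_ne_zero _ (hq2 q₀ hq0)) hΘeq
    · have : {q | q ∈ ball (0 : ℂ) ε ×ˢ ball b₀ ε ∧ q.1 ≠ 0 ∧ M.ch i l q = x} = ∅ := by
        rw [Set.eq_empty_iff_forall_notMem]
        intro q hq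
        exact hne ⟨q, hq⟩
      rw [this, Set.encard_empty]
      exact zero_le
  · intro q hq hq1
    rw [div_mul_cancel₀ _ ((hgood' q (hreg q hq).2.1).2.2.2.2.1 hq1 (hq2 q hq))]
  · intro q hq hq1
    obtain ⟨-, -, e3, e4, e5, -⟩ := hgood' q (hreg q hq).2.1
    have hu : 0 < ‖q.1‖ := norm_pos_iff.2 hq1
    have hpd0 : 0 < ‖pd 2 f (M.ch i l q)‖ := norm_pos_iff.2 (e5 hq1 (hq2 q hq))
    rw [norm_div, le_div_iff₀ hpd0]
    have h6 : ‖q.2‖ ≤ R := by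
      have := (hreg q hq).2.1
      rw [Prod.norm_def] at this
      exact (le_max_right _ _).trans this.le
    have h7 : ‖b₀‖ / 2 ≤ ‖q.2‖ := (hreg q hq).2.2.le
    have h8 : ‖q.2‖ ^ d ≤ CB := pow_le_pow_left₀ (norm_nonneg _) h6 d
    have h9 : cB ≤ ‖q.2‖ ^ B := pow_le_pow_left₀ (by positivity) h7 B
    calc c0 * ‖q.1‖ ^ ((A : ℝ) - c) * ‖pd 2 f (M.ch i l q)‖
        ≤ (c1 * cB / (C1 * CB)) * ‖q.1‖ ^ ((A : ℝ) - c) * (C1 * (‖q.1‖ ^ c * ‖q.2‖ ^ d)) := by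
          gcongr
          exact min_le_left _ _
      _ ≤ (c1 * cB / (C1 * CB)) * ‖q.1‖ ^ ((A : ℝ) - c) * (C1 * (‖q.1‖ ^ c * CB)) := by
          gcongr
      _ = c1 * (‖q.1‖ ^ A * cB) := by
          rw [Real.rpow_sub hu, Real.rpow_natCast, Real.rpow_natCast]
          field_simp
      _ ≤ c1 * (‖q.1‖ ^ A * ‖q.2‖ ^ B) := by
          gcongr
      _ ≤ ‖jac2 (M.ch i l) q‖ := e3
  · intro q hq hq1
    obtain ⟨-, -, -, -, -, e6, -⟩ := hgood' q (hreg q hq).2.1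
    rw [e6, norm_mul, norm_pow, Real.rpow_natCast, mul_comm]
    have h8 : c0 ≤ ‖g1 q‖ := (min_le_right _ _).trans (hreg q hq).1.le
    gcongr

end Vale.Agent.P298.H707
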