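import Mathlib

/-!
P298, row E1-INT (helper707): integrals of monomials over polydiscs.
-/

namespace Vale.Agent.P298.H707

open MeasureTheory Set Filter Topology
open scoped ENNReal NNReal

theorem integrableOn_rpow_ball {s : ℝ} (hs : -2 < s) {R : ℝ} (hR : 0 < R) :
    IntegrableOn (fun z : ℂ => ‖z‖ ^ s) (Metric.ball (0 : ℂ) R) := by
  have h1 : (fun z : ℂ => (Metric.ball (0 : ℂ) R).indicator (fun z => ‖z‖ ^ s) z)
      = fun z : ℂ => (Iio R).indicator (fun y : ℝ => y ^ s) ‖z‖ := by
    funext z
    by_cases hz : ‖z‖ < R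
    · rw [indicator_of_mem (show z ∈ Metric.ball (0 : ℂ) R by simpa using hz),
        indicator_of_mem (show ‖z‖ ∈ Iio R from hz)]
    · rw [indicator_of_notMem (show z ∉ Metric.ball (0 : ℂ) R by simpa using hz),
        indicator_of_notMem (show ‖z‖ ∉ Iio R from hz)]
  rw [← integrable_indicator_iff Metric.isOpen_ball.measurableSet]
  have h2 := (integrable_fun_norm_addHaar (E := ℂ) (F := ℝ) (μ := volume)
    (f := (Iio R).indicator (fun y : ℝ => y ^ s))).2 ?_
  · exact (congrArg (fun g => Integrable g volume) h1).mpr h2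
  · rw [Complex.finrank_real_complex]
    have h3 : IntegrableOn (fun y : ℝ => y ^ (s + 1)) (Ioo 0 R) :=
      (intervalIntegral.integrableOn_Ioo_rpow_iff hR).2 (by linarith)
    have h4 : IntegrableOn ((Iio R).indicator (fun y : ℝ => y ^ (s + 1))) (Ioi 0) := by
      rw [IntegrableOn, integrable_indicator_iff measurableSet_Iio, IntegrableOn,
        Measure.restrict_restrict measurableSet_Iio, inter_comm, Ioi_inter_Iio]
      exact h3
    refine h4.congr_fun (fun y hy => ?_) measurableSet_Ioi
    simp only [mem_Ioi] at hy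
    by_cases hyR : y < R
    · rw [indicator_of_mem (show y ∈ Iio R from hyR), indicator_of_mem (show y ∈ Iio R from hyR)]
      rw [Real.rpow_add_one hy.ne']
      simp [mul_comm]
    · rw [indicator_of_notMem (show y ∉ Iio R from hyR),
        indicator_of_notMem (show y ∉ Iio R from hyR)]
      simp

theorem lintegral_rpow_ball {s : ℝ} (hs : -2 < s) (R : ℝ) :
    ∫⁻ z in Metric.ball (0 : ℂ) R, ENNReal.ofReal (‖z‖ ^ s) < ∞ := by
  rcases le_or_gt R 0 with hR | hR
  · rw [Metric.ball_eq_empty.2 hR]; simp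
  have h := (integrableOn_rpow_ball hs hR).2
  rw [hasFiniteIntegral_iff_ofReal] at h
  · exact h
  · exact Eventually.of_forall fun z => Real.rpow_nonneg (norm_nonneg z) s

/-- the integral of a monomial over a bounded set of `ℂ²` -/
theorem lintegral_mono_lt_top {s t : ℝ} (hs : -2 < s) (ht : -2 < t) {U : Set (ℂ × ℂ)}
    (hU : Bornology.IsBounded U) :
    ∫⁻ q in U, ENNReal.ofReal (‖q.1‖ ^ s) * ENNReal.ofReal (‖q.2‖ ^ t) < ∞ := by
  obtain ⟨R, hR⟩ := hU.subset_ball (0 : ℂ × ℂ)
  have h1 : U ⊆ Metric.ball (0 : ℂ) R ×ˢ Metric.ball (0 : ℂ) R := by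
    intro q hq
    have := hR hq
    rw [Metric.mem_ball, dist_zero_right, Prod.norm_def] at this
    exact ⟨by simpa using lt_of_le_of_lt (le_max_left _ _) this,
      by simpa using lt_of_le_of_lt (le_max_right _ _) this⟩
  refine lt_of_le_of_lt (lintegral_mono_set h1) ?_
  rw [Measure.volume_eq_prod, ← Measure.prod_restrict]
  have hm1 : Measurable fun z : ℂ => ENNReal.ofReal (‖z‖ ^ s) :=
    ENNReal.measurable_ofReal.comp (measurable_norm.pow_const s)
  have hm2 : Measurable fun z : ℂ => ENNReal.ofReal (‖z‖ ^ t) :=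
    ENNReal.measurable_ofReal.comp (measurable_norm.pow_const t)
  rw [lintegral_prod_mul hm1.aemeasurable hm2.aemeasurable]
  exact ENNReal.mul_lt_top (lintegral_rpow_ball hs R) (lintegral_rpow_ball ht R)

end Vale.Agent.P298.H707
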