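import Vale.Agent.P298.H379.Geo
import Vale.Agent.P298.H707.Area
import Vale.Agent.P298.H707.Mono

/-!
P298, row E1-INT (helper707): orders along a covering by charts imply integrability.
-/

namespace Vale.Agent.P298.H707

open MeasureTheory Set Filter Topology Metric Vale.Agent.P298 Vale.Agent.P298.H379
open scoped ENNReal NNReal

/-- the real determinant of a complex linear endomorphism of `ℂ²` -/
theorem det_restrictScalars (L : (ℂ × ℂ) →L[ℂ] (ℂ × ℂ)) :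
    (L.restrictScalars ℝ).det = ‖L.det‖ ^ 2 := by
  have h := LinearMap.det_restrictScalars (R := ℝ) (S := ℂ) (f := (L : (ℂ × ℂ) →ₗ[ℂ] (ℂ × ℂ)))
  have h1 : (L.restrictScalars ℝ).det
      = LinearMap.det ((L : (ℂ × ℂ) →ₗ[ℂ] (ℂ × ℂ)).restrictScalars ℝ) := rfl
  rw [h1, h, Algebra.norm_complex_eq]
  exact Complex.normSq_eq_norm_sq _

/-- the determinant of a complex linear endomorphism of `ℂ²` in coordinates -/
theorem det_prod (L : (ℂ × ℂ) →L[ℂ] (ℂ × ℂ)) :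
    L.det = (L (1, 0)).1 * (L (0, 1)).2 - (L (0, 1)).1 * (L (1, 0)).2 := by
  have h1 : L.det = LinearMap.det (L : (ℂ × ℂ) →ₗ[ℂ] (ℂ × ℂ)) := rfl
  rw [h1, ← LinearMap.det_toMatrix (Module.Basis.finTwoProd ℂ), Matrix.det_fin_two]
  simp [LinearMap.toMatrix_apply]

/-- the Jacobian of the first two components of `Φ : ℂ² → ℂ³` -/
noncomputable def jac2 (Φ : ℂ × ℂ → Fin 3 → ℂ) (q : ℂ × ℂ) : ℂ :=
  fderiv ℂ Φ q (1, 0) 0 * fderiv ℂ Φ q (0, 1) 1 - fderiv ℂ Φ q (0, 1) 0 * fderiv ℂ Φ q (1, 0) 1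

/-- the first two components of `Φ` -/
def prj (Φ : ℂ × ℂ → Fin 3 → ℂ) (q : ℂ × ℂ) : ℂ × ℂ := (Φ q 0, Φ q 1)

theorem pt_prj (Φ : ℂ × ℂ → Fin 3 → ℂ) (q : ℂ × ℂ) : pt (prj Φ q) (Φ q 2) = Φ q := by
  funext i
  fin_cases i <;> rfl

theorem hasFDerivAt_prj {Φ : ℂ × ℂ → Fin 3 → ℂ} {q : ℂ × ℂ} (h : DifferentiableAt ℂ Φ q) :
    HasFDerivAt (prj Φ)
      (((ContinuousLinearMap.proj (R := ℂ) (φ := fun _ : Fin 3 => ℂ) 0).comp (fderiv ℂ Φ q)).prod
        ((ContinuousLinearMap.proj (R := ℂ) (φ := fun _ : Fin 3 => ℂ) 1).comp (fderiv ℂ Φ q))) q := by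
  have h0 := (ContinuousLinearMap.proj (R := ℂ) (φ := fun _ : Fin 3 => ℂ) 0).hasFDerivAt.comp q
    h.hasFDerivAt
  have h1 := (ContinuousLinearMap.proj (R := ℂ) (φ := fun _ : Fin 3 => ℂ) 1).hasFDerivAt.comp q
    h.hasFDerivAt
  exact h0.prodMk h1

theorem det_prj {Φ : ℂ × ℂ → Fin 3 → ℂ} {q : ℂ × ℂ} (h : DifferentiableAt ℂ Φ q) :
    (fderiv ℝ (prj Φ) q).det = ‖jac2 Φ q‖ ^ 2 := by
  have h1 := hasFDerivAt_prj h
  rw [(h1.restrictScalars ℝ).fderiv, det_restrictScalars, det_prod]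
  rfl

theorem contDiffOn_prj {Φ : ℂ × ℂ → Fin 3 → ℂ} {U : Set (ℂ × ℂ)} (h : ContDiffOn ℂ 1 Φ U) :
    ContDiffOn ℝ 1 (prj Φ) U := by
  have h0 : ContDiffOn ℂ 1 (fun q => Φ q 0) U := by
    exact (ContinuousLinearMap.proj (R := ℂ) (φ := fun _ : Fin 3 => ℂ) 0).contDiff.comp_contDiffOn h
  have h1 : ContDiffOn ℂ 1 (fun q => Φ q 1) U := by
    exact (ContinuousLinearMap.proj (R := ℂ) (φ := fun _ : Fin 3 => ℂ) 1).contDiff.comp_contDiffOn h
  exact (h0.prodMk h1).restrict_scalars ℝ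

/-- the image of the coordinate axes under a map of the plane is a null set -/
theorem ae_axes {U : Set (ℂ × ℂ)} {X : ℂ × ℂ → ℂ × ℂ} (hX : ContDiffOn ℝ 1 X U) :
    ∀ᵐ p : ℂ × ℂ, ∀ q ∈ U, X q = p → q.1 ≠ 0 ∧ q.2 ≠ 0 := by
  have hnull : (volume : Measure (ℂ × ℂ)) {q | q.1 = 0 ∨ q.2 = 0} = 0 := by
    have h1 : (volume : Measure (ℂ × ℂ)) ({0} ×ˢ univ) = 0 := by
      rw [Measure.volume_eq_prod, Measure.prod_prod]; simp
    have h2 : (volume : Measure (ℂ × ℂ)) (univ ×ˢ {0}) = 0 := by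
      rw [Measure.volume_eq_prod, Measure.prod_prod]; simp
    refine measure_mono_null ?_ (measure_union_null h1 h2)
    rintro q (hq | hq)
    · left; exact ⟨hq, mem_univ _⟩
    · right; exact ⟨mem_univ _, hq⟩
  have hhaar : (volume : Measure (ℂ × ℂ)).IsAddHaarMeasure := by
    rw [Measure.volume_eq_prod]; infer_instance
  have h0 : volume (X '' (U ∩ {q | q.1 = 0 ∨ q.2 = 0})) = 0 := by
    refine MeasureTheory.addHaar_image_eq_zero_of_differentiableOn_of_addHaar_eq_zero volume ?_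
      (measure_mono_null inter_subset_right hnull)
    exact (hX.differentiableOn (by norm_num)).mono inter_subset_left
  filter_upwards [measure_eq_zero_iff_ae_notMem.1 h0] with p hp q hq hqp
  by_contra hcon
  have : q.1 = 0 ∨ q.2 = 0 := by
    by_contra h
    push Not at h
    exact hcon h
  exact hp ⟨q, ⟨hq, this⟩, hqp⟩

/-- **Orders along charts imply integrability.** The charts `Φ a : U a → ℂ³` cover the surface
`f = 0` near the origin, except for points over a null set of the plane. The pull back of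
`dx₁ ∧ dx₂ / ∂₃ f` is `W a du ∧ dv`. -/
theorem Nloc_lt_top {f h : (Fin 3 → ℂ) → ℂ} {r k : ℝ} (hk : 0 < k) {ι : Type*} [Fintype ι]
    (U : ι → Set (ℂ × ℂ)) (hU : ∀ a, IsOpen (U a)) (hb : ∀ a, Bornology.IsBounded (U a))
    (Φ : ι → ℂ × ℂ → Fin 3 → ℂ) (hΦ : ∀ a, ContDiffOn ℂ 1 (Φ a) (U a))
    (W : ι → ℂ × ℂ → ℂ)
    (hJ : ∀ a, ∀ q ∈ U a, q.1 ≠ 0 → q.2 ≠ 0 → jac2 (Φ a) q = W a q * pd 2 f (Φ a q))
    (hcov : ∀ᵐ p : ℂ × ℂ, ∀ z ∈ Rts f 0 p, pt p z ∈ ball (0 : Fin 3 → ℂ) r → h (pt p z) ≠ 0 →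
      ∃ a, ∃ q ∈ U a, Φ a q = pt p z)
    (α β P Q : ι → ℝ) (C : ℝ)
    (hW : ∀ a, ∀ q ∈ U a, q.1 ≠ 0 → q.2 ≠ 0 → ‖W a q‖ ≤ C * (‖q.1‖ ^ P a * ‖q.2‖ ^ Q a))
    (hh : ∀ a, ∀ q ∈ U a, q.1 ≠ 0 → q.2 ≠ 0 →
      ‖h (Φ a q)‖ ≤ C * (‖q.1‖ ^ α a * ‖q.2‖ ^ β a))
    (h1 : ∀ a, -1 < α a / k + P a) (h2 : ∀ a, -1 < β a / k + Q a) :
    Nloc f r k h < ∞ := by
  classical
  wlog hC : 0 ≤ C generalizing C
  · refine this 0 (fun a q hq hq1 hq2 => ?_) (fun a q hq hq1 hq2 => ?_) le_rfl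
    · refine (hW a q hq hq1 hq2).trans ?_
      exact mul_le_mul_of_nonneg_right (not_le.1 hC).le (by positivity)
    · refine (hh a q hq hq1 hq2).trans ?_
      exact mul_le_mul_of_nonneg_right (not_le.1 hC).le (by positivity)
  set s : ι → ℝ := fun a => 2 * (α a / k + P a) with hs
  set t : ι → ℝ := fun a => 2 * (β a / k + Q a) with ht
  set m : ι → ℂ × ℂ → ℝ≥0∞ := fun a q => ENNReal.ofReal (C ^ (2 / k) * C ^ 2) *
    (ENNReal.ofReal (‖q.1‖ ^ s a) * ENNReal.ofReal (‖q.2‖ ^ t a)) with hm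
  set U' : ι → Set (ℂ × ℂ) := fun a => U a ∩ {q | q.1 ≠ 0 ∧ q.2 ≠ 0} with hU'
  have hU'o : ∀ a, IsOpen (U' a) := by
    intro a
    refine (hU a).inter ?_
    exact (isOpen_ne.preimage continuous_fst).inter (isOpen_ne.preimage continuous_snd)
  have hΦ' : ∀ a, ContDiffOn ℝ 1 (prj (Φ a)) (U a) := fun a => contDiffOn_prj (hΦ a)
  have hax : ∀ᵐ p : ℂ × ℂ, ∀ a, ∀ q ∈ U a, prj (Φ a) q = p → q.1 ≠ 0 ∧ q.2 ≠ 0 :=
    ae_all_iff.2 fun a => ae_axes (hΦ' a)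
  set ψ : ℂ × ℂ → ℂ → ℝ≥0∞ := fun p z =>
    ((ball (0 : Fin 3 → ℂ) r).indicator fun x => ‖h x‖ₑ ^ (2 / k)) (pt p z)
      / ‖pd 2 f (pt p z)‖ₑ ^ 2 with hψ
  have hhaar : (volume : Measure (ℂ × ℂ)).IsAddHaarMeasure := by
    rw [Measure.volume_eq_prod]; infer_instance
  have hmain : Nloc f r k h ≤ ∑ a, ∫⁻ q in U' a, m a q := by
    refine lintegral_tsum_le (volume : Measure (ℂ × ℂ)) (fun p => Rts f 0 p) ψ U' hU'o
      (fun a => prj (Φ a)) (fun a => (hΦ' a).mono inter_subset_left) (fun a q => Φ a q 2) m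
      ?_ ?_ ?_
    · intro a
      have e1 : Measurable fun q : ℂ × ℂ => ENNReal.ofReal (‖q.1‖ ^ s a) :=
        ENNReal.measurable_ofReal.comp (measurable_fst.norm.pow_const _)
      have e2 : Measurable fun q : ℂ × ℂ => ENNReal.ofReal (‖q.2‖ ^ t a) :=
        ENNReal.measurable_ofReal.comp (measurable_snd.norm.pow_const _)
      exact (e1.mul e2).const_mul _
    · filter_upwards [hcov, hax] with p hp hp2 z hz hne
      have hball : pt p z ∈ ball (0 : Fin 3 → ℂ) r := by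
        by_contra hcon
        apply hne
        rw [hψ]
        simp only
        rw [indicator_of_notMem hcon, ENNReal.zero_div]
      have hhne : h (pt p z) ≠ 0 := by
        intro hcon
        apply hne
        rw [hψ]
        simp only
        rw [indicator_of_mem hball, hcon, enorm_zero, ENNReal.zero_rpow_of_pos (by positivity),
          ENNReal.zero_div]
      obtain ⟨a, q, hq, hqz⟩ := hp z hz hball hhne
      have hprj : prj (Φ a) q = p := by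
        rw [prj, hqz]; rfl
      refine ⟨a, q, ⟨hq, hp2 a q hq hprj⟩, hprj, ?_⟩
      rw [hqz]; rfl
    · intro a q hq hz
      have hdiff : DifferentiableAt ℂ (Φ a) q :=
        ((hΦ a).differentiableOn (by norm_num)).differentiableAt ((hU a).mem_nhds hq.1)
      rw [det_prj hdiff, hψ]
      simp only
      rw [pt_prj]
      have hne : pd 2 f (Φ a q) ≠ 0 := by
        have := hz.2
        rwa [pt_prj] at this
      rw [hJ a q hq.1 hq.2.1 hq.2.2]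
      have hn : (0 : ℝ) < ‖pd 2 f (Φ a q)‖ := norm_pos_iff.2 hne
      have hu : 0 < ‖q.1‖ := norm_pos_iff.2 hq.2.1
      have hv : 0 < ‖q.2‖ := norm_pos_iff.2 hq.2.2
      have hind : ((ball (0 : Fin 3 → ℂ) r).indicator fun x => ‖h x‖ₑ ^ (2 / k)) (Φ a q)
          ≤ ENNReal.ofReal (‖h (Φ a q)‖ ^ (2 / k)) := by
        refine (indicator_le_self _ _ _).trans ?_
        rw [← ENNReal.ofReal_rpow_of_nonneg (norm_nonneg _) (by positivity), ofReal_norm]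
      have hden : (‖pd 2 f (Φ a q)‖ₑ ^ 2 : ℝ≥0∞) = ENNReal.ofReal (‖pd 2 f (Φ a q)‖ ^ 2) := by
        rw [ENNReal.ofReal_pow (norm_nonneg _), ofReal_norm]
      rw [hden, abs_of_nonneg (by positivity), norm_mul, mul_pow]
      calc _ ≤ ENNReal.ofReal (‖h (Φ a q)‖ ^ (2 / k)) / ENNReal.ofReal (‖pd 2 f (Φ a q)‖ ^ 2)
            * ENNReal.ofReal (‖W a q‖ ^ 2 * ‖pd 2 f (Φ a q)‖ ^ 2) := by gcongr
        _ = ENNReal.ofReal (‖h (Φ a q)‖ ^ (2 / k) * ‖W a q‖ ^ 2) := by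
            rw [← ENNReal.ofReal_div_of_pos (by positivity), ← ENNReal.ofReal_mul (by positivity)]
            congr 1
            field_simp
        _ ≤ ENNReal.ofReal ((C * (‖q.1‖ ^ α a * ‖q.2‖ ^ β a)) ^ (2 / k)
              * (C * (‖q.1‖ ^ P a * ‖q.2‖ ^ Q a)) ^ 2) := by
            refine ENNReal.ofReal_le_ofReal ?_
            gcongr
            · exact hh a q hq.1 hq.2.1 hq.2.2
            · exact hW a q hq.1 hq.2.1 hq.2.2
        _ = m a q := by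
            rw [hm]
            simp only
            rw [← ENNReal.ofReal_mul (by positivity), ← ENNReal.ofReal_mul (by positivity)]
            congr 1
            rw [Real.mul_rpow hC (by positivity), Real.mul_rpow (by positivity) (by positivity),
              ← Real.rpow_mul hu.le, ← Real.rpow_mul hv.le]
            rw [hs, ht]
            simp only
            have e1 : ‖q.1‖ ^ (2 * (α a / k + P a)) = ‖q.1‖ ^ (α a * (2 / k)) * (‖q.1‖ ^ P a) ^ 2 := by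
              rw [← Real.rpow_natCast (‖q.1‖ ^ P a) 2, ← Real.rpow_mul hu.le, ← Real.rpow_add hu]
              congr 1
              push_cast
              ring
            have e2 : ‖q.2‖ ^ (2 * (β a / k + Q a)) = ‖q.2‖ ^ (β a * (2 / k)) * (‖q.2‖ ^ Q a) ^ 2 := by
              rw [← Real.rpow_natCast (‖q.2‖ ^ Q a) 2, ← Real.rpow_mul hv.le, ← Real.rpow_add hv]
              congr 1
              push_cast
              ring
            rw [e1, e2]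
            ring
  refine lt_of_le_of_lt hmain ?_
  refine ENNReal.sum_lt_top.2 fun a _ => ?_
  have hb' : Bornology.IsBounded (U' a) := (hb a).subset inter_subset_left
  rw [hm]
  simp only
  rw [lintegral_const_mul']
  · refine ENNReal.mul_lt_top ENNReal.ofReal_lt_top ?_
    refine lintegral_mono_lt_top ?_ ?_ hb'
    · have := h1 a; simp only [hs]; linarith
    · have := h2 a; simp only [ht]; linarith
  · exact ENNReal.ofReal_ne_top

/-- the same with the conclusion `InI` -/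
theorem inI_of_charts {f h : (Fin 3 → ℂ) → ℂ} {r k : ℝ} (hr : 0 < r) (hk : 0 < k) (hhol : Hol h)
    {ι : Type*} [Fintype ι]
    (U : ι → Set (ℂ × ℂ)) (hU : ∀ a, IsOpen (U a)) (hb : ∀ a, Bornology.IsBounded (U a))
    (Φ : ι → ℂ × ℂ → Fin 3 → ℂ) (hΦ : ∀ a, ContDiffOn ℂ 1 (Φ a) (U a))
    (W : ι → ℂ × ℂ → ℂ)
    (hJ : ∀ a, ∀ q ∈ U a, q.1 ≠ 0 → q.2 ≠ 0 → jac2 (Φ a) q = W a q * pd 2 f (Φ a q))
    (hcov : ∀ᵐ p : ℂ × ℂ, ∀ z ∈ Rts f 0 p, pt p z ∈ ball (0 : Fin 3 → ℂ) r → h (pt p z) ≠ 0 →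
      ∃ a, ∃ q ∈ U a, Φ a q = pt p z)
    (α β P Q : ι → ℝ) (C : ℝ)
    (hW : ∀ a, ∀ q ∈ U a, q.1 ≠ 0 → q.2 ≠ 0 → ‖W a q‖ ≤ C * (‖q.1‖ ^ P a * ‖q.2‖ ^ Q a))
    (hh : ∀ a, ∀ q ∈ U a, q.1 ≠ 0 → q.2 ≠ 0 →
      ‖h (Φ a q)‖ ≤ C * (‖q.1‖ ^ α a * ‖q.2‖ ^ β a))
    (h1 : ∀ a, -1 < α a / k + P a) (h2 : ∀ a, -1 < β a / k + Q a) :
    InI f k h :=
  ⟨hhol, r, hr, Nloc_lt_top hk U hU hb Φ hΦ W hJ hcov α β P Q C hW hh h1 h2⟩

end Vale.Agent.P298.H707
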