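import Vale.Agent.P298.H707.Int

/-!
P298, row E1-INT (helper707): the converse, integrability gives lower bounds for the orders.
-/

namespace Vale.Agent.P298.H707

open MeasureTheory Set Filter Topology Metric Vale.Agent.P298 Vale.Agent.P298.H379
open scoped ENNReal NNReal

/-- The sum over the fibres of a map `q ↦ (X q, Z q)` which is at most `M` to one. -/
theorem lintegral_le_tsum {E : Type*} [NormedAddCommGroup E] [NormedSpace ℝ E]
    [FiniteDimensional ℝ E] [MeasurableSpace E] [BorelSpace E] (μ : Measure E)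
    [μ.IsAddHaarMeasure] {β : Type*}
    (R : E → Set β) (ψ : E → β → ℝ≥0∞) {U : Set E} (hU : IsOpen U) (X : E → E)
    (hX : ContDiffOn ℝ 1 X U) (Z : E → β) (m : E → ℝ≥0∞) (hm : Measurable m) (M : ℕ)
    (hfin : ∀ p, ∀ z, {q | q ∈ U ∧ X q = p ∧ Z q = z}.encard ≤ M)
    (hmem : ∀ q ∈ U, (fderiv ℝ X q).det ≠ 0 → Z q ∈ R (X q))
    (hle : ∀ q ∈ U, (fderiv ℝ X q).det ≠ 0 →
      m q ≤ ψ (X q) (Z q) * ENNReal.ofReal |(fderiv ℝ X q).det|) :
    ∫⁻ q in {q | q ∈ U ∧ (fderiv ℝ X q).det ≠ 0}, m q ∂μ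
      ≤ M * ∫⁻ p, ∑' z : R p, ψ p z ∂μ := by
  classical
  set F : E → ℝ≥0∞ := fun q => m q / ENNReal.ofReal |(fderiv ℝ X q).det| with hF
  have hFm : Measurable F := by
    refine hm.div ?_
    refine ENNReal.measurable_ofReal.comp ?_
    exact (continuous_abs.measurable).comp
      (ContinuousLinearMap.continuous_det.measurable.comp (measurable_fderiv ℝ X))
  have key : ∀ p, ∑' q : Fib U X p, F q ≤ M * ∑' z : R p, ψ p z := by
    intro p
    have h1 : ∀ q : Fib U X p, F q ≤ ψ p (Z q) := by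
      intro q
      obtain ⟨hqU, hXq, hdet⟩ := q.2
      rw [hF]
      simp only
      refine ENNReal.div_le_of_le_mul ?_
      have h := hle q hqU hdet
      rwa [hXq] at h
    set e : Fib U X p → R p := fun q => ⟨Z q, by
      have := hmem q q.2.1 q.2.2.2
      rwa [q.2.2.1] at this⟩ with he
    calc ∑' q : Fib U X p, F q ≤ ∑' q : Fib U X p, ψ p (e q) := ENNReal.tsum_le_tsum h1
      _ = ∑' zq : Σ z : R p, {q : Fib U X p // e q = z}, ψ p (e zq.2.1) :=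
          ((Equiv.sigmaFiberEquiv e).tsum_eq (fun q => ψ p (e q))).symm
      _ = ∑' z : R p, ∑' q : {q : Fib U X p // e q = z}, ψ p (e q.1) :=
          ENNReal.tsum_sigma (fun z (q : {q : Fib U X p // e q = z}) => ψ p (e q.1))
      _ ≤ ∑' z : R p, M * ψ p z := by
          refine ENNReal.tsum_le_tsum fun z => ?_
          have h2 : ∀ q : {q : Fib U X p // e q = z}, ψ p (e q.1) = ψ p z := fun q => by rw [q.2]
          rw [tsum_congr h2]
          have h3 : ENat.card {q : Fib U X p // e q = z} ≤ M := by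
            refine le_trans ?_ (hfin p z)
            refine ENat.card_le_card_of_injective
              (f := fun q : {q : Fib U X p // e q = z} =>
                (⟨q.1.1, q.1.2.1, q.1.2.2.1, congrArg Subtype.val q.2⟩ :
                  {q | q ∈ U ∧ X q = p ∧ Z q = z})) ?_
            intro a b hab
            apply Subtype.ext
            apply Subtype.ext
            exact Subtype.mk.inj hab
          rw [ENNReal.tsum_const]
          gcongr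
          exact_mod_cast h3
      _ = M * ∑' z : R p, ψ p z := ENNReal.tsum_mul_left
  calc ∫⁻ q in {q | q ∈ U ∧ (fderiv ℝ X q).det ≠ 0}, m q ∂μ
      = ∫⁻ q in {q | q ∈ U ∧ (fderiv ℝ X q).det ≠ 0},
          ENNReal.ofReal |(fderiv ℝ X q).det| * F q ∂μ := by
        have hW : MeasurableSet {q | q ∈ U ∧ (fderiv ℝ X q).det ≠ 0} := by
          refine hU.measurableSet.inter ?_
          exact (ContinuousLinearMap.continuous_det.measurable.comp (measurable_fderiv ℝ X))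
            (measurableSet_singleton (0 : ℝ)).compl
        refine setLIntegral_congr_fun hW fun q hq => ?_
        rw [hF]
        simp only
        rw [ENNReal.mul_div_cancel (ENNReal.ofReal_pos.2 (abs_pos.2 hq.2)).ne'
          ENNReal.ofReal_ne_top]
    _ = ∫⁻ p, ∑' q : Fib U X p, F q ∂μ := (lintegral_fib μ hU hX hFm).symm
    _ ≤ ∫⁻ p, M * ∑' z : R p, ψ p z ∂μ := lintegral_mono key
    _ = M * ∫⁻ p, ∑' z : R p, ψ p z ∂μ := lintegral_const_mul' _ _ (ENNReal.natCast_ne_top M)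

theorem not_integrable_rpow_ball {s : ℝ} (hs : s ≤ -2) {R : ℝ} (hR : 0 < R) :
    ∫⁻ z in Metric.ball (0 : ℂ) R, ENNReal.ofReal (‖z‖ ^ s) = ∞ := by
  by_contra hcon
  have hmeas : Measurable fun z : ℂ => ‖z‖ ^ s := measurable_norm.pow_const s
  have h0 : IntegrableOn (fun z : ℂ => ‖z‖ ^ s) (Metric.ball (0 : ℂ) R) := by
    refine ⟨hmeas.aestronglyMeasurable, ?_⟩
    rw [hasFiniteIntegral_iff_ofReal]
    · exact lt_top_iff_ne_top.2 hcon
    · exact Eventually.of_forall fun z => Real.rpow_nonneg (norm_nonneg z) s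
  have h1 : (fun z : ℂ => (Metric.ball (0 : ℂ) R).indicator (fun z => ‖z‖ ^ s) z)
      = fun z : ℂ => (Iio R).indicator (fun y : ℝ => y ^ s) ‖z‖ := by
    funext z
    by_cases hz : ‖z‖ < R
    · rw [indicator_of_mem (show z ∈ Metric.ball (0 : ℂ) R by simpa using hz),
        indicator_of_mem (show ‖z‖ ∈ Iio R from hz)]
    · rw [indicator_of_notMem (show z ∉ Metric.ball (0 : ℂ) R by simpa using hz),
        indicator_of_notMem (show ‖z‖ ∉ Iio R from hz)]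
  rw [← integrable_indicator_iff Metric.isOpen_ball.measurableSet] at h0
  have h2 := (integrable_fun_norm_addHaar (E := ℂ) (F := ℝ) (μ := volume)
    (f := (Iio R).indicator (fun y : ℝ => y ^ s))).1
    ((congrArg (fun g => Integrable g volume) h1).mp h0)
  rw [Complex.finrank_real_complex] at h2
  have h3 : IntegrableOn (fun y : ℝ => y ^ (s + 1)) (Ioo 0 R) := by
    have h4 : IntegrableOn (fun y : ℝ => y ^ (2 - 1) • (Iio R).indicator (fun y : ℝ => y ^ s) y)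
        (Ioo 0 R) := h2.mono_set Ioo_subset_Ioi_self
    refine h4.congr_fun (fun y hy => ?_) measurableSet_Ioo
    simp only
    rw [indicator_of_mem (show y ∈ Iio R from hy.2), Real.rpow_add_one hy.1.ne']
    simp [mul_comm]
  rw [intervalIntegral.integrableOn_Ioo_rpow_iff hR] at h3
  linarith

/-- **Integrability gives lower bounds for the orders.** One chart `Φ` near a point of the divisor
`u = 0`, at most `M` to one off the divisor. -/
theorem exponent_of_inI {f g : (Fin 3 → ℂ) → ℂ} {k : ℝ} (hg : InI f k g)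
    {η₀ : ℂ} {ε : ℝ} (hε : 0 < ε) {Φ : ℂ × ℂ → Fin 3 → ℂ}
    (hΦ : ContDiffOn ℂ 1 Φ (ball (0 : ℂ) ε ×ˢ ball η₀ ε)) (hΦ0 : Φ (0, η₀) = 0)
    (hf : ∀ q ∈ ball (0 : ℂ) ε ×ˢ ball η₀ ε, f (Φ q) = 0)
    (hnd : ∀ q ∈ ball (0 : ℂ) ε ×ˢ ball η₀ ε, q.1 ≠ 0 → pd 2 f (Φ q) ≠ 0)
    (M : ℕ) (hfin : ∀ x, {q | q ∈ ball (0 : ℂ) ε ×ˢ ball η₀ ε ∧ q.1 ≠ 0 ∧ Φ q = x}.encard ≤ M)
    (W : ℂ × ℂ → ℂ)
    (hJ : ∀ q ∈ ball (0 : ℂ) ε ×ˢ ball η₀ ε, q.1 ≠ 0 → jac2 Φ q = W q * pd 2 f (Φ q))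
    {c P α : ℝ} (hc : 0 < c)
    (hW : ∀ q ∈ ball (0 : ℂ) ε ×ˢ ball η₀ ε, q.1 ≠ 0 → c * ‖q.1‖ ^ P ≤ ‖W q‖)
    (hh : ∀ q ∈ ball (0 : ℂ) ε ×ˢ ball η₀ ε, q.1 ≠ 0 → c * ‖q.1‖ ^ α ≤ ‖g (Φ q)‖)
    (hk : 0 < k) : -1 < α / k + P := by
  classical
  have hhaar : (volume : Measure (ℂ × ℂ)).IsAddHaarMeasure := by
    rw [Measure.volume_eq_prod]; infer_instance
  obtain ⟨-, r, hr, hfinr⟩ := hg
  -- a smaller polydisc mapped into the ball
  have hB : IsOpen (ball (0 : ℂ) ε ×ˢ ball η₀ ε) := isOpen_ball.prod isOpen_ball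
  have hmem0 : ((0 : ℂ), η₀) ∈ ball (0 : ℂ) ε ×ˢ ball η₀ ε := ⟨mem_ball_self hε, mem_ball_self hε⟩
  have hcont : ContinuousAt Φ (0, η₀) := hΦ.continuousOn.continuousAt (hB.mem_nhds hmem0)
  have hnear : ∀ᶠ q in 𝓝 ((0 : ℂ), η₀), Φ q ∈ ball (0 : Fin 3 → ℂ) r := by
    apply hcont.eventually_mem
    rw [hΦ0]
    exact isOpen_ball.mem_nhds (mem_ball_self hr)
  obtain ⟨δ, hδ, hδball⟩ := Metric.eventually_nhds_iff_ball.1 (hnear.and (hB.mem_nhds hmem0))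
  have hsub : ∀ q ∈ ball (0 : ℂ) δ ×ˢ ball η₀ δ,
      Φ q ∈ ball (0 : Fin 3 → ℂ) r ∧ q ∈ ball (0 : ℂ) ε ×ˢ ball η₀ ε := by
    intro q hq
    apply hδball
    rw [mem_ball, Prod.dist_eq]
    exact max_lt hq.1 hq.2
  set U : Set (ℂ × ℂ) := (ball (0 : ℂ) δ ×ˢ ball η₀ δ) ∩ {q | q.1 ≠ 0} with hU
  have hUo : IsOpen U := (isOpen_ball.prod isOpen_ball).inter (isOpen_ne.preimage continuous_fst)
  have hUsub : U ⊆ ball (0 : ℂ) ε ×ˢ ball η₀ ε := fun q hq => (hsub q hq.1).2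
  set ψ : ℂ × ℂ → ℂ → ℝ≥0∞ := fun p z =>
    ((ball (0 : Fin 3 → ℂ) r).indicator fun x => ‖g x‖ₑ ^ (2 / k)) (pt p z)
      / ‖pd 2 f (pt p z)‖ₑ ^ 2 with hψ
  set s : ℝ := 2 * (α / k + P) with hs
  set m : ℂ × ℂ → ℝ≥0∞ := fun q => ENNReal.ofReal (c ^ (2 / k) * c ^ 2) *
    ENNReal.ofReal (‖q.1‖ ^ s) with hm
  have hdet : ∀ q ∈ U, (fderiv ℝ (prj Φ) q).det = ‖W q‖ ^ 2 * ‖pd 2 f (Φ q)‖ ^ 2 := by
    intro q hq
    have hdiff : DifferentiableAt ℂ Φ q :=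
      (hΦ.differentiableOn (by norm_num)).differentiableAt (hB.mem_nhds (hUsub hq))
    rw [det_prj hdiff, hJ q (hUsub hq) hq.2, norm_mul, mul_pow]
  have hWpos : ∀ q ∈ U, 0 < ‖W q‖ := by
    intro q hq
    refine lt_of_lt_of_le ?_ (hW q (hUsub hq) hq.2)
    have : 0 < ‖q.1‖ := norm_pos_iff.2 hq.2
    positivity
  have hmain : ∫⁻ q in {q | q ∈ U ∧ (fderiv ℝ (prj Φ) q).det ≠ 0}, m q
      ≤ M * ∫⁻ p, ∑' z : Rts f 0 p, ψ p z := by
    refine lintegral_le_tsum (volume : Measure (ℂ × ℂ)) (fun p => Rts f 0 p) ψ hUo (prj Φ)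
      ((contDiffOn_prj hΦ).mono hUsub) (fun q => Φ q 2) m ?_ M ?_ ?_ ?_
    · have e1 : Measurable fun q : ℂ × ℂ => ENNReal.ofReal (‖q.1‖ ^ s) :=
        ENNReal.measurable_ofReal.comp (measurable_fst.norm.pow_const _)
      exact e1.const_mul _
    · intro p z
      refine le_trans (Set.encard_le_encard ?_) (hfin (pt p z))
      rintro q ⟨hq, hqp, hqz⟩
      refine ⟨hUsub hq, hq.2, ?_⟩
      rw [← pt_prj Φ q, hqp, hqz]
    · intro q hq _
      refine ⟨?_, ?_⟩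
      · rw [pt_prj]; exact hf q (hUsub hq)
      · rw [pt_prj]; exact hnd q (hUsub hq) hq.2
    · intro q hq _
      rw [hdet q hq, hψ]
      simp only
      rw [pt_prj, indicator_of_mem (hsub q hq.1).1]
      have hn : (0 : ℝ) < ‖pd 2 f (Φ q)‖ := norm_pos_iff.2 (hnd q (hUsub hq) hq.2)
      have hu : 0 < ‖q.1‖ := norm_pos_iff.2 hq.2
      have hden : (‖pd 2 f (Φ q)‖ₑ ^ 2 : ℝ≥0∞) = ENNReal.ofReal (‖pd 2 f (Φ q)‖ ^ 2) := by
        rw [ENNReal.ofReal_pow (norm_nonneg _), ofReal_norm]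
      have hnum : (‖g (Φ q)‖ₑ ^ (2 / k) : ℝ≥0∞) = ENNReal.ofReal (‖g (Φ q)‖ ^ (2 / k)) := by
        rw [← ENNReal.ofReal_rpow_of_nonneg (norm_nonneg _) (by positivity), ofReal_norm]
      rw [hden, hnum, abs_of_nonneg (by positivity), ← ENNReal.ofReal_div_of_pos (by positivity),
        ← ENNReal.ofReal_mul (by positivity), hm]
      simp only
      rw [← ENNReal.ofReal_mul (by positivity)]
      refine ENNReal.ofReal_le_ofReal ?_
      have e0 : ‖g (Φ q)‖ ^ (2 / k) / ‖pd 2 f (Φ q)‖ ^ 2 * (‖W q‖ ^ 2 * ‖pd 2 f (Φ q)‖ ^ 2)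
          = ‖g (Φ q)‖ ^ (2 / k) * ‖W q‖ ^ 2 := by
        field_simp
      rw [e0]
      have e1 : ‖q.1‖ ^ (2 * (α / k + P)) = ‖q.1‖ ^ (α * (2 / k)) * (‖q.1‖ ^ P) ^ 2 := by
        rw [← Real.rpow_natCast (‖q.1‖ ^ P) 2, ← Real.rpow_mul hu.le, ← Real.rpow_add hu]
        congr 1
        push_cast
        ring
      calc c ^ (2 / k) * c ^ 2 * ‖q.1‖ ^ s
          = (c * ‖q.1‖ ^ α) ^ (2 / k) * (c * ‖q.1‖ ^ P) ^ 2 := by
            rw [hs, e1, Real.mul_rpow hc.le (by positivity), ← Real.rpow_mul hu.le]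
            ring
        _ ≤ ‖g (Φ q)‖ ^ (2 / k) * ‖W q‖ ^ 2 := by
            gcongr
            · exact hh q (hUsub hq) hq.2
            · exact hW q (hUsub hq) hq.2
  have hset : {q | q ∈ U ∧ (fderiv ℝ (prj Φ) q).det ≠ 0} = U := by
    ext q
    refine ⟨fun hq => hq.1, fun hq => ⟨hq, ?_⟩⟩
    rw [hdet q hq]
    have h1 := hWpos q hq
    have h2 : (0 : ℝ) < ‖pd 2 f (Φ q)‖ := norm_pos_iff.2 (hnd q (hUsub hq) hq.2)
    positivity
  rw [hset] at hmain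
  have hfinite : ∫⁻ q in U, m q < ∞ :=
    lt_of_le_of_lt hmain (ENNReal.mul_lt_top (ENNReal.natCast_lt_top M) hfinr)
  by_contra hcon
  have hs2 : s ≤ -2 := by rw [hs]; linarith
  apply hfinite.ne
  have hUae : ∫⁻ q in U, m q = ∫⁻ q in ball (0 : ℂ) δ ×ˢ ball η₀ δ, m q := by
    refine setLIntegral_congr ?_
    have h1 : (volume : Measure (ℂ × ℂ)) ({0} ×ˢ univ) = 0 := by
      rw [Measure.volume_eq_prod, Measure.prod_prod]; simp
    have h2 : ∀ᵐ q : ℂ × ℂ, q ∉ ({0} ×ˢ univ : Set (ℂ × ℂ)) := measure_eq_zero_iff_ae_notMem.1 h1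
    filter_upwards [h2] with q hq
    have hq1 : q.1 ≠ 0 := fun h => hq ⟨h, mem_univ _⟩
    apply propext
    constructor
    · intro h
      exact h.1
    · intro h
      exact ⟨h, hq1⟩
  rw [hUae, hm]
  simp only
  rw [lintegral_const_mul' _ _ ENNReal.ofReal_ne_top, Measure.volume_eq_prod,
    ← Measure.prod_restrict]
  have hm1 : Measurable fun z : ℂ => ENNReal.ofReal (‖z‖ ^ s) :=
    ENNReal.measurable_ofReal.comp (measurable_norm.pow_const s)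
  have hm2 : Measurable fun _ : ℂ => (1 : ℝ≥0∞) := measurable_const
  have hprod := lintegral_prod_mul (μ := (volume : Measure ℂ).restrict (ball (0 : ℂ) δ))
    (ν := (volume : Measure ℂ).restrict (ball η₀ δ)) hm1.aemeasurable hm2.aemeasurable
  simp only [mul_one] at hprod
  rw [hprod, not_integrable_rpow_ball hs2 hδ]
  have hpos : (∫⁻ _ in ball η₀ δ, (1 : ℝ≥0∞)) ≠ 0 := by
    rw [lintegral_one, Measure.restrict_apply_univ]
    exact (measure_ball_pos volume η₀ hδ).ne'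
  rw [ENNReal.top_mul hpos, ENNReal.mul_top]
  exact (ENNReal.ofReal_pos.2 (by positivity)).ne'

/-- **Integrability for all `k < N` gives `α ≥ N b`** where `b = - P - 1 ≥ 0`. -/
theorem order_of_inI {f g : (Fin 3 → ℂ) → ℂ} {N : ℝ} (hN : 0 < N)
    (hg : ∀ k, 0 < k → k < N → InI f k g)
    {η₀ : ℂ} {ε : ℝ} (hε : 0 < ε) {Φ : ℂ × ℂ → Fin 3 → ℂ}
    (hΦ : ContDiffOn ℂ 1 Φ (ball (0 : ℂ) ε ×ˢ ball η₀ ε)) (hΦ0 : Φ (0, η₀) = 0)
    (hf : ∀ q ∈ ball (0 : ℂ) ε ×ˢ ball η₀ ε, f (Φ q) = 0)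
    (hnd : ∀ q ∈ ball (0 : ℂ) ε ×ˢ ball η₀ ε, q.1 ≠ 0 → pd 2 f (Φ q) ≠ 0)
    (M : ℕ) (hfin : ∀ x, {q | q ∈ ball (0 : ℂ) ε ×ˢ ball η₀ ε ∧ q.1 ≠ 0 ∧ Φ q = x}.encard ≤ M)
    (W : ℂ × ℂ → ℂ)
    (hJ : ∀ q ∈ ball (0 : ℂ) ε ×ˢ ball η₀ ε, q.1 ≠ 0 → jac2 Φ q = W q * pd 2 f (Φ q))
    {c P α : ℝ} (hc : 0 < c)
    (hW : ∀ q ∈ ball (0 : ℂ) ε ×ˢ ball η₀ ε, q.1 ≠ 0 → c * ‖q.1‖ ^ P ≤ ‖W q‖)
    (hh : ∀ q ∈ ball (0 : ℂ) ε ×ˢ ball η₀ ε, q.1 ≠ 0 → c * ‖q.1‖ ^ α ≤ ‖g (Φ q)‖) :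
    N * (-P - 1) ≤ α := by
  by_contra hcon
  push Not at hcon
  have key : ∀ k, 0 < k → k < N → (-P - 1) * k < α := by
    intro k hk hkN
    have := exponent_of_inI (hg k hk hkN) hε hΦ hΦ0 hf hnd M hfin W hJ hc hW hh hk
    have h2 : -1 - P < α / k := by linarith
    rw [lt_div_iff₀ hk] at h2
    linarith
  -- let k tend to N
  have hlim : Tendsto (fun k : ℝ => (-P - 1) * k) (𝓝[<] N) (𝓝 ((-P - 1) * N)) :=
    (Continuous.tendsto (by fun_prop) N).mono_left nhdsWithin_le_nhds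
  have : (-P - 1) * N ≤ α := by
    refine le_of_tendsto hlim ?_
    filter_upwards [self_mem_nhdsWithin, mem_nhdsWithin_of_mem_nhds (Ioi_mem_nhds hN)] with k h1 h2
    exact (key k h2 h1).le
  linarith

end Vale.Agent.P298.H707
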